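import Vale.Agent.P201.B1

/-! Part B of P201: matchings of large girth. -/

namespace Vale.Agent.P201

open Finset B

lemma B.mem_Omega {H V Lb : Type} [Fintype H] {X : Sys H V Lb} {g : ℕ} {M : H → H} :
    M ∈ X.Omega g ↔ X.IsMatch M ∧ X.Girth M g := by
  simp [Sys.Omega]

theorem omega_nonempty {H V Lb : Type} [Fintype H] (X : Sys H V Lb) {l lam : ℕ} (hb : X.Bd l lam)
    (hl : 2 ≤ l) (g : ℕ) (h0 : ∃ M, X.IsMatch M)
    (hN : 4 * l ^ (g + 4) + 2 * lam < Fintype.card H) : (X.Omega g).Nonempty := by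
  classical
  induction g with
  | zero =>
    obtain ⟨M, hM⟩ := h0
    exact ⟨M, mem_Omega.2 ⟨hM, fun k o hk => absurd hk (Nat.not_lt_zero _)⟩⟩
  | succ g ih =>
    have hN' : 4 * l ^ (g + 4) + 2 * lam < Fintype.card H := by
      have := Nat.pow_le_pow_right (show 0 < l by omega) (show g + 4 ≤ g + 1 + 4 by omega)
      omega
    obtain ⟨M, hM0, hmin⟩ := exists_min_image _
      (fun M => (univ.filter fun h => ∃ o, Cl X M g o ∧ o 0 = h).card) (ih hN')
    obtain ⟨hM, hg⟩ := mem_Omega.1 hM0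
    refine ⟨M, mem_Omega.2 ⟨hM, fun k o hk h1 h2 => ?_⟩⟩
    rcases (Nat.lt_succ_iff.1 hk).lt_or_eq with hk | rfl
    · exact hg k o hk h1 h2
    obtain ⟨u', -, hu'⟩ := exists_mem_notMem_of_card_lt_card
      ((count hb hl hM k (o 0)).trans_lt (hN'.trans_eq card_univ.symm))
    have a : Adm X M k (o 0) u' := by simpa using hu'
    refine absurd (hmin _ (mem_Omega.2 ⟨sw_match hM a, sw_girth hM hg a⟩)) (not_le.2 ?_)
    refine card_lt_card ⟨fun h hh => ?_, fun hsub => ?_⟩
    · obtain ⟨o', c, e⟩ := (mem_filter.1 hh).2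
      exact mem_filter.2 ⟨mem_univ _, o', cl_of hM hg a le_rfl c, e⟩
    · obtain ⟨o', c, e⟩ := (mem_filter.1
        (hsub (mem_filter.2 ⟨mem_univ (o 0), o, ⟨h1, h2⟩, rfl⟩))).2
      exact key hM hg a le_rfl c 0 (Nat.zero_le _) (Or.inl (Or.inl e))

theorem switch {H V Lb σ : Type} [Fintype H] [DecidableEq H] [DecidableEq σ] (X : Sys H V Lb)
    {l lam : ℕ} (hb : X.Bd l lam) (hl : 2 ≤ l) (g N0 r : ℕ) (T : Finset σ) (hT : T.card = 2 * r)
    (ep : σ → σ) (hep : ∀ x ∈ T, ep x ∈ T ∧ ep (ep x) = x ∧ ep x ≠ x) (h : σ → H)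
    (hi : Set.InjOn h T) (hN : N0 + 4 * l ^ (g + 4) + 2 * lam + T.card ≤ Fintype.card H) :
    ((X.Omega g).filter fun M => ∀ x ∈ T, M (h x) = h (ep x)).card * N0 ^ r ≤
      (X.Omega g).card := by
  classical
  induction r generalizing T with
  | zero => simpa using card_filter_le _ _
  | succ r ih =>
    obtain ⟨x, hx⟩ : T.Nonempty := card_pos.1 (by omega)
    obtain ⟨x1, x2, x3⟩ := hep x hx
    have sub : (T.erase x).erase (ep x) ⊆ T := (erase_subset _ _).trans (erase_subset _ _)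
    have cT : ((T.erase x).erase (ep x)).card = 2 * r := by
      rw [card_erase_of_mem (mem_erase.2 ⟨x3, x1⟩), card_erase_of_mem hx]; omega
    have := ih ((T.erase x).erase (ep x)) cT (fun y hy => by
      obtain ⟨y1, y2, y3⟩ := hep y (sub hy)
      obtain ⟨n1, hy'⟩ := mem_erase.1 hy
      refine ⟨mem_erase.2 ⟨fun e => ?_, mem_erase.2 ⟨fun e => ?_, y1⟩⟩, y2, y3⟩
      · exact (mem_erase.1 hy').1 (by rw [← y2, e, x2])
      · exact n1 (by rw [← y2, e])) (hi.mono (coe_subset.2 sub)) (by omega)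
    refine le_trans ?_ this
    rw [pow_succ', ← mul_assoc]
    refine Nat.mul_le_mul_right _ ?_
    obtain ⟨A, hA⟩ : ∃ A, A = (X.Omega g).filter fun M => ∀ x ∈ T, M (h x) = h (ep x) := ⟨_, rfl⟩
    have mA : ∀ M, M ∈ A → X.IsMatch M ∧ X.Girth M g ∧ ∀ x ∈ T, M (h x) = h (ep x) := fun M hM => by
      rw [hA, mem_filter, mem_Omega] at hM
      exact ⟨hM.1.1, hM.1.2, hM.2⟩
    rw [← hA]
    let Gd : (H → H) → Finset H := fun M =>
      univ.filter fun u' => Adm X M g (h x) u' ∧ u' ∉ T.image h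
    have cG : ∀ M ∈ A, N0 ≤ (Gd M).card := by
      intro M hM
      have e1 := count hb hl (mA M hM).1 g (h x)
      have e2 : (univ : Finset H) ⊆
          Gd M ∪ ((univ.filter fun u' => ¬ Adm X M g (h x) u') ∪ T.image h) := by
        intro u' _
        simp only [Gd, mem_union, mem_filter, mem_univ, true_and]
        tauto
      have e3 := (card_le_card e2).trans ((card_union_le _ _).trans
        (Nat.add_le_add_left (card_union_le _ _) _))
      have e4 := card_image_le (s := T) (f := h)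
      rw [card_univ] at e3
      omega
    calc A.card * N0 ≤ ∑ M ∈ A, (Gd M).card := card_nsmul_le_sum A _ N0 cG
      _ = (A.sigma Gd).card := (card_sigma _ _).symm
      _ ≤ _ := by
        refine card_le_card_of_injOn (fun p => sw p.1 (h x) p.2) (fun p hp => ?_) ?_
        · obtain ⟨p1, p2⟩ := mem_sigma.1 (mem_coe.1 hp)
          obtain ⟨m1, m2, m3⟩ := mA _ p1
          obtain ⟨a, nT⟩ := (mem_filter.1 p2).2
          refine mem_coe.2 (mem_filter.2 ⟨mem_Omega.2 ⟨sw_match m1 a, sw_girth m1 m2 a⟩,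
            fun y hy => ?_⟩)
          obtain ⟨n1, hy'⟩ := mem_erase.1 hy
          rw [← m3 y (sub hy)]
          refine sw_o m1 ?_
          rintro ((e | e) | (e | e))
          · exact (mem_erase.1 hy').1 (hi (sub hy) hx e)
          · exact n1 (hi (sub hy) x1 (e.trans (m3 x hx)))
          · exact nT (e ▸ mem_image_of_mem _ (sub hy))
          · refine nT (mem_image.2 ⟨ep y, (hep y (sub hy)).1, ?_⟩)
            rw [← m3 y (sub hy), e, (m1 _).1]
        · rintro ⟨M, u⟩ hp ⟨M', u'⟩ hp' e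
          obtain ⟨p1, p2⟩ := mem_sigma.1 (mem_coe.1 hp)
          obtain ⟨q1, q2⟩ := mem_sigma.1 (mem_coe.1 hp')
          simp only at e p1 p2 q1 q2
          have e1 := sw_v (mA _ p1).1 (mem_filter.1 p2).2.1
          have e2 := sw_v (mA _ q1).1 (mem_filter.1 q2).2.1
          rw [(mA _ p1).2.2 x hx, e] at e1
          rw [(mA _ q1).2.2 x hx, e1] at e2
          subst e2
          have : M = M' := by rw [← sw_sw M (h x) u, e, sw_sw]
          subst this
          rfl

end Vale.Agent.P201
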