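import Vale.Agent.P201.Defs

/-! Part B of P201, first file: the switching operation. -/

namespace Vale.Agent.P201.B

open Finset

variable {H V Lb : Type} (X : Sys H V Lb)

/-- Closed nonbacktracking walks. -/
def Cl (M : H → H) (k : ℕ) (o : ℕ → H) : Prop :=
  (∀ j, j < k → X.vtx (o (j + 1)) = X.vtx (M (o j)) ∧ o (j + 1) ≠ M (o j)) ∧
    X.vtx (M (o k)) = X.vtx (o 0)

/-- Switching. -/
def sw [DecidableEq H] (M : H → H) (u u' : H) : H → H :=
  fun h => Equiv.swap u u' (M (Equiv.swap u u' h))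

/-- Admissible switches. -/
structure Adm (M : H → H) (g : ℕ) (u u' : H) : Prop where
  far : ∃ f : V → ℕ, (∀ h, f (X.vtx (M h)) ≤ f (X.vtx h) + 1) ∧ f (X.vtx u) = 0 ∧
    g + 3 ≤ f (X.vtx u')
  l1 : X.lab u' ≠ X.lab (M u)
  l2 : X.lab (M u') ≠ X.lab u

variable {X} {M : H → H} {g : ℕ} {u u' : H}

lemma ne_of (hM : X.IsMatch M) (h : H) : M h ≠ h := fun e => (hM h).2 (by rw [e])

lemma Adm.ne (hM : X.IsMatch M) (a : Adm X M g u u') : u ≠ u' ∧ M u ≠ u' ∧ M u' ≠ u := by
  obtain ⟨f, f1, f2, f3⟩ := a.far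
  refine ⟨fun h => ?_, fun h => a.l1 (by rw [h]), fun h => a.l2 (by rw [h])⟩
  rw [← h] at f3
  omega

variable [DecidableEq H]

lemma sw_sw (M : H → H) (u u' : H) : sw (sw M u u') u u' = M := by
  funext h
  simp [sw]

lemma sw_u (hM : X.IsMatch M) (a : Adm X M g u u') : sw M u u' u = M u' := by
  rw [sw, Equiv.swap_apply_left, Equiv.swap_apply_of_ne_of_ne (a.ne hM).2.2 (ne_of hM _)]

lemma sw_u' (hM : X.IsMatch M) (a : Adm X M g u u') : sw M u u' u' = M u := by
  rw [sw, Equiv.swap_apply_right, Equiv.swap_apply_of_ne_of_ne (ne_of hM _) (a.ne hM).2.1]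

lemma sw_v (hM : X.IsMatch M) (a : Adm X M g u u') : sw M u u' (M u) = u' := by
  rw [sw, Equiv.swap_apply_of_ne_of_ne (ne_of hM _) (a.ne hM).2.1, (hM u).1, Equiv.swap_apply_left]

lemma sw_v' (hM : X.IsMatch M) (a : Adm X M g u u') : sw M u u' (M u') = u := by
  rw [sw, Equiv.swap_apply_of_ne_of_ne (a.ne hM).2.2 (ne_of hM _), (hM u').1,
    Equiv.swap_apply_right]

lemma sw_o (hM : X.IsMatch M) {h : H} (hh : ¬ ((h = u ∨ h = M u) ∨ (h = u' ∨ h = M u'))) :
    sw M u u' h = M h := by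
  simp only [not_or] at hh
  rw [sw, Equiv.swap_apply_of_ne_of_ne hh.1.1 hh.2.1, Equiv.swap_apply_of_ne_of_ne]
  · intro e
    exact hh.1.2 (by rw [← e, (hM h).1])
  · intro e
    exact hh.2.2 (by rw [← e, (hM h).1])

lemma sw_match (hM : X.IsMatch M) (a : Adm X M g u u') : X.IsMatch (sw M u u') := by
  intro h
  refine ⟨by simp [sw, (hM _).1], ?_⟩
  by_cases hh : (h = u ∨ h = M u) ∨ (h = u' ∨ h = M u')
  · rcases hh with (rfl | rfl) | (rfl | rfl)
    · rw [sw_u hM a]; exact a.l2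
    · rw [sw_v hM a]; exact a.l1
    · rw [sw_u' hM a]; exact a.l1.symm
    · rw [sw_v' hM a]; exact a.l2.symm
  · rw [sw_o hM hh]; exact (hM h).2

lemma chain {F : ℕ → ℕ} {a : ℕ} (m : ℕ)
    (h : ∀ j, a ≤ j → j < a + m → F (j + 1) ≤ F j + 1 ∧ F j ≤ F (j + 1) + 1) :
    F (a + m) ≤ F a + m ∧ F a ≤ F (a + m) + m := by
  induction m with
  | zero => simp
  | succ m ih =>
    have h1 := ih fun j h1 h2 => h j h1 (by omega)
    have h2 := h (a + m) (by omega) (by omega)
    rw [← add_assoc]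
    omega

lemma key (hM : X.IsMatch M) (hg : X.Girth M g) (a : Adm X M g u u') {k : ℕ} (hk : k ≤ g)
    {o : ℕ → H} (ho : Cl X (sw M u u') k o) (j : ℕ) (hj : j ≤ k) :
    ¬ ((o j = u ∨ o j = M u) ∨ (o j = u' ∨ o j = M u')) := by
  classical
  obtain ⟨f, f1, f2, f3⟩ := a.far
  have f4 : ∀ h, f (X.vtx h) ≤ f (X.vtx (M h)) + 1 := fun h => by
    have := f1 (M h)
    rwa [(hM h).1] at this
  have near : ∀ h, (h = u ∨ h = M u) → f (X.vtx h) ≤ 1 := by
    rintro h (rfl | rfl)
    · omega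
    · have := f1 u
      omega
  have far : ∀ h, (h = u' ∨ h = M u') → g + 2 ≤ f (X.vtx h) := by
    rintro h (rfl | rfl)
    · omega
    · have := f4 u'
      omega
  have nf : ∀ h, (h = u ∨ h = M u) → (sw M u u' h = u' ∨ sw M u u' h = M u') := by
    rintro h (rfl | rfl)
    · exact Or.inr (sw_u hM a)
    · exact Or.inl (sw_v hM a)
  have fn : ∀ h, (h = u' ∨ h = M u') → (sw M u u' h = u ∨ sw M u u' h = M u) := by
    rintro h (rfl | rfl)
    · exact Or.inr (sw_u' hM a)
    · exact Or.inl (sw_v' hM a)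
  obtain ⟨S, hS⟩ : ∃ S : ℕ → Prop, ∀ j, S j ↔
      ((o j = u ∨ o j = M u) ∨ (o j = u' ∨ o j = M u')) := ⟨_, fun _ => Iff.rfl⟩
  obtain ⟨F, hF⟩ : ∃ F : ℕ → ℕ, ∀ j, F j = f (X.vtx (o (if j ≤ k then j else 0))) :=
    ⟨_, fun _ => rfl⟩
  have F1 : ∀ j, j ≤ k → F j = f (X.vtx (o j)) := fun j h => by rw [hF, if_pos h]
  have F2 : ∀ j, j ≤ k → F (j + 1) = f (X.vtx (sw M u u' (o j))) := fun j h => by
    rcases h.lt_or_eq with h | rfl
    · rw [F1 _ h, (ho.1 j h).1]
    · rw [hF, if_neg (by omega), ho.2]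
  have lip : ∀ j, j ≤ k → ¬ S j → F (j + 1) ≤ F j + 1 ∧ F j ≤ F (j + 1) + 1 := fun j h hs => by
    rw [F1 j h, F2 j h, sw_o hM (mt (hS j).2 hs)]
    exact ⟨f1 _, f4 _⟩
  rw [← hS]
  intro hSj
  obtain ⟨i, hi, hmin⟩ : ∃ i, S i ∧ ∀ i', i' < i → ¬ S i' :=
    ⟨Nat.find ⟨j, hSj⟩, Nat.find_spec (⟨j, hSj⟩ : ∃ i, S i), fun i' h => Nat.find_min _ h⟩
  have hik : i ≤ k := by
    by_contra h
    exact hmin j (by omega) hSj
  by_cases hex : ∃ m, i + 1 + m ≤ k ∧ S (i + 1 + m)
  · obtain ⟨m, ⟨hm, hSm⟩, hmin2⟩ : ∃ m, (i + 1 + m ≤ k ∧ S (i + 1 + m)) ∧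
        ∀ m', m' < m → ¬ (i + 1 + m' ≤ k ∧ S (i + 1 + m')) :=
      ⟨Nat.find hex, Nat.find_spec hex, fun m' h => Nat.find_min _ h⟩
    have ns : ∀ j, i + 1 ≤ j → j < i + 1 + m → ¬ S j := fun j h1 h2 h3 => by
      obtain ⟨m', rfl⟩ := Nat.exists_eq_add_of_le h1
      exact hmin2 m' (by omega) ⟨by omega, h3⟩
    have c := chain (F := F) (a := i + 1) m fun j h1 h2 => lip j (by omega) (ns j h1 h2)
    rw [F2 i hik, F1 _ hm] at c
    have walk : ∀ j, j < m → X.vtx (o (i + 1 + (j + 1))) = X.vtx (M (o (i + 1 + j))) ∧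
        o (i + 1 + (j + 1)) ≠ M (o (i + 1 + j)) := fun j h => by
      rw [← sw_o hM (mt (hS _).2 (ns (i + 1 + j) (by omega) (by omega)))]
      exact ho.1 (i + 1 + j) (by omega)
    have same : o (i + 1 + m) = sw M u u' (o i) ∨ M (o (i + 1 + m)) = sw M u u' (o i) := by
      have pair : ∀ w x y : H, (x = w ∨ x = M w) → (y = w ∨ y = M w) → x = y ∨ M x = y := by
        rintro w x y (rfl | rfl) (rfl | rfl)
        · exact Or.inl rfl
        · exact Or.inr rfl
        · exact Or.inr (hM _).1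
        · exact Or.inl rfl
      rcases (hS _).1 hi with h1 | h1 <;> rcases (hS _).1 hSm with h2 | h2
      · have := near _ h2
        have := far _ (nf _ h1)
        omega
      · exact pair _ _ _ h2 (nf _ h1)
      · exact pair _ _ _ h2 (fn _ h1)
      · have := far _ h2
        have := near _ (fn _ h1)
        omega
    have st := ho.1 i (by omega)
    rcases same with h | h
    · rcases m with _ | m
      · exact st.2 h
      · refine hg m (fun j => o (i + 1 + j)) (by omega) (fun j hj => walk j (by omega)) ?_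
        rw [← (walk m (by omega)).1, h]
        exact st.1.symm
    · refine hg m (fun j => o (i + 1 + j)) (by omega) walk ?_
      simp only [h]
      exact st.1.symm
  · have c1 := chain (F := F) (a := 0) i fun j _ h2 => lip j (by omega) (hmin j (by omega))
    have c2 := chain (F := F) (a := i + 1) (k - i) fun j h1 h2 => lip j (by omega) fun h => by
      obtain ⟨m', rfl⟩ := Nat.exists_eq_add_of_le h1
      exact hex ⟨m', by omega, h⟩
    have e : F (i + 1 + (k - i)) = F 0 := by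
      rw [hF, if_neg (by omega), F1 0 (by omega)]
    rw [e, F2 i hik] at c2
    rw [zero_add, F1 i hik] at c1
    rcases (hS _).1 hi with h1 | h1
    · have := near _ h1
      have := far _ (nf _ h1)
      omega
    · have := far _ h1
      have := near _ (fn _ h1)
      omega

lemma cl_of (hM : X.IsMatch M) (hg : X.Girth M g) (a : Adm X M g u u') {k : ℕ} (hk : k ≤ g)
    {o : ℕ → H} (ho : Cl X (sw M u u') k o) : Cl X M k o := by
  have e : ∀ j, j ≤ k → sw M u u' (o j) = M (o j) := fun j hj => sw_o hM (key hM hg a hk ho j hj)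
  refine ⟨fun j hj => ?_, ?_⟩
  · rw [← e j hj.le]; exact ho.1 j hj
  · rw [← e k le_rfl]; exact ho.2

lemma sw_girth (hM : X.IsMatch M) (hg : X.Girth M g) (a : Adm X M g u u') :
    X.Girth (sw M u u') g := fun k o hk h1 h2 =>
  have := cl_of hM hg a hk.le (⟨h1, h2⟩ : Cl X (sw M u u') k o)
  hg k o hk this.1 this.2

omit [DecidableEq H] in
open Classical in
lemma count [Fintype H] {l lam : ℕ} (hb : X.Bd l lam) (hl : 2 ≤ l) (hM : X.IsMatch M) (g : ℕ)
    (u : H) : (univ.filter fun u' => ¬ Adm X M g u u').card ≤ 4 * l ^ (g + 4) + 2 * lam := by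
  obtain ⟨B, B0, B1⟩ : ∃ B : ℕ → Finset V, B 0 = {X.vtx u} ∧ ∀ n, B (n + 1) =
      insert (X.vtx u) ((univ.filter fun h => X.vtx h ∈ B n).image fun h => X.vtx (M h)) :=
    ⟨fun n => Nat.rec {X.vtx u} (fun _ A =>
      insert (X.vtx u) ((univ.filter fun h => X.vtx h ∈ A).image fun h => X.vtx (M h))) n,
      rfl, fun _ => rfl⟩
  have hc : ∀ A : Finset V, (univ.filter fun h => X.vtx h ∈ A).card ≤ l * A.card := fun A =>
    card_le_mul_card_image_of_maps_to (f := X.vtx) (fun h hh => (mem_filter.1 hh).2) l fun x _ =>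
      le_trans (card_le_card fun h hh => mem_filter.2 ⟨mem_univ _, (mem_filter.1 hh).2⟩) (hb.1 x)
  have cB : ∀ n, (B n).card + 1 ≤ 2 * l ^ n := by
    intro n
    induction n with
    | zero => simp [B0]
    | succ n ih =>
      have h1 : (B (n + 1)).card ≤ l * (B n).card + 1 := by
        rw [B1]
        exact (card_insert_le _ _).trans (Nat.succ_le_succ (card_image_le.trans (hc _)))
      have h2 := Nat.mul_le_mul_left l ih
      rw [pow_succ]
      nlinarith
  have mono : ∀ n, B n ⊆ B (n + 1) := by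
    intro n
    induction n with
    | zero => rw [B0, B1]; simp
    | succ n ih =>
      rw [B1 (n + 1), B1 n]
      refine insert_subset_insert _ (image_subset_image fun h hh => ?_)
      rw [← B1]
      exact mem_filter.2 ⟨mem_univ _, ih (mem_filter.1 hh).2⟩
  have mono' : Monotone B := monotone_nat_of_le_succ mono
  have ex : ∀ x, ∃ n, x ∈ B n ∨ n = g + 3 := fun x => ⟨_, Or.inr rfl⟩
  have sub : (univ.filter fun u' => ¬ Adm X M g u u') ⊆
      (univ.filter fun h => X.vtx h ∈ B (g + 3)) ∪ (univ.filter fun h => X.lab h = X.lab (M u)) ∪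
        (univ.filter fun h => X.lab h = X.lab u).image M := by
    intro u' hu'
    by_contra hn
    simp only [mem_union, mem_filter, mem_univ, true_and, not_or, mem_image, not_exists,
      not_and] at hn hu'
    refine hu' ⟨⟨fun x => Nat.find (ex x), fun h => ?_, ?_, ?_⟩, hn.1.2,
      fun e => hn.2 _ e (hM u').1⟩
    · rcases Nat.find_spec (ex (X.vtx h)) with h1 | h1
      · refine Nat.find_min' _ (Or.inl ?_)
        rw [B1]
        exact mem_insert_of_mem (mem_image_of_mem _ (mem_filter.2 ⟨mem_univ _, h1⟩))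
      · exact (Nat.find_min' (ex (X.vtx (M h))) (Or.inr rfl)).trans (h1.ge.trans (Nat.le_succ _))
    · exact (Nat.find_eq_zero _).2 (Or.inl (by simp [B0]))
    · refine (Nat.le_find_iff _ _).2 fun m hm h => ?_
      rcases h with h | h
      · exact hn.1.1 (mono' hm.le h)
      · omega
  refine (card_le_card sub).trans ((card_union_le _ _).trans ?_)
  have e1 := card_union_le (univ.filter fun h => X.vtx h ∈ B (g + 3))
    (univ.filter fun h => X.lab h = X.lab (M u))
  have e2 := hc (B (g + 3))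
  have e3 := hb.2 (X.lab (M u))
  have e4 := (card_image_le (f := M)).trans (hb.2 (X.lab u))
  have e5 := Nat.mul_le_mul_left l (cB (g + 3))
  rw [pow_succ l (g + 3)]
  nlinarith [Nat.zero_le (l ^ (g + 3) * l)]

end Vale.Agent.P201.B
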