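import Vale.Agent.P201.Defs

/-! Euler count for part D3 of P201. -/

namespace Vale.Agent.P201

open Finset

namespace D3

variable {I : Type} [Fintype I]

lemma reps (σ : Equiv.Perm I) : ∃ T : Finset I, (∀ k, ∃ t ∈ T, ∃ j : ℕ, (σ ^ j) t = k) ∧
    ∀ t ∈ T, ∀ t' ∈ T, σ.SameCycle t t' → t = t' := by
  classical
  let s : Setoid I := ⟨σ.SameCycle, Equiv.Perm.SameCycle.equivalence σ⟩
  refine ⟨univ.image fun k => (Quotient.mk s k).out, fun k => ?_, ?_⟩
  · have h : σ.SameCycle (Quotient.mk s k).out k := Quotient.mk_out (s := s) k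
    obtain ⟨j, -, hj⟩ := h.exists_pow_eq'
    exact ⟨_, mem_image_of_mem _ (mem_univ k), j, hj⟩
  · intro t ht t' ht' h
    obtain ⟨k, -, rfl⟩ := mem_image.1 ht
    obtain ⟨k', -, rfl⟩ := mem_image.1 ht'
    have := Quotient.sound (s := s) h
    rw [Quotient.out_eq, Quotient.out_eq] at this
    rw [this]

omit [Fintype I] in
lemma count (σ : Equiv.Perm I) (T S : Finset I) (r : ℕ)
    (hT : ∀ t ∈ T, ∀ t' ∈ T, σ.SameCycle t t' → t = t')
    (h1 : ∀ t ∈ T, ∀ i < r, (σ ^ i) t ∈ S)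
    (h2 : ∀ t ∈ T, ∀ i < r, ∀ j < r, (σ ^ i) t = (σ ^ j) t → i = j) : T.card * r ≤ S.card := by
  rw [← card_range r, ← card_product]
  refine card_le_card_of_injOn (fun p => (σ ^ p.2) p.1) (fun p hp => ?_) (fun p hp q hq h => ?_)
  · obtain ⟨a, b⟩ := mem_product.1 (mem_coe.1 hp)
    exact mem_coe.2 (h1 _ a _ (mem_range.1 b))
  · obtain ⟨a, b⟩ := mem_product.1 (mem_coe.1 hp)
    obtain ⟨c, d⟩ := mem_product.1 (mem_coe.1 hq)
    have h' : (σ ^ p.2) p.1 = (σ ^ q.2) q.1 := h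
    have e : p.1 = q.1 := hT _ a _ c (by
      have x : σ.SameCycle p.1 ((σ ^ p.2) p.1) := ⟨p.2, by rw [zpow_natCast]⟩
      have y : σ.SameCycle q.1 ((σ ^ q.2) q.1) := ⟨q.2, by rw [zpow_natCast]⟩
      rw [h'] at x
      exact x.trans y.symm)
    rw [← e] at h'
    exact Prod.ext e (h2 _ a _ (mem_range.1 b) _ (mem_range.1 d) h')

/-- Invariant functions. -/
def Inv (σ : Equiv.Perm I) : Submodule (ZMod 2) (I → ZMod 2) where
  carrier := {f | ∀ k, f (σ k) = f k}
  add_mem' hf hg k := by simp only [Pi.add_apply, hf k, hg k]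
  zero_mem' _ := rfl
  smul_mem' c f hf k := by simp only [Pi.smul_apply, hf k]

lemma inv_le (σ : Equiv.Perm I) (T : Finset I) (hT : ∀ k, ∃ t ∈ T, ∃ j : ℕ, (σ ^ j) t = k) :
    Module.finrank (ZMod 2) (Inv σ) ≤ T.card := by
  let ρ : Inv σ →ₗ[ZMod 2] (T → ZMod 2) :=
    (LinearMap.funLeft (ZMod 2) (ZMod 2) Subtype.val) ∘ₗ (Inv σ).subtype
  have hρ : Function.Injective ρ := by
    rw [injective_iff_map_eq_zero]
    rintro ⟨f, hf⟩ h
    ext k
    obtain ⟨t, ht, j, rfl⟩ := hT k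
    have h0 : f t = 0 := congrFun h ⟨t, ht⟩
    change f _ = 0
    induction j with
    | zero => exact h0
    | succ j ih => rw [pow_succ', Equiv.Perm.mul_apply, hf, ih]
  simpa using LinearMap.finrank_le_finrank_of_injective hρ

lemma two (σ : Equiv.Perm I) (t : I) (ht : σ t ≠ t) : ∀ i < 2, ∀ j < 2,
    (σ ^ i) t = (σ ^ j) t → i = j := by
  intro i hi j hj h
  have ht' := ht.symm
  interval_cases i <;> interval_cases j <;> simp_all

lemma thr (σ : Equiv.Perm I) (t : I) (ht : σ t ≠ t) (h2 : σ (σ t) ≠ t) : ∀ i < 3, ∀ j < 3,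
    (σ ^ i) t = (σ ^ j) t → i = j := by
  intro i hi j hj h
  have ht' := ht.symm
  have h2' := h2.symm
  interval_cases i <;> interval_cases j <;> simp_all [pow_succ]

lemma orb [DecidableEq I] (σ : Equiv.Perm I) (h : ∀ t, σ t ≠ t) : ∃ T : Finset I,
    (∀ k, ∃ t ∈ T, ∃ j : ℕ, (σ ^ j) t = k) ∧
      6 * T.card + (univ.filter fun k => σ (σ k) ≠ k).card ≤ 3 * Fintype.card I := by
  obtain ⟨B, b1, b2⟩ := reps σ
  refine ⟨B, b1, ?_⟩
  have c2 := count σ (B.filter fun k => ¬ σ (σ k) ≠ k) (univ.filter fun k => ¬ σ (σ k) ≠ k) 2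
    (fun t ht t' ht' => b2 t (mem_filter.1 ht).1 t' (mem_filter.1 ht').1)
    (fun t ht i hi => by
      have := (mem_filter.1 ht).2
      rw [not_not] at this
      interval_cases i <;> simp [this])
    fun t _ => two _ t (h t)
  have c3 := count σ (B.filter fun k => σ (σ k) ≠ k) (univ.filter fun k => σ (σ k) ≠ k) 3
    (fun t ht t' ht' => b2 t (mem_filter.1 ht).1 t' (mem_filter.1 ht').1)
    (fun t ht i hi => by
      have := (mem_filter.1 ht).2
      interval_cases i <;> simp [this, pow_succ])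
    (fun t ht => thr σ t (h t) (mem_filter.1 ht).2)
  have c4 := card_filter_add_card_filter_not (s := B) fun k => σ (σ k) ≠ k
  have c5 := card_filter_add_card_filter_not (s := univ) fun k => σ (σ k) ≠ k
  rw [card_univ] at c5
  omega

end D3

theorem euler {I : Type} [Fintype I] [DecidableEq I] (nu mu : Equiv.Perm I)
    (h1 : ∀ k, mu (mu k) = k) (h2 : ∀ k, mu k ≠ k) (h3 : ∀ k, mu (nu k) ≠ k) (hp : Planar nu mu)
    (T : Finset I) (hT : ∀ k, ∃ t ∈ T, ∃ j : ℕ, (nu ^ j) t = k) :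
    (univ.filter fun k => mu (nu (mu (nu k))) ≠ k).card ≤ 6 * T.card := by
  obtain ⟨A, a1, c1⟩ := D3.orb mu h2
  obtain ⟨B, b1, c2⟩ := D3.orb (mu * nu) h3
  replace c2 : 6 * B.card + (univ.filter fun k => mu (nu (mu (nu k))) ≠ k).card ≤
    3 * Fintype.card I := c2
  let Ψ : (I → ZMod 2) →ₗ[ZMod 2] (I → ZMod 2) :=
    { toFun := fun u k => u (mu k) + u (nu⁻¹ (mu k)) + (u k + u (nu⁻¹ k))
      map_add' := fun u w => by ext k; simp only [Pi.add_apply]; ring
      map_smul' := fun c u => by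
        ext k; simp only [Pi.smul_apply, smul_eq_mul, RingHom.id_apply]; ring }
  have r1 : LinearMap.range Ψ ≤ D3.Inv mu := by
    rintro _ ⟨u, rfl⟩ k
    change u (mu (mu k)) + u (nu⁻¹ (mu (mu k))) + (u (mu k) + u (nu⁻¹ (mu k))) =
      u (mu k) + u (nu⁻¹ (mu k)) + (u k + u (nu⁻¹ k))
    rw [h1, add_comm]
  have r2 : LinearMap.ker Ψ ≤ D3.Inv nu ⊔ D3.Inv (mu * nu) := by
    intro u hu
    obtain ⟨ka, k1, k2⟩ := hp u fun k => by
      have : u (mu k) + u (nu⁻¹ (mu k)) + (u k + u (nu⁻¹ k)) = 0 := congrFun hu k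
      exact (CharTwo.add_eq_zero).1 this
    refine Submodule.mem_sup.2 ⟨ka, k1, u + ka, k2, ?_⟩
    ext k
    simp only [Pi.add_apply]
    rw [add_left_comm, CharTwo.add_self_eq_zero, add_zero]
  have d1 := LinearMap.finrank_range_add_finrank_ker Ψ
  have d2 := (Submodule.finrank_mono r1).trans (D3.inv_le mu A a1)
  have d3 := (Submodule.finrank_mono r2).trans (Submodule.finrank_add_le_finrank_add_finrank _ _)
  have d4 := D3.inv_le nu T hT
  have d5 := D3.inv_le (mu * nu) B b1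
  rw [Module.finrank_fintype_fun_eq_card] at d1
  omega

end Vale.Agent.P201
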