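import Vale.Agent.P201.PartD4

/-! Part D5a of P201, first file: segments and cycles. -/

namespace Vale.Agent.P201

open Finset

theorem seg {O : Type} [Fintype O] (nx : Equiv.Perm O) (s : ℕ) (hs : 1 ≤ s)
    (h : ∀ o j, 0 < j → j < s → (nx ^ j) o ≠ o) : Nonempty (Seg nx s) := by
  classical
  obtain ⟨b, hb1, hb2⟩ : ∃ b : O → O, (∀ o, nx.SameCycle (b o) o) ∧
      ∀ o (i : ℕ), b ((nx ^ i) o) = b o := by
    refine ⟨fun o => (Quotient.mk (Equiv.Perm.SameCycle.setoid nx) o).out,
      fun o => Quotient.mk_out (s := Equiv.Perm.SameCycle.setoid nx) o, fun o i => ?_⟩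
    have : Quotient.mk (Equiv.Perm.SameCycle.setoid nx) ((nx ^ i) o) =
        Quotient.mk (Equiv.Perm.SameCycle.setoid nx) o :=
      Quotient.sound (Equiv.Perm.sameCycle_pow_left.2 (Equiv.Perm.SameCycle.refl _ _))
    simp only [this]
  have hp : ∀ o, 0 < Function.minimalPeriod nx o := fun o =>
    Function.minimalPeriod_pos_of_mem_periodicPts (nx.injective.mem_periodicPts o)
  have hn : ∀ o, s ≤ Function.minimalPeriod nx o := fun o => by
    by_contra hlt
    exact h o _ (hp o) (not_le.1 hlt) (Function.isPeriodicPt_minimalPeriod nx o)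
  have hj : ∀ o, ∃ j, j < Function.minimalPeriod nx (b o) ∧ (nx ^ j) (b o) = o := by
    intro o
    obtain ⟨i, -, hi⟩ := (hb1 o).exists_pow_eq'
    refine ⟨i % Function.minimalPeriod nx (b o), Nat.mod_lt _ (hp _), ?_⟩
    rw [← Equiv.Perm.iterate_eq_pow, Function.iterate_mod_minimalPeriod_eq]
    exact hi
  choose j j1 j2 using hj
  have bb : ∀ o, b (b o) = b o := fun o => by
    have := hb2 (b o) (j o)
    rw [j2] at this
    exact this.symm
  have j3 : ∀ o i, i < Function.minimalPeriod nx (b o) → j ((nx ^ i) (b o)) = i := by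
    intro o i hi
    have e1 := j1 ((nx ^ i) (b o))
    have e2 := j2 ((nx ^ i) (b o))
    rw [hb2, bb] at e1 e2
    exact Function.iterate_injOn_Iio_minimalPeriod e1 hi e2
  obtain ⟨n, hn'⟩ : ∃ n : O → ℕ, ∀ o, n o = Function.minimalPeriod nx (b o) := ⟨_, fun _ => rfl⟩
  obtain ⟨q, hq⟩ : ∃ q : O → ℕ, ∀ o, q o = min (j o / s) (n o / s - 1) := ⟨_, fun _ => rfl⟩
  simp only [← hn'] at j1 j3
  have n1 : ∀ o, 1 ≤ n o / s := fun o => (Nat.one_le_div_iff hs).2 (hn' o ▸ hn _)
  have n2 : ∀ o, (n o / s - 1) * s + s + n o % s = n o := fun o => by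
    have := Nat.div_add_mod' (n o) s
    rw [← Nat.succ_mul, Nat.succ_eq_add_one, Nat.sub_add_cancel (n1 o), this]
  have n3 : ∀ o, n o % s < s := fun o => Nat.mod_lt _ hs
  have q1 : ∀ o, q o * s ≤ j o := fun o =>
    (Nat.mul_le_mul_right _ (hq o ▸ min_le_left _ _)).trans (Nat.div_mul_le_self _ _)
  have l1 : ∀ o, (if j ((nx ^ (q o * s)) (b o)) / s < n ((nx ^ (q o * s)) (b o)) / s - 1 then s
      else n ((nx ^ (q o * s)) (b o)) - (n ((nx ^ (q o * s)) (b o)) / s - 1) * s) =
      if q o < n o / s - 1 then s else s + n o % s := by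
    intro o
    have : n ((nx ^ (q o * s)) (b o)) = n o := by rw [hn', hb2, bb, hn']
    rw [this, j3 o _ ((q1 o).trans_lt (j1 o)), Nat.mul_div_cancel _ hs]
    have := n2 o
    split_ifs
    · rfl
    · omega
  refine ⟨⟨fun o => (nx ^ (q o * s)) (b o), fun o => j o - q o * s,
    fun a => if j a / s < n a / s - 1 then s else n a - (n a / s - 1) * s,
    fun o => ?_, fun o => ?_, fun o => ?_, fun o i hi => ?_⟩⟩
  · rw [← Equiv.Perm.mul_apply, ← pow_add, Nat.sub_add_cancel (q1 o), j2]
  · simp only [l1]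
    split_ifs with h1
    · have e : q o = j o / s := by rw [hq] at h1 ⊢; omega
      have := Nat.div_add_mod' (j o) s
      have := Nat.mod_lt (j o) hs
      rw [e]; omega
    · have e : q o = n o / s - 1 := by rw [hq] at h1 ⊢; omega
      have := n2 o
      have := j1 o
      rw [e]; omega
  · simp only [l1]
    have := n3 o
    split_ifs <;> omega
  · simp only [l1] at hi
    have e0 : (nx ^ i) ((nx ^ (q o * s)) (b o)) = (nx ^ (i + q o * s)) (b o) := by
      rw [← Equiv.Perm.mul_apply, ← pow_add]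
    have qn : q o ≤ n o / s - 1 := hq o ▸ min_le_right _ _
    have lt : i + q o * s < n o := by
      have := n2 o
      split_ifs at hi with h1
      · have := Nat.mul_le_mul_right s qn
        omega
      · have e : q o = n o / s - 1 := by omega
        rw [e]; omega
    have e1 : n ((nx ^ (i + q o * s)) (b o)) = n o := by rw [hn', hb2, bb, hn']
    have e2 : q ((nx ^ (i + q o * s)) (b o)) = q o := by
      rw [hq, e1, j3 o _ lt, Nat.add_mul_div_right _ _ hs]
      split_ifs at hi with h1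
      · rw [Nat.div_eq_of_lt hi]; omega
      · generalize i / s = z
        omega
    simp only [e0, e2, hb2, bb, j3 o _ lt, true_and]
    omega

theorem pp_cyc {H V Lb O : Type} {X : Sys H V Lb} {M : H → H} (P : PP X M O) {g : ℕ}
    (hg : X.Girth M g) (o : O) (j : ℕ) (h0 : 0 < j) (hj : j ≤ g) : (P.nx ^ j) o ≠ o := by
  intro h
  obtain ⟨k, rfl⟩ : ∃ k, j = k + 1 := ⟨j - 1, by omega⟩
  have e : ∀ i : ℕ, M (P.out ((P.nx ^ i) o)) = P.inn ((P.nx ^ (i + 1)) o) := fun i => by
    rw [P.hM, pow_succ', Equiv.Perm.mul_apply]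
  refine hg k (fun i => P.out ((P.nx ^ i) o)) (by omega) (fun i _ => ?_) ?_
  · rw [e]
    exact ⟨(P.hv _).symm, (P.hne _).symm⟩
  · simp only [e, h, pow_zero, Equiv.Perm.one_apply]
    exact P.hv o

namespace D5a

variable {O V : Type} [Fintype O] [DecidableEq V]

/-- Counting transitions between classes. -/
def N (σ : O → V) (R : O → Prop) [DecidablePred R] (f : O → O) (a a' : V) : ℕ :=
  (univ.filter fun o => σ o = a ∧ R o ∧ σ (f o) = a').card

lemma sumN (σ : O → V) (R : O → Prop) [DecidablePred R] (f : O → O) (A : Finset V)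
    (B : V → Finset V) : ∑ a ∈ A, ∑ a' ∈ B a, N σ R f a a' =
      (univ.filter fun o => σ o ∈ A ∧ R o ∧ σ (f o) ∈ B (σ o)).card := by
  simp only [N, card_filter]
  rw [sum_congr rfl fun a _ => sum_comm, sum_comm]
  refine sum_congr rfl fun o _ => ?_
  have : ∀ a, ∑ a' ∈ B a, (if σ o = a ∧ R o ∧ σ (f o) = a' then 1 else 0) =
      if σ o = a then (if R o ∧ σ (f o) ∈ B (σ o) then 1 else 0) else 0 := by
    intro a
    by_cases h1 : σ o = a
    · by_cases h2 : R o
      · simp [h1, h2]
      · simp [h2]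
    · simp [h1]
  simp only [this, sum_ite_eq]
  by_cases h : σ o ∈ A <;> simp [h]

lemma N_pos {σ : O → V} {R : O → Prop} [DecidablePred R] {f : O → O} {a a' : V}
    (h : 0 < N σ R f a a') : ∃ o, σ o = a ∧ σ (f o) = a' := by
  obtain ⟨o, ho⟩ := card_pos.1 h
  exact ⟨o, (mem_filter.1 ho).2.1, (mem_filter.1 ho).2.2.2⟩

variable {nx : Equiv.Perm O} {s : ℕ} (G : Seg nx s)

omit [Fintype O] in
lemma st_st (o : O) : G.st (G.st o) = G.st o :=
  (G.h4 o 0 (lt_of_le_of_lt (Nat.zero_le _) (G.h2 o))).1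

lemma card_seg [DecidableEq O] (a : O) : (univ.filter fun o => G.st o = a).card ≤ 2 * s := by
  rw [← card_range (2 * s)]
  refine card_le_card_of_injOn G.idx (fun o _ => ?_) fun o ho o' ho' h => ?_
  · exact mem_coe.2 (mem_range.2 ((G.h2 o).trans_le (G.h3 o).2))
  · rw [← G.h1 o, ← G.h1 o', h, (mem_filter.1 ho).2, (mem_filter.1 ho').2]

lemma card_last [DecidableEq O] (a : O) :
    (univ.filter fun o => G.st o = a ∧ G.st (nx o) ≠ a).card ≤ 1 := by
  have key : ∀ o, G.st (nx o) ≠ G.st o → G.idx o + 1 = G.len (G.st o) := by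
    intro o h
    by_contra hne
    have := (G.h4 o (G.idx o + 1) (lt_of_le_of_ne (G.h2 o) hne)).1
    rw [pow_succ', Equiv.Perm.mul_apply, G.h1] at this
    exact h this
  refine card_le_one.2 fun o ho o' ho' => ?_
  obtain ⟨h1, h2⟩ := (mem_filter.1 ho).2
  obtain ⟨h3, h4⟩ := (mem_filter.1 ho').2
  have e1 := key o (h1 ▸ h2)
  have e2 := key o' (h3 ▸ h4)
  rw [h1] at e1
  rw [h3] at e2
  rw [← G.h1 o, ← G.h1 o', h1, h3, show G.idx o = G.idx o' by omega]

lemma card_first [DecidableEq O] (a : O) :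
    (univ.filter fun o => G.st o ≠ a ∧ G.st (nx o) = a).card ≤ 1 := by
  have key : ∀ o, G.st o ≠ G.st (nx o) → nx o = G.st (nx o) := by
    intro o h
    have e := G.h1 (nx o)
    rcases hi : G.idx (nx o) with _ | i
    · rw [hi] at e; exact e.symm
    · have l := G.h2 (nx o)
      rw [hi] at e l
      rw [pow_succ', Equiv.Perm.mul_apply] at e
      have := (G.h4 (nx o) i (by omega)).1
      rw [nx.injective e] at this
      exact absurd this h
  refine card_le_one.2 fun o ho o' ho' => ?_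
  obtain ⟨h1, h2⟩ := (mem_filter.1 ho).2
  obtain ⟨h3, h4⟩ := (mem_filter.1 ho').2
  exact nx.injective ((key o (h2 ▸ h1)).trans (h2.trans (h4.symm.trans (key o' (h4 ▸ h3)).symm)))

omit [Fintype O] in
lemma conn {r : O → O → Prop} (hr : ∀ o, G.st (nx o) = G.st o → r o (nx o)) (o : O) :
    Relation.EqvGen r (G.st o) o := by
  have : ∀ i, i < G.len (G.st o) → Relation.EqvGen r (G.st o) ((nx ^ i) (G.st o)) := by
    intro i
    induction i with
    | zero => exact fun _ => .refl _
    | succ i ih =>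
      intro hi
      refine .trans _ _ _ (ih (by omega)) ?_
      have e := (G.h4 o _ hi).1
      rw [pow_succ', Equiv.Perm.mul_apply] at e ⊢
      exact .rel _ _ (hr _ (e.trans (G.h4 o i (by omega)).1.symm))
  have h := this _ (G.h2 o)
  rwa [G.h1] at h

end D5a

end Vale.Agent.P201
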