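import Mathlib

/-!
Definitions for the zero divisor construction.
-/

namespace Vale.Agent.P201

open Finset

/-! ### Labelled graphs, their groups and chain complexes -/

/-- A folded labelled directed graph. -/
structure LG (W E Y : Type) where
  src : E → W
  tgt : E → W
  lb : E → Y
  fold1 : ∀ e e', src e = src e' → lb e = lb e' → e = e'
  fold2 : ∀ e e', tgt e = tgt e' → lb e = lb e' → e = e'

namespace LG
variable {W E Y : Type} (Γ : LG W E Y)

def rels : Set (FreeGroup (Y ⊕ W)) :=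
  Set.range fun e : E => FreeGroup.of (Sum.inr (Γ.src e)) * FreeGroup.of (Sum.inl (Γ.lb e)) *
    (FreeGroup.of (Sum.inr (Γ.tgt e)))⁻¹

/-- The cone group of the labelled graph. -/
abbrev G : Type := PresentedGroup Γ.rels

def gen (y : Y ⊕ W) : Γ.G := PresentedGroup.of y

/-- The three letters of the boundary of an oriented cell. -/
def lt (c : (Γ.G × E) × Bool) (j : Fin 3) : (Γ.G × (Y ⊕ W)) × Bool :=
  if j = 0 then ((c.1.1, Sum.inr (if c.2 then Γ.src c.1.2 else Γ.tgt c.1.2)), true)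
  else if j = 1 then ((c.1.1 * Γ.gen (Sum.inr (Γ.src c.1.2)), Sum.inl (Γ.lb c.1.2)), c.2)
  else ((c.1.1, Sum.inr (if c.2 then Γ.tgt c.1.2 else Γ.src c.1.2)), false)

/-- The boundary word of an oriented cell. -/
def cw (c : (Γ.G × E) × Bool) : FreeGroup (Γ.G × (Y ⊕ W)) :=
  FreeGroup.mk [Γ.lt c 0, Γ.lt c 1, Γ.lt c 2]

/-- The chain of an oriented cell. -/
noncomputable def ch (c : (Γ.G × E) × Bool) : (Γ.G × E) →₀ ℤ :=
  Finsupp.single c.1 (if c.2 then 1 else -1)

noncomputable def bd2 (R : Type) [CommRing R] :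
    ((Γ.G × E) →₀ R) →ₗ[R] ((Γ.G × (Y ⊕ W)) →₀ R) :=
  Finsupp.linearCombination R fun f =>
    Finsupp.single (f.1, Sum.inr (Γ.src f.2)) 1 +
      Finsupp.single (f.1 * Γ.gen (Sum.inr (Γ.src f.2)), Sum.inl (Γ.lb f.2)) 1 -
      Finsupp.single (f.1, Sum.inr (Γ.tgt f.2)) 1

noncomputable def bd1 (R : Type) [CommRing R] :
    ((Γ.G × (Y ⊕ W)) →₀ R) →ₗ[R] (Γ.G →₀ R) :=
  Finsupp.linearCombination R fun x =>
    Finsupp.single (x.1 * Γ.gen x.2) 1 - Finsupp.single x.1 1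

end LG

/-! ### Pictures -/

/-- The inverse letter. -/
def linv {T : Type} (x : T × Bool) : T × Bool := (x.1, !x.2)

/-- Letters in `A`, matched by `al`, sitting at vertices `v`, with names `L`, `R` of the regions
before and after them; every even subgraph is a cut. -/
structure Valid {Λ T V C : Type} [DecidableEq V] (A : Finset Λ) (al : Λ → Λ) (lab : Λ → T × Bool)
    (v : Λ → V) (L R : Λ → C) : Prop where
  mem : ∀ a ∈ A, al a ∈ A
  inv : ∀ a ∈ A, al (al a) = a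
  lab : ∀ a ∈ A, lab (al a) = linv (lab a)
  nm : ∀ a ∈ A, L (al a) = R a
  pl : ∀ z : Λ → ZMod 2, (∀ a ∈ A, z (al a) = z a) →
    (∀ u, ∑ a ∈ A.filter (fun a => v a = u), z a = 0) →
    ∃ S : C → ZMod 2, ∀ a ∈ A, z a = S (L a) + S (R a)

/-- The letters of a list run from the region `c0` to the region `c1`. -/
def ChainN {Λ C : Type} (L R : Λ → C) : C → List Λ → C → Prop
  | c0, [], c1 => c0 = c1
  | c0, a :: O, c1 => L a = c0 ∧ ChainN L R (R a) O c1

/-- Rename `x` to `y`. -/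
def ren {C : Type} [DecidableEq C] (x y c : C) : C := if c = x then y else c

/-- A picture all of whose vertices are triangles. -/
structure TP {W E Y κ C : Type} [DecidableEq κ] (Γ : LG W E Y) (I : Finset κ)
    (cell : κ → (Γ.G × E) × Bool) (al : κ × Fin 3 → κ × Fin 3) (L R : κ × Fin 3 → C) : Prop where
  val : Valid (I ×ˢ (univ : Finset (Fin 3))) al (fun a => Γ.lt (cell a.1) a.2) Prod.fst L R
  c0 : ∀ k ∈ I, R (k, 0) = L (k, 1)
  c1 : ∀ k ∈ I, R (k, 1) = L (k, 2)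
  c2 : ∀ k ∈ I, R (k, 2) = L (k, 0)

/-- Planarity of a map given by two permutations. -/
def Planar {I : Type} (nu mu : Equiv.Perm I) : Prop :=
  ∀ u : I → ZMod 2, (∀ k, u (mu k) + u (nu⁻¹ (mu k)) = u k + u (nu⁻¹ k)) →
    ∃ ka : I → ZMod 2, (∀ k, ka (nu k) = ka k) ∧
      ∀ k, u (mu (nu k)) + ka (mu (nu k)) = u k + ka k

/-- A reduced spherical diagram over a labelled graph. -/
structure LabPic {W E Y : Type} (Γ : LG W E Y) (I : Type) where
  nu : Equiv.Perm I
  mu : Equiv.Perm I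
  e : I → E
  sg : I → Bool
  hnu : ∀ k, (if sg (nu k) then Γ.src (e (nu k)) else Γ.tgt (e (nu k))) =
    (if sg k then Γ.tgt (e k) else Γ.src (e k))
  mumu : ∀ k, mu (mu k) = k
  sgmu : ∀ k, sg (mu k) = !sg k
  lbmu : ∀ k, Γ.lb (e (mu k)) = Γ.lb (e k)
  red1 : ∀ k, ¬ (e (nu k) = e k ∧ sg (nu k) = !sg k)
  red2 : ∀ k, e (mu k) ≠ e k
  pl : Planar nu mu

/-- Every quotient by connected clusters is a sparse graph. -/
def Sparse {I : Type} (adj : I → I → Prop) : Prop :=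
  ∀ (Cl : Type) [DecidableEq Cl] (cl : I → Cl),
    (∀ k k', cl k = cl k' → Relation.EqvGen (fun a b => cl a = cl b ∧ adj a b) k k') →
    ∀ P : Finset (Cl × Cl), (∀ p ∈ P, p.swap ∈ P) →
      (∀ p ∈ P, p.1 ≠ p.2 ∧ ∃ a b, cl a = p.1 ∧ cl b = p.2 ∧ (adj a b ∨ adj b a)) →
      P.card ≤ 6 * (P.image Prod.fst).card

/-! ### Half edge systems and matchings -/

structure Sys (H V Lb : Type) where
  vtx : H → V
  lab : H → Lb
  pos : H → ℤ
  inj : ∀ h h', vtx h = vtx h' → lab h = lab h' → pos h = pos h' → h = h'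

namespace Sys
variable {H V Lb : Type} (X : Sys H V Lb)

def IsMatch (M : H → H) : Prop := ∀ h, M (M h) = h ∧ X.lab (M h) ≠ X.lab h

/-- No closed nonbacktracking walk of length between `1` and `g`. -/
def Girth (M : H → H) (g : ℕ) : Prop :=
  ∀ (k : ℕ) (o : ℕ → H), k < g →
    (∀ j, j < k → X.vtx (o (j + 1)) = X.vtx (M (o j)) ∧ o (j + 1) ≠ M (o j)) →
    X.vtx (M (o k)) ≠ X.vtx (o 0)

open Classical in
noncomputable def Omega [Fintype H] (g : ℕ) : Finset (H → H) :=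
  univ.filter fun M => X.IsMatch M ∧ X.Girth M g

/-- The labelled graph of a matching. -/
def lg (M : H → H) (hM : X.IsMatch M) : LG ((V × ℤ) ⊕ Sym2 H) ((V × ℤ) ⊕ H) (Option Lb) where
  src := Sum.elim (fun x => Sum.inl x) (fun h => Sum.inl (X.vtx h, X.pos h))
  tgt := Sum.elim (fun x => Sum.inl (x.1, x.2 + 1)) (fun h => Sum.inr s(h, M h))
  lb := Sum.elim (fun _ => none) (fun h => some (X.lab h))
  fold1 := by
    rintro (x | h) (x' | h') h1 h2
    · simpa using h1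
    · simp at h2
    · simp at h2
    · simp only [Sum.elim_inr, Sum.inl.injEq, Prod.mk.injEq, Option.some.injEq] at h1 h2
      rw [X.inj h h' h1.1 h2 h1.2]
  fold2 := by
    rintro (x | h) (x' | h') h1 h2
    · simp only [Sum.elim_inl, Sum.inl.injEq, Prod.mk.injEq, add_left_inj] at h1
      rw [Prod.ext h1.1 h1.2]
    · simp at h2
    · simp at h2
    · simp only [Sum.elim_inr, Sum.inr.injEq, Option.some.injEq, Sym2.eq_iff] at h1 h2
      rcases h1 with h1 | h1
      · rw [h1.1]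
      · exact absurd (h1.2 ▸ h2).symm (hM h).2

/-- The data of a corner. -/
def dat (c : H × H) : Lb × Lb × ℤ := (X.lab c.1, X.lab c.2, X.pos c.2 - X.pos c.1)

open Classical in
noncomputable def Co [Fintype H] : Finset (H × H) :=
  univ.filter fun c => X.vtx c.1 = X.vtx c.2 ∧ c.1 ≠ c.2

open Classical in
noncomputable def cnt [Fintype H] (d : Lb × Lb × ℤ) : ℕ := (X.Co.filter fun c => X.dat c = d).card

open Classical in
/-- Degrees at most `l`, label classes of size at most `lam`. -/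
def Bd [Fintype H] (l lam : ℕ) : Prop :=
  (∀ x, (univ.filter fun h => X.vtx h = x).card ≤ l) ∧
    ∀ i, (univ.filter fun h => X.lab h = i).card ≤ lam

end Sys

/-- A reduced spherical diagram seen at the level of passages through vertices. -/
structure PP {H V Lb : Type} (X : Sys H V Lb) (M : H → H) (O : Type) where
  nx : Equiv.Perm O
  pt : Equiv.Perm O
  inn : O → H
  out : O → H
  Irr : Finset O
  hv : ∀ o, X.vtx (inn o) = X.vtx (out o)
  hne : ∀ o, inn o ≠ out o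
  hM : ∀ o, M (out o) = inn (nx o)
  hlab : ∀ o, X.lab (out (pt o)) = X.lab (inn o)
  hmir : ∀ o, out (pt o) ≠ inn o
  hreg : ∀ o, o ∉ Irr → pt (pt o) = o ∧
    X.pos (out (pt o)) - X.pos (inn (pt o)) = - (X.pos (out o) - X.pos (inn o)) ∧
    nx (pt (nx o)) = pt o
  hirr : ∀ T : Finset O, (∀ o, ∃ t ∈ T, ∃ j : ℕ, (nx ^ j) t = o) → Irr.card ≤ 6 * T.card
  hsp : Sparse fun a b => b = nx a ∨ b = pt a

/-- A cutting of the cycles of a permutation into segments. -/
structure Seg {O : Type} (nx : Equiv.Perm O) (s : ℕ) where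
  st : O → O
  idx : O → ℕ
  len : O → ℕ
  h1 : ∀ o, (nx ^ idx o) (st o) = o
  h2 : ∀ o, idx o < len (st o)
  h3 : ∀ o, s ≤ len (st o) ∧ len (st o) ≤ 2 * s
  h4 : ∀ o j, j < len (st o) → st ((nx ^ j) (st o)) = st o ∧ idx ((nx ^ j) (st o)) = j

/-! ### Local configurations and patterns -/

def ext {S : ℕ} (f : Fin S → ℕ) (t : ℕ) : ℕ := if h : t < S then f ⟨t, h⟩ else 0

/-- The number of places where `f` is not an arithmetic progression. -/
def brk {S : ℕ} (f : Fin S → ℕ) : ℕ :=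
  ((range (S - 2)).filter fun t => ext f (t + 2) + ext f t ≠ 2 * ext f (t + 1)).card

def oc {S : ℕ} : Option (Fin S) → ℕ
  | none => 0
  | some t => t.1 + 1

def sc {S : ℕ} (x : Fin S × Bool) : ℕ := 2 * x.1.1 + x.2.toNat

/-- A local configuration; `h (t, false)` and `h (t, true)` are the half edges through which the
passage `t` enters and leaves. -/
structure Config {H V Lb : Type} (X : Sys H V Lb) (M : H → H) (K s A : ℕ) (ep : ℝ) (S : ℕ)
    (h : Fin S × Bool → H) (lk rg : Fin S → Option (Fin S)) (bl : Fin S → Fin K) : Prop where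
  hv : ∀ t, X.vtx (h (t, false)) = X.vtx (h (t, true))
  hne : ∀ t, h (t, false) ≠ h (t, true)
  hlk : ∀ t t', lk t = some t' → M (h (t, true)) = h (t', false)
  lkinj : ∀ t t' u, lk t = some u → lk t' = some u → t = t'
  mono : Monotone bl
  blk : ∀ t t' : Fin S, t'.1 = t.1 + 1 → bl t = bl t' → lk t = some t'
  len : ∀ b, (univ.filter fun t => bl t = b).card ≤ 2 * s
  hrg : ∀ t t', rg t = some t' → rg t' = some t ∧ X.lab (h (t', false)) = X.lab (h (t, true)) ∧
    X.pos (h (t', true)) - X.pos (h (t', false)) = - (X.pos (h (t, true)) - X.pos (h (t, false))) ∧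
    h (t', true) ≠ h (t, false)
  hbrk : brk (fun t => oc (rg t)) ≤ A
  big : s ≤ S
  few1 : ((univ.filter fun t => rg t = none).card : ℝ) ≤ ep * S
  few2 : ((univ.filter fun t => lk t = none).card : ℝ) * s ≤ ep * S

/-- `t` is not the first or last index of its block. -/
def Inner {S K : ℕ} (bl : Fin S → Fin K) (t : Fin S) : Prop :=
  (∃ t' : Fin S, t'.1 = t.1 + 1 ∧ bl t' = bl t) ∧ ∃ t' : Fin S, t.1 = t'.1 + 1 ∧ bl t' = bl t

/-- The vertex of the passage `t` is good. -/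
def Good {H V Lb : Type} (X : Sys H V Lb) {S K : ℕ} (h : Fin S × Bool → H) (bl : Fin S → Fin K)
    (t : Fin S) : Prop :=
  ∀ t', X.vtx (h (t', false)) = X.vtx (h (t, false)) → Inner bl t' ∧
    ((h (t', false) = h (t, false) ∧ h (t', true) = h (t, true)) ∨
      (h (t', false) = h (t, true) ∧ h (t', true) = h (t, false)))

structure Raw (S : ℕ) where
  lk : Fin S → Option (Fin S)
  rg : Fin S → Option (Fin S)
  rho : Fin S → Fin S
  eta : Fin S × Bool → Fin S × Bool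

def Raw.Few {S : ℕ} (R : Raw S) (A : ℕ) : Prop :=
  brk (fun t => oc (R.lk t)) ≤ A ∧ brk (fun t => oc (R.rg t)) ≤ A ∧ brk (fun t => (R.rho t).1) ≤ A ∧
    brk (fun t => sc (R.eta (t, false))) ≤ A ∧ brk (fun t => sc (R.eta (t, true))) ≤ A

structure Realizes {H V Lb : Type} (X : Sys H V Lb) {S : ℕ} (R : Raw S) (M : H → H)
    (h : Fin S × Bool → H) : Prop where
  ker : ∀ x y, h x = h y ↔ R.eta x = R.eta y
  kerv : ∀ t t', X.vtx (h (t, false)) = X.vtx (h (t', false)) ↔ R.rho t = R.rho t'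
  hv : ∀ t, X.vtx (h (t, false)) = X.vtx (h (t, true))
  hlk : ∀ t t', R.lk t = some t' → M (h (t, true)) = h (t', false)
  hrg : ∀ t t', R.rg t = some t' → X.dat (h (t', false), h (t', true)) =
    X.dat (h (t, true), h (t, false))

/-- An abstract sub-pattern. -/
structure SubPat (ι : Type) [DecidableEq ι] where
  U : Finset ι
  Bs : Finset (ι × Bool)
  bv : ι × Bool → ι
  ep : ι × Bool → ι × Bool
  cl : ι → ι
  sg : ι → Bool
  disj : ∀ x ∈ Bs, x.1 ∉ U
  inv : ∀ x, x.1 ∈ U ∨ x ∈ Bs → ((ep x).1 ∈ U ∨ ep x ∈ Bs) ∧ ep (ep x) = x ∧ ep x ≠ x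

structure Emb {H V Lb ι : Type} [DecidableEq ι] (X : Sys H V Lb) (P : SubPat ι) (M : H → H)
    (h : ι × Bool → H) : Prop where
  inj : ∀ x y, x.1 ∈ P.U ∨ x ∈ P.Bs → y.1 ∈ P.U ∨ y ∈ P.Bs → h x = h y → x = y
  hM : ∀ x, x.1 ∈ P.U ∨ x ∈ P.Bs → M (h x) = h (P.ep x)
  hv : ∀ u ∈ P.U, X.vtx (h (u, false)) = X.vtx (h (u, true))
  hb : ∀ x ∈ P.Bs, ∀ y ∈ P.Bs, P.bv x = P.bv y → X.vtx (h x) = X.vtx (h y)
  hc : ∀ u ∈ P.U, ∀ u' ∈ P.U, P.cl u = P.cl u' →
    X.dat (h (u, P.sg u), h (u, !P.sg u)) = X.dat (h (u', P.sg u'), h (u', !P.sg u'))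

/-- The logarithm of the first moment bound of a sub-pattern. -/
noncomputable def SubPat.logW {ι : Type} [DecidableEq ι] (P : SubPat ι) (ga L Cw ln ll : ℝ) : ℝ :=
  - ga * P.U.card + L * (2 * ((P.U.image P.cl).card : ℝ) - P.U.card) +
    Cw * ((P.U.filter fun u => ∀ u' ∈ P.U, P.cl u' = P.cl u → u' = u).card : ℝ) +
    (((P.Bs.image P.bv).card : ℝ) - (P.Bs.card : ℝ) / 2) * ln + P.Bs.card * ll

/-- The gain of a configuration. -/
noncomputable def gain (K s S : ℕ) (ep ga L Cw ln ll : ℝ) : ℝ :=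
  ga / 2 * (S - 4 * (K : ℝ) ^ 3) - (L + Cw) * (ep * S + 4 * (K : ℝ) ^ 3) - ep * S / s * ln -
    8 * (K : ℝ) ^ 3 * ll

/-- The weights of the levels. -/
noncomputable def lam (de : ℝ) (k : ℕ) : ℝ := 1 - de * (harmonic (k - 1) : ℝ)

/-- The number of raw patterns. -/
def npat (S A : ℕ) : ℕ := ((2 * S + 1) ^ 2 * (S * (2 * S + 1) + 1) ^ A) ^ 5

/-! ### The example -/

/-- The supports of the three polynomials. -/
def exP : Fin 3 → Finset ℤ := ![{0}, {0, 4, 10}, {0, 6, 16, 20}]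

/-- The supports of their products modulo two. -/
def exC : Fin 3 → Fin 3 → Finset ℤ :=
  ![![{0}, {0, 4, 10}, {0, 6, 16, 20}], ![{0, 4, 10}, {0, 8, 20}, {0, 4, 6, 24, 26, 30}],
    ![{0, 6, 16, 20}, {0, 4, 6, 24, 26, 30}, {0, 12, 32, 40}]]

def exW : Fin 3 → ℕ := ![32, 3, 1]

/-- Index sets with `36 * (2 * n)` elements. -/
abbrev Ix (n : ℕ) : Type := (Σ a : Fin 3, Fin (exW a)) × Fin n × Bool

abbrev exH (n m : ℕ) : Type := Σ y : Ix n × Ix m, exC y.1.1.1 y.2.1.1

def exX (n m : ℕ) : Sys (exH n m) (Ix n) (Ix m) where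
  vtx h := h.1.1
  lab h := h.1.2
  pos h := h.2.1
  inj := by
    rintro ⟨⟨x, i⟩, p, hp⟩ ⟨⟨x', i'⟩, p', hp'⟩ h1 h2 h3
    simp only at h1 h2 h3
    subst h1 h2 h3
    rfl

end Vale.Agent.P201
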