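import Vale.Agent.P201.PartC0

/-!
Slots, links, multiplicities and canonical representatives in a configuration.
-/

namespace Vale.Agent.P201.Lv

open Finset Classical

variable {H V Lb : Type} {X : Sys H V Lb} {M : H → H} {K s A S g : ℕ} {ep : ℝ}
  {h : Fin S × Bool → H} {lk rg : Fin S → Option (Fin S)} {bl : Fin S → Fin K}

def vt (X : Sys H V Lb) (h : Fin S × Bool → H) (t : Fin S) : V := X.vtx (h (t, false))

noncomputable def mu (X : Sys H V Lb) (h : Fin S × Bool → H) (t : Fin S) : ℕ :=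
  (univ.filter fun t' => vt X h t' = vt X h t).card

noncomputable def rp (X : Sys H V Lb) (h : Fin S × Bool → H) (t : Fin S) : Fin S :=
  @Classical.epsilon _ ⟨t⟩ fun t' => vt X h t' = vt X h t

theorem vt_rp (t : Fin S) : vt X h (rp X h t) = vt X h t :=
  @Classical.epsilon_spec _ (fun t' => vt X h t' = vt X h t) ⟨t, rfl⟩

theorem rp_congr {t t' : Fin S} (e : vt X h t = vt X h t') : rp X h t = rp X h t' := by
  unfold rp; rw [e]

theorem rp_rp (t : Fin S) : rp X h (rp X h t) = rp X h t := rp_congr (vt_rp t)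

theorem vt_of_rp {t t' : Fin S} (e : rp X h t = rp X h t') : vt X h t = vt X h t' := by
  rw [← vt_rp t, e, vt_rp]

theorem mu_congr {t t' : Fin S} (e : vt X h t = vt X h t') : mu X h t = mu X h t' := by
  unfold mu; rw [e]

theorem mu_pos (t : Fin S) : 1 ≤ mu X h t :=
  card_pos.2 ⟨t, by simp⟩

theorem mu_le (c : Config X M K s A ep S h lk rg bl) (hg : X.Girth M g) (hs : 4 * s ≤ g)
    (t : Fin S) : mu X h t ≤ K := by
  have : (univ.filter fun t' => vt X h t' = vt X h t).card ≤ (univ : Finset (Fin K)).card := by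
    refine card_le_card_of_injOn bl (fun _ _ => mem_coe.2 (mem_univ _)) ?_
    intro a ha b hb e
    have ha' := (mem_filter.1 (mem_coe.1 ha)).2
    have hb' := (mem_filter.1 (mem_coe.1 hb)).2
    exact cfg_inj c hg hs a b e (ha'.trans hb'.symm)
  simpa [mu] using this

theorem vtx_slot (c : Config X M K s A ep S h lk rg bl) (x : Fin S × Bool) :
    X.vtx (h x) = vt X h x.1 := by
  obtain ⟨t, b⟩ := x
  cases b
  · rfl
  · exact (c.hv t).symm

theorem vt_of_h (c : Config X M K s A ep S h lk rg bl) {x y : Fin S × Bool} (e : h x = h y) :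
    vt X h x.1 = vt X h y.1 := by rw [← vtx_slot c, ← vtx_slot c, e]

theorem slot_ne (c : Config X M K s A ep S h lk rg bl) {t : Fin S} {b b' : Bool}
    (e : h (t, b) = h (t, b')) : b = b' := by
  cases b <;> cases b'
  · rfl
  · exact absurd e (c.hne t)
  · exact absurd e.symm (c.hne t)
  · rfl

theorem good_congr {t t' : Fin S} (e : vt X h t = vt X h t') (hG : Good X h bl t) :
    Good X h bl t' := by
  intro u hu
  have h1 := hG u (hu.trans e.symm)
  have h2 := hG t' e.symm
  refine ⟨h1.1, ?_⟩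
  rcases h1.2 with ⟨a, b⟩ | ⟨a, b⟩ <;> rcases h2.2 with ⟨a', b'⟩ | ⟨a', b'⟩
  · exact Or.inl ⟨a.trans a'.symm, b.trans b'.symm⟩
  · exact Or.inr ⟨a.trans b'.symm, b.trans a'.symm⟩
  · exact Or.inr ⟨a.trans b'.symm, b.trans a'.symm⟩
  · exact Or.inl ⟨a.trans a'.symm, b.trans b'.symm⟩

theorem good_or {t t' : Fin S} (hG : Good X h bl t) (e : vt X h t' = vt X h t) :
    ∃ o : Bool, ∀ b, h (t', b) = h (t, xor b o) := by
  rcases (hG t' e).2 with ⟨a, b⟩ | ⟨a, b⟩
  · exact ⟨false, fun x => by cases x <;> simpa⟩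
  · exact ⟨true, fun x => by cases x <;> simpa⟩

/-- Two slots joined by a link. -/
def Lnk (lk : Fin S → Option (Fin S)) (x y : Fin S × Bool) : Prop :=
  (x.2 = true ∧ y.2 = false ∧ lk x.1 = some y.1) ∨ (x.2 = false ∧ y.2 = true ∧ lk y.1 = some x.1)

theorem Lnk.symm {x y : Fin S × Bool} (l : Lnk lk x y) : Lnk lk y x := by
  rcases l with ⟨a, b, d⟩ | ⟨a, b, d⟩
  · exact Or.inr ⟨b, a, d⟩
  · exact Or.inl ⟨b, a, d⟩

theorem Lnk.uniq (c : Config X M K s A ep S h lk rg bl) {x y z : Fin S × Bool} (l : Lnk lk x y)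
    (l' : Lnk lk x z) : y = z := by
  rcases l with ⟨a, b, d⟩ | ⟨a, b, d⟩ <;> rcases l' with ⟨a', b', d'⟩ | ⟨a', b', d'⟩
  · exact Prod.ext (Option.some.inj (d.symm.trans d')) (b.trans b'.symm)
  · rw [a] at a'; cases a'
  · rw [a] at a'; cases a'
  · exact Prod.ext (c.lkinj _ _ _ d d') (b.trans b'.symm)

theorem Lnk.hM {M' : H → H} {h' : Fin S × Bool → H} (hM : X.IsMatch M')
    (hl : ∀ t t', lk t = some t' → M' (h' (t, true)) = h' (t', false)) {x y : Fin S × Bool}
    (l : Lnk lk x y) : M' (h' x) = h' y := by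
  obtain ⟨t, b⟩ := x
  obtain ⟨t', b'⟩ := y
  rcases l with ⟨a, b, d⟩ | ⟨a, b, d⟩
  · simp only at a b d; subst a b; exact hl _ _ d
  · simp only at a b d; subst a b; rw [← hl _ _ d, (hM _).1]

def Lkd (lk : Fin S → Option (Fin S)) (x : Fin S × Bool) : Prop := ∃ y, Lnk lk x y

noncomputable def pr (lk : Fin S → Option (Fin S)) (x : Fin S × Bool) : Fin S × Bool :=
  if hx : Lkd lk x then hx.choose else x

theorem lnk_pr {x : Fin S × Bool} (hx : Lkd lk x) : Lnk lk x (pr lk x) := by
  unfold pr; rw [dif_pos hx]; exact hx.choose_spec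

theorem lkd_pr {x : Fin S × Bool} (hx : Lkd lk x) : Lkd lk (pr lk x) := ⟨x, (lnk_pr hx).symm⟩

theorem pr_pr (c : Config X M K s A ep S h lk rg bl) {x : Fin S × Bool} (hx : Lkd lk x) :
    pr lk (pr lk x) = x := (lnk_pr (lkd_pr hx)).uniq c (lnk_pr hx).symm

noncomputable def em (h : Fin S × Bool → H) (lk : Fin S → Option (Fin S)) (x : Fin S × Bool) : ℕ :=
  (univ.filter fun y => h y = h x ∧ Lkd lk y).card

theorem em_congr {x y : Fin S × Bool} (e : h x = h y) : em h lk x = em h lk y := by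
  unfold em; rw [e]

theorem em_le_of (c : Config X M K s A ep S h lk rg bl) (hM : X.IsMatch M) {x y : Fin S × Bool}
    (e : M (h x) = h y) : em h lk x ≤ em h lk y := by
  refine card_le_card_of_injOn (pr lk) ?_ ?_
  · intro z hz
    have hz' := (mem_filter.1 (mem_coe.1 hz)).2
    refine mem_coe.2 (mem_filter.2 ⟨mem_univ _, ?_, lkd_pr hz'.2⟩)
    rw [← (lnk_pr hz'.2).hM hM c.hlk, hz'.1, e]
  · intro a ha b hb e'
    have ha' := (mem_filter.1 (mem_coe.1 ha)).2
    have hb' := (mem_filter.1 (mem_coe.1 hb)).2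
    rw [← pr_pr c ha'.2, e', pr_pr c hb'.2]

theorem em_le_mu (c : Config X M K s A ep S h lk rg bl) (x : Fin S × Bool) :
    em h lk x ≤ mu X h x.1 := by
  refine card_le_card_of_injOn Prod.fst ?_ ?_
  · intro z hz
    have hz' := (mem_filter.1 (mem_coe.1 hz)).2
    exact mem_coe.2 (mem_filter.2 ⟨mem_univ _, vt_of_h c hz'.1⟩)
  · rintro ⟨a, b⟩ ha ⟨a', b'⟩ hb e
    have ha' := (mem_filter.1 (mem_coe.1 ha)).2
    have hb' := (mem_filter.1 (mem_coe.1 hb)).2
    simp only at e
    subst e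
    rw [slot_ne c (ha'.1.trans hb'.1.symm)]

theorem lkd_of_inner (c : Config X M K s A ep S h lk rg bl) {t : Fin S} (hi : Inner bl t)
    (b : Bool) : Lkd lk (t, b) := by
  obtain ⟨⟨t1, a1, b1⟩, t2, a2, b2⟩ := hi
  cases b
  · exact ⟨(t2, true), Or.inr ⟨rfl, rfl, c.blk _ _ a2 b2⟩⟩
  · exact ⟨(t1, false), Or.inl ⟨rfl, rfl, c.blk _ _ a1 b1.symm⟩⟩

theorem em_good (c : Config X M K s A ep S h lk rg bl) {x : Fin S × Bool} (hG : Good X h bl x.1) :
    em h lk x = mu X h x.1 := by
  refine le_antisymm (em_le_mu c x) ?_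
  obtain ⟨t, b⟩ := x
  refine card_le_card_of_surjOn Prod.fst ?_
  intro t' ht'
  have e := (mem_filter.1 (mem_coe.1 ht')).2
  obtain ⟨o, ho⟩ := good_or hG e
  refine ⟨(t', xor b o), mem_coe.2 (mem_filter.2 ⟨mem_univ _, ?_,
    lkd_of_inner c (hG t' e).1 _⟩), rfl⟩
  rw [ho]; congr 2; cases b <;> cases o <;> rfl

/-- The canonical slot with the same half edge. -/
noncomputable def cn (X : Sys H V Lb) (h : Fin S × Bool → H) (bl : Fin S → Fin K)
    (x : Fin S × Bool) : Fin S × Bool :=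
  if Good X h bl x.1 then (rp X h x.1, decide (h (rp X h x.1, true) = h x))
  else @Classical.epsilon _ ⟨x⟩ fun y => h y = h x

theorem h_cn (x : Fin S × Bool) : h (cn X h bl x) = h x := by
  unfold cn
  split_ifs with hG
  · obtain ⟨t, b⟩ := x
    obtain ⟨o, ho⟩ := good_or hG (vt_rp (X := X) (h := h) t)
    by_cases e : h (rp X h t, true) = h (t, b)
    · simp [e]
    · simp only [e, decide_false]
      rw [ho] at e ⊢
      cases b <;> cases o <;> simp_all
  · exact @Classical.epsilon_spec _ (fun y => h y = h x) ⟨x, rfl⟩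

theorem cn_congr (c : Config X M K s A ep S h lk rg bl) {x y : Fin S × Bool} (e : h x = h y) :
    cn X h bl x = cn X h bl y := by
  have e1 := vt_of_h c e
  unfold cn
  by_cases hG : Good X h bl x.1
  · rw [if_pos hG, if_pos (good_congr e1 hG), rp_congr e1, e]
  · rw [if_neg hG, if_neg fun hG' => hG (good_congr e1.symm hG'), e]

theorem cn_cn (c : Config X M K s A ep S h lk rg bl) (x : Fin S × Bool) :
    cn X h bl (cn X h bl x) = cn X h bl x := cn_congr c (h_cn x)

theorem cn_good (c : Config X M K s A ep S h lk rg bl) {x : Fin S × Bool} (hG : Good X h bl x.1) :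
    cn X h bl x = x ↔ rp X h x.1 = x.1 := by
  obtain ⟨t, b⟩ := x
  unfold cn
  rw [if_pos hG]
  constructor
  · intro e; exact congrArg Prod.fst e
  · intro e
    simp only at e ⊢
    rw [e]
    cases b
    · simp [(c.hne t).symm]
    · simp

noncomputable def lx (h : Fin S × Bool → H) (lk : Fin S → Option (Fin S)) (x : Fin S × Bool) :
    Fin S × Bool := @Classical.epsilon _ ⟨x⟩ fun y => h y = h x ∧ Lkd lk y

theorem lx_spec {x : Fin S × Bool} (hx : 1 ≤ em h lk x) :
    h (lx h lk x) = h x ∧ Lkd lk (lx h lk x) := by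
  obtain ⟨y, hy⟩ := card_pos.1 hx
  exact @Classical.epsilon_spec _ (fun y => h y = h x ∧ Lkd lk y) ⟨y, (mem_filter.1 hy).2⟩

noncomputable def epm (X : Sys H V Lb) (h : Fin S × Bool → H) (lk : Fin S → Option (Fin S))
    (bl : Fin S → Fin K) (x : Fin S × Bool) : Fin S × Bool := cn X h bl (pr lk (lx h lk x))

theorem h_epm (c : Config X M K s A ep S h lk rg bl) (hM : X.IsMatch M) {x : Fin S × Bool}
    (hx : 1 ≤ em h lk x) : M (h x) = h (epm X h lk bl x) := by
  unfold epm
  rw [h_cn (X := X) (h := h), ← (lnk_pr (lx_spec hx).2).hM hM c.hlk, (lx_spec hx).1]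

theorem epm_spec (c : Config X M K s A ep S h lk rg bl) (hM : X.IsMatch M) {x : Fin S × Bool}
    {k : ℕ} (hk : 1 ≤ k) (h1 : cn X h bl x = x) (h2 : k ≤ em h lk x) :
    (cn X h bl (epm X h lk bl x) = epm X h lk bl x ∧ k ≤ em h lk (epm X h lk bl x)) ∧
      epm X h lk bl (epm X h lk bl x) = x ∧ epm X h lk bl x ≠ x := by
  have e := h_epm c hM (hk.trans h2)
  have h3 : k ≤ em h lk (epm X h lk bl x) := h2.trans (em_le_of c hM e)
  refine ⟨⟨cn_cn c _, h3⟩, ?_, ?_⟩
  · have e2 := h_epm c hM (hk.trans h3)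
    rw [← e, (hM _).1] at e2
    have e3 := cn_congr c e2
    rw [h1] at e3
    exact (cn_cn c _).symm.trans e3.symm
  · intro e'
    rw [e'] at e
    exact (hM (h x)).2 (by rw [e])

theorem card_unlinked (c : Config X M K s A ep S h lk rg bl) :
    (univ.filter fun y : Fin S × Bool => ¬ Lkd lk y).card ≤
      2 * (univ.filter fun t => lk t = none).card := by
  have h1 : (univ.filter fun t : Fin S => ¬ lk t = none).card * 2 ≤
      (univ.filter fun y : Fin S × Bool => Lkd lk y).card := by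
    have : ((univ.filter fun t : Fin S => ¬ lk t = none) ×ˢ (univ : Finset Bool)).card ≤
        (univ.filter fun y : Fin S × Bool => Lkd lk y).card := by
      refine card_le_card_of_injOn
        (fun x => if x.2 then (x.1, true) else ((lk x.1).getD x.1, false)) ?_ ?_
      · rintro ⟨t, b⟩ hx
        have ht := (mem_filter.1 (mem_product.1 (mem_coe.1 hx)).1).2
        obtain ⟨u, hu⟩ := Option.ne_none_iff_exists'.1 ht
        refine mem_coe.2 (mem_filter.2 ⟨mem_univ _, ?_⟩)
        cases b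
        · exact ⟨(t, true), Or.inr ⟨rfl, rfl, by simp [hu]⟩⟩
        · exact ⟨(u, false), Or.inl ⟨rfl, rfl, hu⟩⟩
      · rintro ⟨t, b⟩ hx ⟨t', b'⟩ hy e
        have ht := (mem_filter.1 (mem_product.1 (mem_coe.1 hx)).1).2
        have ht' := (mem_filter.1 (mem_product.1 (mem_coe.1 hy)).1).2
        obtain ⟨u, hu⟩ := Option.ne_none_iff_exists'.1 ht
        obtain ⟨u', hu'⟩ := Option.ne_none_iff_exists'.1 ht'
        simp only at hu hu'
        cases b <;> cases b' <;> simp [hu, hu'] at e ⊢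
        · subst e; exact c.lkinj _ _ _ hu hu'
        · exact e
    simpa [card_product] using this
  have h2 := card_filter_add_card_filter_not (s := (univ : Finset (Fin S × Bool)))
    (fun y => Lkd lk y)
  have h3 := card_filter_add_card_filter_not (s := (univ : Finset (Fin S)))
    (fun t => lk t = none)
  simp only [card_univ, Fintype.card_prod, Fintype.card_fin, Fintype.card_bool] at h2 h3
  omega

end Vale.Agent.P201.Lv
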