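import Vale.Agent.P201.L1

/-!
The sub-pattern of a level and its embedding property.
-/

namespace Vale.Agent.P201.Lv

open Finset Classical

variable {H V Lb : Type} {X : Sys H V Lb} {M : H → H} {K s A S g : ℕ} {ep : ℝ}
  {h : Fin S × Bool → H} {bl : Fin S → Fin K} {R : Raw S}

noncomputable def Uk (X : Sys H V Lb) (h : Fin S × Bool → H) (bl : Fin S → Fin K) (k : ℕ) :
    Finset (Fin S) := univ.filter fun t => Good X h bl t ∧ rp X h t = t ∧ k ≤ mu X h t

noncomputable def Bk (X : Sys H V Lb) (h : Fin S × Bool → H) (lk : Fin S → Option (Fin S))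
    (bl : Fin S → Fin K) (k : ℕ) : Finset (Fin S × Bool) :=
  univ.filter fun x => ¬ Good X h bl x.1 ∧ cn X h bl x = x ∧ k ≤ em h lk x

theorem inT (c : Config X M K s A ep S h R.lk R.rg bl) (k : ℕ) (x : Fin S × Bool) :
    (x.1 ∈ Uk X h bl k ∨ x ∈ Bk X h R.lk bl k) ↔ (cn X h bl x = x ∧ k ≤ em h R.lk x) := by
  simp only [Uk, Bk, mem_filter, mem_univ, true_and]
  by_cases hG : Good X h bl x.1
  · simp only [hG, true_and, not_true_eq_false, false_and, or_false]
    rw [cn_good c hG, em_good c hG]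
  · simp [hG]

/-- Good passages whose partner is good. -/
noncomputable def Rg (X : Sys H V Lb) (h : Fin S × Bool → H) (rg : Fin S → Option (Fin S))
    (bl : Fin S → Fin K) : Finset (Fin S) :=
  univ.filter fun t => Good X h bl t ∧ ∃ t', rg t = some t' ∧ Good X h bl t'

def ptn (rg : Fin S → Option (Fin S)) (t : Fin S) : Fin S := (rg t).getD t

theorem rg_spec (c : Config X M K s A ep S h R.lk R.rg bl) {o : Fin S} (ho : o ∈ Rg X h R.rg bl) :
    R.rg o = some (ptn R.rg o) ∧ Good X h bl o ∧ Good X h bl (ptn R.rg o) ∧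
      ptn R.rg o ∈ Rg X h R.rg bl ∧ ptn R.rg (ptn R.rg o) = o := by
  obtain ⟨h1, t', h2, h3⟩ := (mem_filter.1 ho).2
  have e : ptn R.rg o = t' := by simp [ptn, h2]
  have h4 := (c.hrg _ _ h2).1
  rw [e]
  exact ⟨h2, h1, h3, mem_filter.2 ⟨mem_univ _, h3, o, h4, h1⟩, by simp [ptn, h4]⟩

theorem rp_ptn_ne (c : Config X M K s A ep S h R.lk R.rg bl) {o : Fin S}
    (ho : o ∈ Rg X h R.rg bl) : rp X h (ptn R.rg o) ≠ rp X h o := by
  intro e
  obtain ⟨h1, h2, -, -, -⟩ := rg_spec c ho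
  obtain ⟨-, a1, a2, a3⟩ := c.hrg _ _ h1
  rcases (h2 _ (vt_of_rp e)).2 with ⟨b1, b2⟩ | ⟨b1, b2⟩
  · rw [b1] at a1
    rw [b1, b2] at a2
    exact c.hne o (X.inj _ _ (c.hv o) a1 (by omega))
  · exact a3 b2

def Rel (X : Sys H V Lb) (h : Fin S × Bool → H) (rg : Fin S → Option (Fin S))
    (bl : Fin S → Fin K) (k : ℕ) (u u' : Fin S) : Prop :=
  u ∈ Uk X h bl k ∧ u' ∈ Uk X h bl k ∧
    ∃ o ∈ Rg X h rg bl, rp X h o = u ∧ rp X h (ptn rg o) = u'

noncomputable def clk (X : Sys H V Lb) (h : Fin S × Bool → H) (rg : Fin S → Option (Fin S))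
    (bl : Fin S → Fin K) (k : ℕ) (u : Fin S) : Fin S :=
  @Classical.epsilon _ ⟨u⟩ fun u' => Relation.EqvGen (Rel X h rg bl k) u u'

theorem clk_spec {rg : Fin S → Option (Fin S)} (k : ℕ) (u : Fin S) :
    Relation.EqvGen (Rel X h rg bl k) u (clk X h rg bl k u) :=
  @Classical.epsilon_spec _ (fun u' => Relation.EqvGen (Rel X h rg bl k) u u')
    ⟨u, Relation.EqvGen.refl u⟩

theorem clk_congr {rg : Fin S → Option (Fin S)} {k : ℕ} {u u' : Fin S}
    (e : Relation.EqvGen (Rel X h rg bl k) u u') : clk X h rg bl k u = clk X h rg bl k u' := by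
  unfold clk
  congr 1
  funext w
  exact propext ⟨fun a => Relation.EqvGen.trans _ _ _ (Relation.EqvGen.symm _ _ e) a,
    fun a => Relation.EqvGen.trans _ _ _ e a⟩

/-- The oriented data of a passage. -/
def Dt (X : Sys H V Lb) (h : Fin S × Bool → H) (u : Fin S) (b : Bool) : Lb × Lb × ℤ :=
  X.dat (h (u, b), h (u, !b))

theorem Dt_flip {h' : Fin S × Bool → H} {u u' : Fin S} {b b' : Bool}
    (e : Dt X h' u b = Dt X h' u' b') : Dt X h' u (!b) = Dt X h' u' (!b') := by
  simp only [Dt, Sys.dat, Prod.mk.injEq, Bool.not_not] at e ⊢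
  exact ⟨e.2.1, e.1, by omega⟩

def Same (X : Sys H V Lb) (R : Raw S) (u u' : Fin S) : Prop :=
  ∃ o : Bool, ∀ M' h', Realizes X R M' h' → ∀ b, Dt X h' u (xor b o) = Dt X h' u' b

theorem Same.refl (u : Fin S) : Same X R u u := ⟨false, fun _ _ _ b => by simp⟩

theorem Same.symm {u u' : Fin S} (a : Same X R u u') : Same X R u' u := by
  obtain ⟨o, ho⟩ := a
  refine ⟨o, fun M' h' r b => ?_⟩
  rw [← ho M' h' r]
  congr 1; cases b <;> cases o <;> rfl

theorem Same.trans {u u' u'' : Fin S} (a : Same X R u u') (b : Same X R u' u'') :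
    Same X R u u'' := by
  obtain ⟨o, ho⟩ := a
  obtain ⟨o', ho'⟩ := b
  refine ⟨xor o' o, fun M' h' r b => ?_⟩
  rw [← ho' M' h' r, ← ho M' h' r, Bool.xor_assoc]

theorem ker_tr (hR : Realizes X R M h) {M' : H → H} {h' : Fin S × Bool → H}
    (r : Realizes X R M' h') {x y : Fin S × Bool} : h x = h y ↔ h' x = h' y := by
  rw [hR.ker, r.ker]

theorem same_rp (hR : Realizes X R M h) {t : Fin S} (hG : Good X h bl t) :
    Same X R t (rp X h t) := by
  obtain ⟨o, ho⟩ := good_or hG (vt_rp (X := X) (h := h) t)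
  refine ⟨o, fun M' h' r b => ?_⟩
  unfold Dt
  rw [(ker_tr hR r).1 (ho b), (ker_tr hR r).1 (ho (!b))]
  congr 4; cases b <;> cases o <;> rfl

theorem same_rg {t t' : Fin S} (e : R.rg t = some t') : Same X R t t' := by
  refine ⟨true, fun M' h' r b => ?_⟩
  have : Dt X h' t true = Dt X h' t' false := (r.hrg _ _ e).symm
  cases b
  · exact this
  · exact Dt_flip this

theorem same_eqv (c : Config X M K s A ep S h R.lk R.rg bl) (hR : Realizes X R M h) {k : ℕ}
    {u u' : Fin S} (e : Relation.EqvGen (Rel X h R.rg bl k) u u') : Same X R u u' := by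
  induction e with
  | rel a b hab =>
    obtain ⟨-, -, o, ho, rfl, rfl⟩ := hab
    obtain ⟨h1, h2, h3, -, -⟩ := rg_spec c ho
    exact ((same_rp hR h2).symm.trans (same_rg h1)).trans (same_rp hR h3)
  | refl a => exact Same.refl a
  | symm a b _ ih => exact ih.symm
  | trans a b d _ _ ih ih' => exact ih.trans ih'

noncomputable def pat (c : Config X M K s A ep S h R.lk R.rg bl) (hM : X.IsMatch M)
    (hR : Realizes X R M h) (k : ℕ) (hk : 1 ≤ k) : SubPat (Fin S) where
  U := Uk X h bl k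
  Bs := Bk X h R.lk bl k
  bv x := rp X h x.1
  ep := epm X h R.lk bl
  cl := clk X h R.rg bl k
  sg u := (same_eqv c hR (clk_spec (rg := R.rg) k u)).choose
  disj x hx hu := (mem_filter.1 hx).2.1 (mem_filter.1 hu).2.1
  inv x hx := by
    rw [inT c] at hx ⊢
    exact epm_spec c hM hk hx.1 hx.2

theorem pat_emb (c : Config X M K s A ep S h R.lk R.rg bl) (hM : X.IsMatch M)
    (hR : Realizes X R M h) (k : ℕ) (hk : 1 ≤ k) (M' : H → H) (h' : Fin S × Bool → H)
    (hM' : X.IsMatch M') (r : Realizes X R M' h') : Emb X (pat c hM hR k hk) M' h' where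
  inj x y hx hy e := by
    have hx' := (inT c k x).1 hx
    have hy' := (inT c k y).1 hy
    rw [← hx'.1, ← hy'.1]
    exact cn_congr c ((ker_tr hR r).2 e)
  hM x hx := by
    have hx' := (inT c k x).1 hx
    have h1 := lx_spec (hk.trans hx'.2)
    rw [← (ker_tr hR r).1 h1.1, (lnk_pr h1.2).hM hM' r.hlk]
    exact ((ker_tr hR r).1 (h_cn (X := X) (bl := bl) _)).symm
  hv u _ := r.hv u
  hb x _ y _ e := by
    have e1 : vt X h x.1 = vt X h y.1 := vt_of_rp e
    have e2 := (r.kerv _ _).2 ((hR.kerv _ _).1 e1)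
    have f : ∀ z : Fin S × Bool, X.vtx (h' z) = X.vtx (h' (z.1, false)) := by
      rintro ⟨t, b⟩
      cases b
      · rfl
      · exact (r.hv t).symm
    rw [f x, f y, e2]
  hc u _ u' _ e := by
    have a := (same_eqv c hR (clk_spec (rg := R.rg) k u)).choose_spec M' h' r false
    have b := (same_eqv c hR (clk_spec (rg := R.rg) k u')).choose_spec M' h' r false
    simp only [Bool.false_xor] at a b
    have e' : clk X h R.rg bl k u = clk X h R.rg bl k u' := e
    exact a.trans ((congrArg (fun w => Dt X h' w false) e').trans b.symm)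

end Vale.Agent.P201.Lv
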