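import Vale.Agent.P201.Defs

/-! Part C0 of P201: blocks of a configuration in a graph of large girth. -/

namespace Vale.Agent.P201

open Finset

namespace C0

variable {H V Lb : Type} {X : Sys H V Lb} {M : H → H}

/-- Nonbacktracking walks. -/
def NB (X : Sys H V Lb) (M : H → H) (o : ℕ → H) (n : ℕ) : Prop :=
  ∀ j, j < n → X.vtx (o (j + 1)) = X.vtx (M (o j)) ∧ o (j + 1) ≠ M (o j)

lemma NB.rev (hM : X.IsMatch M) {o : ℕ → H} {n : ℕ} (h : NB X M o n) :
    NB X M (fun j => M (o (n - j))) n := by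
  intro j hj
  have := h (n - (j + 1)) (by omega)
  rw [show n - (j + 1) + 1 = n - j by omega] at this
  simp only [(hM _).1]
  exact ⟨this.1.symm, this.2.symm⟩

lemma uniq (hM : X.IsMatch M) {g : ℕ} (hg : X.Girth M g) {o o' : ℕ → H} {n n' : ℕ}
    (h : NB X M o n) (h' : NB X M o' n') (hn : n + n' + 1 < g)
    (h0 : X.vtx (o 0) = X.vtx (o' 0)) (h1 : X.vtx (M (o n)) = X.vtx (M (o' n'))) : o 0 = o' 0 := by
  by_contra hne
  refine hg (n' + 1 + n) (fun j => if j ≤ n' then M (o' (n' - j)) else o (j - (n' + 1)))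
    (by omega) (fun j hj => ?_) ?_
  · rcases lt_trichotomy j n' with e | rfl | e
    · rw [if_pos (by omega), if_pos e.le]
      exact h'.rev hM j e
    · rw [if_neg (by omega), if_pos le_rfl, Nat.sub_self, Nat.sub_self, (hM _).1]
      exact ⟨h0, hne⟩
    · rw [if_neg (by omega), if_neg (by omega), show j + 1 - (n' + 1) = j - (n' + 1) + 1 by omega]
      exact h _ (by omega)
  · rw [if_neg (by omega), if_pos (Nat.zero_le _), Nat.add_sub_cancel_left, Nat.sub_zero]
    exact h1

variable {K s A S : ℕ} {ep : ℝ} {h : Fin S × Bool → H} {lk rg : Fin S → Option (Fin S)}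
  {bl : Fin S → Fin K}

lemma fwd (c : Config X M K s A ep S h lk rg bl) {p q : Fin S} (hpq : p < q) (hb : bl p = bl q) :
    ∃ (o : ℕ → H) (n : ℕ), n + 2 ≤ 2 * s ∧ NB X M o n ∧ o 0 = h (p, true) ∧
      M (o n) = h (q, false) := by
  have hpq' : p.1 < q.1 := hpq
  have hq := q.2
  have mid : ∀ r : Fin S, p ≤ r → r ≤ q → bl r = bl p := fun r a b =>
    le_antisymm (hb ▸ c.mono b) (c.mono a)
  have st : ∀ (j : ℕ) (a : p.1 + j < S) (b : p.1 + (j + 1) < S), p.1 + (j + 1) ≤ q.1 →
      M (h (⟨p.1 + j, a⟩, true)) = h (⟨p.1 + (j + 1), b⟩, false) := fun j a b e =>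
    c.hlk _ _ (c.blk _ _ rfl ((mid _ (Fin.le_def.2 (by simp)) (Fin.le_def.2 (by simp; omega))).trans
      (mid _ (Fin.le_def.2 (by simp)) (Fin.le_def.2 e)).symm))
  refine ⟨fun j => if e : p.1 + j < S then h (⟨p.1 + j, e⟩, true) else h (p, true),
    q.1 - p.1 - 1, ?_, fun j hj => ?_, by simp, ?_⟩
  · have h1 : Icc p q ⊆ univ.filter fun t => bl t = bl p := fun r hr =>
      mem_filter.2 ⟨mem_univ _, mid r (mem_Icc.1 hr).1 (mem_Icc.1 hr).2⟩
    have h2 := (card_le_card h1).trans (c.len _)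
    rw [Fin.card_Icc] at h2
    omega
  · simp only []
    rw [dif_pos (by omega), dif_pos (by omega), st j (by omega) (by omega) (by omega)]
    exact ⟨(c.hv _).symm, (c.hne _).symm⟩
  · simp only []
    rw [dif_pos (by omega), st _ (by omega) (by omega) (by omega)]
    congr 2
    exact Fin.ext (by simp; omega)

lemma walk (c : Config X M K s A ep S h lk rg bl) (hM : X.IsMatch M) {p q : Fin S} (hpq : p ≠ q)
    (hb : bl p = bl q) : ∃ (o : ℕ → H) (n : ℕ), n + 2 ≤ 2 * s ∧ NB X M o n ∧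
      o 0 = h (p, decide (p < q)) ∧ X.vtx (M (o n)) = X.vtx (h (q, false)) := by
  rcases lt_or_gt_of_ne hpq with e | e
  · obtain ⟨o, n, a1, a2, a3, a4⟩ := fwd c e hb
    exact ⟨o, n, a1, a2, by simp [a3, e], by rw [a4]⟩
  · obtain ⟨o, n, a1, a2, a3, a4⟩ := fwd c e hb.symm
    refine ⟨_, n, a1, a2.rev hM, by rw [decide_eq_false e.not_gt]; simpa using a4, ?_⟩
    simp only [Nat.sub_self, (hM _).1, a3]
    exact (c.hv q).symm

lemma vtx_any (c : Config X M K s A ep S h lk rg bl) (t : Fin S) (b : Bool) :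
    X.vtx (h (t, b)) = X.vtx (h (t, false)) := by
  cases b
  · rfl
  · exact (c.hv t).symm

end C0

theorem cfg_inj {H V Lb : Type} {X : Sys H V Lb} {M : H → H} {K s A S g : ℕ} {ep : ℝ}
    {h : Fin S × Bool → H} {lk rg : Fin S → Option (Fin S)} {bl : Fin S → Fin K}
    (c : Config X M K s A ep S h lk rg bl) (hg : X.Girth M g) (hs : 4 * s ≤ g)
    (t t' : Fin S) (hb : bl t = bl t') (hv : X.vtx (h (t, false)) = X.vtx (h (t', false))) :
    t = t' := by
  by_contra hne
  rcases lt_or_gt_of_ne hne with e | e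
  · obtain ⟨o, n, a1, a2, a3, a4⟩ := C0.fwd c e hb
    exact hg n o (by omega) a2 (by rw [a3, a4, ← c.hv, hv])
  · obtain ⟨o, n, a1, a2, a3, a4⟩ := C0.fwd c e hb.symm
    exact hg n o (by omega) a2 (by rw [a3, a4, ← c.hv, hv])

namespace C0

variable {H V Lb : Type} {X : Sys H V Lb} {M : H → H} {K s A S g : ℕ} {ep : ℝ}
  {h : Fin S × Bool → H} {lk rg : Fin S → Option (Fin S)} {bl : Fin S → Fin K}

lemma side (c : Config X M K s A ep S h lk rg bl) (hM : X.IsMatch M) (hg : X.Girth M g)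
    (hs : 4 * s ≤ g) {p q p' q' : Fin S} (hpq : p ≠ q) (hb : bl p = bl q) (hb' : bl p' = bl q')
    (h1 : X.vtx (h (p', false)) = X.vtx (h (p, false)))
    (h2 : X.vtx (h (q', false)) = X.vtx (h (q, false))) :
    h (p, decide (p < q)) = h (p', decide (p' < q')) := by
  have hpq' : p' ≠ q' := by
    rintro rfl
    exact hpq (cfg_inj c hg hs p q hb (h1.symm.trans h2))
  obtain ⟨o, n, a1, a2, a3, a4⟩ := walk c hM hpq hb
  obtain ⟨o', n', b1, b2, b3, b4⟩ := walk c hM hpq' hb'
  rw [← a3, ← b3]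
  exact uniq hM hg a2 b2 (by omega) (by rw [a3, b3, vtx_any c, vtx_any c p', h1])
    (by rw [a4, b4, h2])

lemma not_inner (hm : Monotone bl) (T : Finset (Fin S)) (hT : ∀ t ∈ T, ¬ Inner bl t) :
    T.card ≤ 2 * K := by
  classical
  have key : ∀ t ∈ T, ∀ t' ∈ T, ∀ t'' ∈ T, t < t' → t' < t'' → bl t = bl t'' → False := by
    intro t _ t' h' t'' _ a b e
    have a' : t.1 < t'.1 := a
    have b' : t'.1 < t''.1 := b
    have := t''.2
    have mid : ∀ r : Fin S, t ≤ r → r ≤ t'' → bl r = bl t := fun r a b =>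
      le_antisymm (e ▸ hm b) (hm a)
    refine hT t' h' ⟨⟨⟨t'.1 + 1, by omega⟩, rfl, ?_⟩, ⟨⟨t'.1 - 1, by omega⟩, by simp; omega, ?_⟩⟩
    · rw [mid t' a.le b.le, mid _ (Fin.le_def.2 (by simp; omega)) (Fin.le_def.2 (by simp; omega))]
    · rw [mid t' a.le b.le, mid _ (Fin.le_def.2 (by simp; omega)) (Fin.le_def.2 (by simp; omega))]
  refine (card_le_mul_card_image_of_maps_to (f := bl) (t := univ) (fun _ _ => mem_univ _) 2
    fun b _ => ?_).trans (by simp)
  by_contra hc
  obtain ⟨x, hx, y, hy, z, hz, e1, e2, e3⟩ := two_lt_card.1 (not_le.1 hc)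
  obtain ⟨hx, bx⟩ := mem_filter.1 hx
  obtain ⟨hy, bY⟩ := mem_filter.1 hy
  obtain ⟨hz, bz⟩ := mem_filter.1 hz
  have k1 := key x hx y hy z hz
  have k2 := key x hx z hz y hy
  have k3 := key y hy x hx z hz
  have k4 := key y hy z hz x hx
  have k5 := key z hz x hx y hy
  have k6 := key z hz y hy x hx
  simp only [bx, bY, bz, forall_const, imp_false, not_lt] at k1 k2 k3 k4 k5 k6
  omega

end C0

open Classical in
theorem cfg_bad {H V Lb : Type} {X : Sys H V Lb} {M : H → H} {K s A S g : ℕ} {ep : ℝ}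
    {h : Fin S × Bool → H} {lk rg : Fin S → Option (Fin S)} {bl : Fin S → Fin K}
    (c : Config X M K s A ep S h lk rg bl) (hM : X.IsMatch M) (hg : X.Girth M g) (hs : 4 * s ≤ g) :
    (univ.filter fun t => ¬ Good X h bl t).card ≤ 4 * K ^ 3 := by
  let Q : Fin S → Fin S → Prop := fun t t' =>
    (h (t', false) = h (t, false) ∧ h (t', true) = h (t, true)) ∨
      (h (t', false) = h (t, true) ∧ h (t', true) = h (t, false))
  have ex : ∀ t, ∃ t', ¬ Good X h bl t → X.vtx (h (t', false)) = X.vtx (h (t, false)) ∧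
      (¬ Inner bl t' ∨ ¬ Q t t') := by
    intro t
    by_cases e : Good X h bl t
    · exact ⟨t, fun h => absurd e h⟩
    · unfold Good at e
      push Not at e
      obtain ⟨t', a, b⟩ := e
      refine ⟨t', fun _ => ⟨a, ?_⟩⟩
      by_cases i : Inner bl t'
      · right
        rintro (⟨a1, a2⟩ | ⟨a1, a2⟩)
        · exact (b i).1 a1 a2
        · exact (b i).2 a1 a2
      · exact Or.inl i
  choose f hf using ex
  set B := univ.filter fun t => ¬ Good X h bl t with hB
  have hBf := fun t (ht : t ∈ B) => hf t (mem_filter.1 ht).2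
  have h1 : (B.filter fun t => ¬ Inner bl (f t)).card ≤ K * (2 * K) := by
    refine (card_le_mul_card_image_of_maps_to (f := f) (t := univ.filter fun t => ¬ Inner bl t)
      (fun t ht => mem_filter.2 ⟨mem_univ _, (mem_filter.1 ht).2⟩) K fun t' _ => ?_).trans
      (Nat.mul_le_mul_left _ (C0.not_inner c.mono _ fun t ht => (mem_filter.1 ht).2))
    refine (card_le_card_of_injOn bl (t := univ) (fun _ _ => mem_univ _)
      fun x hx y hy e => cfg_inj c hg hs x y e ?_).trans (by simp)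
    obtain ⟨x1, x2⟩ := mem_filter.1 hx
    obtain ⟨y1, y2⟩ := mem_filter.1 hy
    rw [← (hBf x (mem_filter.1 x1).1).1, ← (hBf y (mem_filter.1 y1).1).1, x2, y2]
  have h2 : (B.filter fun t => ¬ ¬ Inner bl (f t)).card ≤ 2 * (K * K) := by
    refine (card_le_mul_card_image_of_maps_to (f := fun t => (bl t, bl (f t))) (t := univ)
      (fun _ _ => mem_univ _) 2 fun b _ => ?_).trans (by simp)
    set F := (B.filter fun t => ¬ ¬ Inner bl (f t)).filter fun t => (bl t, bl (f t)) = b with hF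
    have hFm : ∀ x ∈ F, X.vtx (h (f x, false)) = X.vtx (h (x, false)) ∧ ¬ Q x (f x) ∧
        bl x = b.1 ∧ bl (f x) = b.2 := by
      intro x hx
      obtain ⟨x1, x2⟩ := mem_filter.1 hx
      obtain ⟨x3, x4⟩ := mem_filter.1 x1
      exact ⟨(hBf x x3).1, (hBf x x3).2.resolve_left x4, congrArg Prod.fst x2,
        congrArg Prod.snd x2⟩
    have key : ∀ x ∈ F, ∀ y ∈ F, ∀ z ∈ F, x < y → y < z → False := by
      intro x hx y hy z hz a b
      obtain ⟨x1, -, x2, x3⟩ := hFm x hx
      obtain ⟨y1, y0, y2, y3⟩ := hFm y hy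
      obtain ⟨z1, -, z2, z3⟩ := hFm z hz
      have s1 := C0.side c hM hg hs a.ne' (y2.trans x2.symm) (y3.trans x3.symm) y1 x1
      have s2 := C0.side c hM hg hs b.ne (y2.trans z2.symm) (y3.trans z3.symm) y1 z1
      rw [decide_eq_false a.not_gt] at s1
      rw [decide_eq_true b] at s2
      have hne := c.hne y
      generalize decide (f y < f x) = u at s1
      generalize decide (f y < f z) = w at s2
      cases u <;> cases w
      · exact hne (s1.trans s2.symm)
      · exact y0 (Or.inl ⟨s1.symm, s2.symm⟩)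
      · exact y0 (Or.inr ⟨s2.symm, s1.symm⟩)
      · exact hne (s1.trans s2.symm)
    by_contra hc
    obtain ⟨x, hx, y, hy, z, hz, e1, e2, e3⟩ := two_lt_card.1 (not_le.1 hc)
    have k1 := key x hx y hy z hz
    have k2 := key x hx z hz y hy
    have k3 := key y hy x hx z hz
    have k4 := key y hy z hz x hx
    have k5 := key z hz x hx y hy
    have k6 := key z hz y hy x hx
    simp only [imp_false, not_lt] at k1 k2 k3 k4 k5 k6
    omega
  have h3 := card_filter_add_card_filter_not (s := B) fun t => ¬ Inner bl (f t)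
  have h4 : K * K ≤ K ^ 3 := by
    rcases Nat.eq_zero_or_pos K with rfl | hK
    · simp
    · calc K * K = K ^ 2 := (sq K).symm
        _ ≤ K ^ 3 := Nat.pow_le_pow_right hK (by norm_num)
  nlinarith

end Vale.Agent.P201
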