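import Vale.Agent.P201.Defs

/-! Part C1a: the weights of the levels. -/

namespace Vale.Agent.P201

open Finset

namespace C1a

/-- Real harmonic numbers. -/
noncomputable def hh (n : ℕ) : ℝ := (harmonic n : ℝ)

lemma hh_succ (n : ℕ) : hh (n + 1) = hh n + ((n : ℝ) + 1)⁻¹ := by
  simp [hh, harmonic_succ]

lemma hh_zero : hh 0 = 0 := by simp [hh]

lemma hh_mono : Monotone hh := monotone_nat_of_le_succ fun n => by
  rw [hh_succ]; exact le_add_of_nonneg_right (by positivity)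

lemma hh_nonneg (n : ℕ) : 0 ≤ hh n := hh_zero ▸ hh_mono (Nat.zero_le n)

lemma one_le_hh {n : ℕ} (h : 1 ≤ n) : 1 ≤ hh n := by
  have := hh_mono h
  rwa [hh_succ, hh_zero, Nat.cast_zero, zero_add, zero_add, inv_one] at this

lemma hh_sub {n m : ℕ} (h : n ≤ m) : (m : ℝ) - n ≤ m * (hh m - hh n) := by
  induction m, h using Nat.le_induction with
  | base => simp
  | succ m h ih =>
    have h1 := hh_mono h
    have h2 : ((m : ℝ) + 1) * ((m : ℝ) + 1)⁻¹ = 1 := mul_inv_cancel₀ (by positivity)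
    rw [hh_succ]
    push_cast
    nlinarith

/-- The mean weight. -/
noncomputable def av (de : ℝ) (x : ℕ) : ℝ := 1 - de * (hh x - 1)

lemma sum_lam (de : ℝ) (x : ℕ) : ∑ k ∈ Icc 1 x, lam de k = x * av de x := by
  induction x with
  | zero => simp
  | succ x ih =>
    have h2 : ((x : ℝ) + 1) * ((x : ℝ) + 1)⁻¹ = 1 := mul_inv_cancel₀ (by positivity)
    rw [sum_Icc_succ_top (by omega), ih, av, av, hh_succ, lam, Nat.add_sub_cancel]
    change _ + (1 - de * hh x) = _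
    push_cast
    linear_combination de * h2

lemma sum_ite_lam (de : ℝ) {x K : ℕ} (h : x ≤ K) :
    ∑ k ∈ Icc 1 K, (if k ≤ x then lam de k else 0) = x * av de x := by
  rw [← sum_filter, ← sum_lam]
  congr 1
  ext k
  simp only [mem_filter, mem_Icc]
  omega

lemma av_anti {de : ℝ} (h : 0 ≤ de) {x y : ℕ} (hxy : x ≤ y) : av de y ≤ av de x := by
  have := hh_mono hxy
  simp only [av]
  nlinarith

lemma av_le {de : ℝ} (h : 0 ≤ de) {x : ℕ} (hx : 1 ≤ x) : av de x ≤ 1 := by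
  have := one_le_hh hx
  simp only [av]
  nlinarith

lemma de_hh {L Cw : ℝ} (hL : 0 < L) (hC : 0 ≤ Cw) {K : ℕ} (hK : Cw * (1 + Real.log K) ≤ L / 2)
    {k : ℕ} (hk : k ≤ K) : Cw / L * hh k ≤ 1 / 2 := by
  have h1 : hh k ≤ 1 + Real.log K := (hh_mono hk).trans (harmonic_le_one_add_log K)
  rw [div_mul_eq_mul_div, div_le_iff₀ hL]
  nlinarith

lemma av_nonneg {L Cw : ℝ} (hL : 0 < L) (hC : 0 ≤ Cw) {K : ℕ} (hK : Cw * (1 + Real.log K) ≤ L / 2)
    {k : ℕ} (hk : k ≤ K) : 0 ≤ av (Cw / L) k := by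
  have := de_hh hL hC hK hk
  have h2 : 0 ≤ Cw / L := by positivity
  simp only [av]
  nlinarith

lemma point {L Cw : ℝ} (hL : 0 < L) (hC : 0 ≤ Cw) {m n ρ : ℕ} (hm : 1 ≤ m) (hnm : n ≤ m)
    (hρ : ρ ≤ m) (h0 : n = 0 → ρ = 0) :
    L * (m * av (Cw / L) m) + Cw * ((m : ℝ) - n) - L * (ρ * av (Cw / L) n) ≤
      (L + Cw) * ((m : ℝ) - ρ) := by
  have hd : 0 ≤ Cw / L := by positivity
  have hm0 : (0 : ℝ) ≤ m := by positivity
  rcases Nat.eq_zero_or_pos n with rfl | hn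
  · have := mul_le_mul_of_nonneg_left (av_le hd hm) (mul_nonneg hL.le hm0)
    rw [h0 rfl]
    push_cast
    nlinarith
  · have h1 := mul_le_mul_of_nonneg_left (hh_sub hnm) hC
    have h2 : L * (m * av (Cw / L) n) - L * (m * av (Cw / L) m) = Cw * (m * (hh m - hh n)) := by
      simp only [av]; field_simp; ring
    have h3 : (0 : ℝ) ≤ (m : ℝ) - ρ := by rw [sub_nonneg]; exact_mod_cast hρ
    have h4 := mul_le_mul_of_nonneg_left (av_le hd hn) (mul_nonneg hL.le h3)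
    have h5 := mul_nonneg hC h3
    nlinarith

end C1a

open C1a

theorem lam_bd {L Cw : ℝ} (hL : 0 < L) (hC : 0 ≤ Cw) {K : ℕ} (hK : Cw * (1 + Real.log K) ≤ L / 2)
    (k : ℕ) (hk : k ≤ K) : 1 / 2 ≤ lam (Cw / L) k ∧ lam (Cw / L) k ≤ 1 := by
  have h1 := de_hh hL hC hK (k := k - 1) (by omega)
  have h2 : 0 ≤ Cw / L * hh (k - 1) := mul_nonneg (by positivity) (hh_nonneg _)
  change 1 / 2 ≤ 1 - Cw / L * hh (k - 1) ∧ 1 - Cw / L * hh (k - 1) ≤ 1
  constructor <;> linarith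

open Classical in
theorem wb {σ : Type} (T : Finset σ) (mu : σ → ℕ) (e : ℕ) {L Cw : ℝ} (hL : 0 < L) (hC : 0 ≤ Cw)
    {K : ℕ} (hK : Cw * (1 + Real.log K) ≤ L / 2) (h1 : ∀ x ∈ T, mu x ≤ K)
    (h2 : ∀ x ∈ T, mu x ≤ ∑ y ∈ T.erase x, mu y + e) :
    ∑ k ∈ Icc 1 K, lam (Cw / L) k * ((if ∃ x ∈ T, k ≤ mu x then (1 : ℝ) else 0) -
      ((T.filter fun x => k ≤ mu x).card : ℝ) / 2) ≤ (e : ℝ) / 2 := by
  have hd : 0 ≤ Cw / L := by positivity
  rcases T.eq_empty_or_nonempty with rfl | hT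
  · simp only [notMem_empty, false_and, exists_false, if_false, filter_empty, card_empty,
      Nat.cast_zero, zero_div, sub_zero, mul_zero, sum_const_zero]
    positivity
  obtain ⟨x0, hx0, hmax⟩ := T.exists_max_image mu hT
  have e1 : ∀ k, lam (Cw / L) k * ((if ∃ x ∈ T, k ≤ mu x then (1 : ℝ) else 0) -
      ((T.filter fun x => k ≤ mu x).card : ℝ) / 2) =
      (if k ≤ mu x0 then lam (Cw / L) k else 0) -
        (∑ x ∈ T, if k ≤ mu x then lam (Cw / L) k else 0) / 2 := by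
    intro k
    have : (∃ x ∈ T, k ≤ mu x) ↔ k ≤ mu x0 :=
      ⟨fun ⟨x, hx, h⟩ => h.trans (hmax x hx), fun h => ⟨x0, hx0, h⟩⟩
    rw [← sum_filter, sum_const, nsmul_eq_mul, if_congr this rfl rfl]
    split_ifs <;> ring
  simp only [e1]
  rw [sum_sub_distrib, ← sum_div, sum_comm, sum_ite_lam _ (h1 x0 hx0),
    sum_congr rfl fun x hx => sum_ite_lam (Cw / L) (h1 x hx), ← add_sum_erase _ _ hx0]
  have a0 := av_nonneg hL hC hK (h1 x0 hx0)
  have a1 : (∑ y ∈ T.erase x0, (mu y : ℝ)) * av (Cw / L) (mu x0) ≤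
      ∑ y ∈ T.erase x0, (mu y : ℝ) * av (Cw / L) (mu y) := by
    rw [sum_mul]
    exact sum_le_sum fun y hy => mul_le_mul_of_nonneg_left
      (av_anti hd (hmax y (mem_of_mem_erase hy))) (by positivity)
  have a2 : (mu x0 : ℝ) ≤ ∑ y ∈ T.erase x0, (mu y : ℝ) + e := by exact_mod_cast h2 x0 hx0
  have a3 := mul_le_mul_of_nonneg_right a2 a0
  have he : (0 : ℝ) ≤ e := by positivity
  rcases Nat.eq_zero_or_pos (mu x0) with h0 | h0
  · have a4 : 0 ≤ (∑ y ∈ T.erase x0, (mu y : ℝ)) * av (Cw / L) (mu x0) :=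
      mul_nonneg (sum_nonneg fun _ _ => by positivity) a0
    have a5 : (mu x0 : ℝ) * av (Cw / L) (mu x0) = 0 := by rw [h0]; simp
    linarith
  · have a4 := mul_le_mul_of_nonneg_left (av_le hd h0) he
    nlinarith

open Classical in
theorem wi {Gv Oc : Type} (Gs : Finset Gv) (Os Rg : Finset Oc) (hR : Rg ⊆ Os) (a : Oc → Gv)
    (mu r : Gv → ℕ) (pt : Oc → Oc) {L Cw : ℝ} (hL : 0 < L) (hC : 0 ≤ Cw) {K : ℕ}
    (hK : Cw * (1 + Real.log K) ≤ L / 2) (ha : ∀ o ∈ Os, a o ∈ Gs)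
    (hmu : ∀ v ∈ Gs, mu v = (Os.filter fun o => a o = v).card ∧ 1 ≤ mu v ∧ mu v ≤ K)
    (hpt : ∀ o ∈ Rg, pt o ∈ Rg ∧ pt (pt o) = o)
    (hr : ∀ v ∈ Gs, ∀ v' ∈ Gs, r v < r v' → mu v' ≤ mu v) :
    ∑ k ∈ Icc 1 K, lam (Cw / L) k *
      (L * (((Gs.filter fun v => k ≤ mu v ∧ ∀ o ∈ Rg, a o = v → r v < r (a (pt o))).card : ℝ) -
          ((Gs.filter fun v => k ≤ mu v ∧ ¬ ∀ o ∈ Rg, a o = v → r v < r (a (pt o))).card : ℝ)) +
        Cw * ((Gs.filter fun v => k ≤ mu v ∧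
          ∀ o ∈ Rg, a o = v → r v < r (a (pt o)) ∧ mu (a (pt o)) < k).card : ℝ)) ≤
      (L + Cw) * ((Os.card : ℝ) - Rg.card) := by
  have hd : 0 ≤ Cw / L := by positivity
  obtain ⟨rt, hrt⟩ : ∃ rt : Gv → Prop, ∀ v, rt v ↔ ∀ o ∈ Rg, a o = v → r v < r (a (pt o)) :=
    ⟨_, fun _ => Iff.rfl⟩
  obtain ⟨nu, hnu⟩ : ∃ nu : Gv → ℕ, ∀ v, nu v = (Rg.filter fun o => a o = v).sup
    fun o => mu (a (pt o)) := ⟨_, fun _ => rfl⟩
  obtain ⟨ρ, hρ⟩ : ∃ ρ : Gv → ℕ, ∀ v, ρ v = (Rg.filter fun o => a o = v).card := ⟨_, fun _ => rfl⟩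
  have pa : ∀ o ∈ Rg, a (pt o) ∈ Gs := fun o ho => ha _ (hR (hpt o ho).1)
  have n1 : ∀ o ∈ Rg, mu (a (pt o)) ≤ nu (a o) := fun o ho => by
    rw [hnu]
    exact le_sup (f := fun o => mu (a (pt o))) (mem_filter.2 ⟨ho, rfl⟩)
  have n2 : ∀ v ∈ Gs, rt v → nu v ≤ mu v := fun v hv h => by
    rw [hnu]
    exact Finset.sup_le fun o ho => hr v hv _ (pa o (mem_filter.1 ho).1)
      ((hrt v).1 h o (mem_filter.1 ho).1 (mem_filter.1 ho).2)
  have n3 : ∀ v, nu v = 0 → ρ v = 0 := fun v h => by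
    rw [hρ, card_eq_zero, eq_empty_iff_forall_notMem]
    intro o ho
    have := n1 o (mem_filter.1 ho).1
    have := (hmu _ (pa o (mem_filter.1 ho).1)).2.1
    rw [(mem_filter.1 ho).2] at *
    omega
  have n4 : ∀ v ∈ Gs, ρ v ≤ mu v := fun v hv => by
    rw [hρ, (hmu v hv).1]; exact card_le_card (filter_subset_filter _ hR)
  have s1 : ∀ (p : Gv → Prop) [DecidablePred p] (q : ℕ → Gv → Prop) [∀ k, DecidablePred (q k)],
      (∀ k v, q k v ↔ k ≤ mu v ∧ p v) →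
      ∑ k ∈ Icc 1 K, lam (Cw / L) k * ((Gs.filter (q k)).card : ℝ) =
        ∑ v ∈ Gs.filter p, (mu v : ℝ) * av (Cw / L) (mu v) := by
    intro p _ q _ hq
    rw [← sum_congr rfl fun v hv => sum_ite_lam (Cw / L) (hmu v (mem_filter.1 hv).1).2.2, sum_comm]
    refine sum_congr rfl fun k _ => ?_
    rw [← sum_filter, sum_const, nsmul_eq_mul, mul_comm, filter_filter]
    congr 3
    ext v
    rw [mem_filter, mem_filter, hq, and_comm (a := p v)]
  have s2 : ∑ k ∈ Icc 1 K, lam (Cw / L) k * ((Gs.filter fun v => k ≤ mu v ∧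
      ∀ o ∈ Rg, a o = v → r v < r (a (pt o)) ∧ mu (a (pt o)) < k).card : ℝ) ≤
      ∑ v ∈ Gs.filter rt, ((mu v : ℝ) - nu v) := by
    have b1 : ∀ k ∈ Icc 1 K, lam (Cw / L) k * ((Gs.filter fun v => k ≤ mu v ∧
        ∀ o ∈ Rg, a o = v → r v < r (a (pt o)) ∧ mu (a (pt o)) < k).card : ℝ) ≤
        ∑ v ∈ Gs.filter rt, if k ∈ Ioc (nu v) (mu v) then (1 : ℝ) else 0 := by
      intro k hk
      rw [← sum_filter, sum_const, nsmul_eq_mul, mul_one]
      refine (mul_le_of_le_one_left (by positivity)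
        (lam_bd hL hC hK k (mem_Icc.1 hk).2).2).trans (Nat.cast_le.2 (card_le_card fun v hv => ?_))
      simp only [mem_filter, mem_Ioc] at hv ⊢
      refine ⟨⟨hv.1, (hrt v).2 fun o ho h => (hv.2.2 o ho h).1⟩, ?_, hv.2.1⟩
      rw [hnu, Finset.sup_lt_iff (mem_Icc.1 hk).1]
      exact fun o ho => (hv.2.2 o (mem_filter.1 ho).1 (mem_filter.1 ho).2).2
    refine (sum_le_sum b1).trans ?_
    rw [sum_comm]
    refine sum_le_sum fun v hv => ?_
    rw [← sum_filter, sum_const, nsmul_eq_mul, mul_one,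
      ← Nat.cast_sub (n2 v (mem_filter.1 hv).1 (mem_filter.1 hv).2), ← Nat.card_Ioc]
    exact Nat.cast_le.2 (card_le_card fun k hk => (mem_filter.1 hk).2)
  have s3 : ∑ v ∈ Gs.filter rt, (ρ v : ℝ) * av (Cw / L) (nu v) ≤
      ∑ v ∈ Gs.filter (fun v => ¬ rt v), (mu v : ℝ) * av (Cw / L) (mu v) := by
    have b1 : ∑ v ∈ Gs.filter rt, (ρ v : ℝ) * av (Cw / L) (nu v) =
        ∑ o ∈ Rg.filter (fun o => rt (a o)), av (Cw / L) (nu (a o)) := by
      rw [← sum_fiberwise_of_maps_to (s := Rg.filter fun o => rt (a o)) (t := Gs.filter rt) (g := a)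
        fun o ho => mem_filter.2 ⟨ha o (hR (mem_filter.1 ho).1), (mem_filter.1 ho).2⟩]
      refine sum_congr rfl fun v hv => ?_
      rw [sum_congr rfl fun o ho => by rw [(mem_filter.1 ho).2], sum_const, nsmul_eq_mul, hρ]
      congr 3
      ext o
      simp only [mem_filter]
      exact ⟨fun h => ⟨⟨h.1, h.2 ▸ (mem_filter.1 hv).2⟩, h.2⟩, fun h => ⟨h.1.1, h.2⟩⟩
    have b2 : ∑ v ∈ Gs.filter (fun v => ¬ rt v), (mu v : ℝ) * av (Cw / L) (mu v) =
        ∑ o ∈ Os.filter (fun o => ¬ rt (a o)), av (Cw / L) (mu (a o)) := by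
      rw [← sum_fiberwise_of_maps_to (s := Os.filter fun o => ¬ rt (a o))
        (t := Gs.filter fun v => ¬ rt v) (g := a)
        fun o ho => mem_filter.2 ⟨ha o (mem_filter.1 ho).1, (mem_filter.1 ho).2⟩]
      refine sum_congr rfl fun v hv => ?_
      rw [sum_congr rfl fun o ho => by rw [(mem_filter.1 ho).2], sum_const, nsmul_eq_mul]
      congr 2
      rw [(hmu v (mem_filter.1 hv).1).1]
      congr 1
      ext o
      simp only [mem_filter]
      exact ⟨fun h => ⟨⟨h.1, h.2 ▸ (mem_filter.1 hv).2⟩, h.2⟩, fun h => ⟨h.1.1, h.2⟩⟩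
    rw [b1, b2]
    refine (sum_le_sum fun o ho => av_anti hd (n1 o (mem_filter.1 ho).1)).trans ?_
    rw [← sum_image (s := Rg.filter fun o => rt (a o)) (g := pt)
      (f := fun o => av (Cw / L) (mu (a o))) fun o ho o' ho' h => by
        rw [← (hpt o (mem_filter.1 ho).1).2, h, (hpt o' (mem_filter.1 ho').1).2]]
    refine sum_le_sum_of_subset_of_nonneg (fun o' ho' => ?_) fun o ho _ =>
      av_nonneg hL hC hK (hmu _ (ha o (mem_filter.1 ho).1)).2.2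
    obtain ⟨o, ho, rfl⟩ := mem_image.1 ho'
    have ho1 := (mem_filter.1 ho).1
    refine mem_filter.2 ⟨hR (hpt o ho1).1, fun h => ?_⟩
    have c1 := (hrt _).1 h _ (hpt o ho1).1 rfl
    have c2 := (hrt _).1 (mem_filter.1 ho).2 o ho1 rfl
    rw [(hpt o ho1).2] at c1
    omega
  have s4 : ∑ v ∈ Gs.filter rt, ((mu v : ℝ) - ρ v) ≤ (Os.card : ℝ) - Rg.card := by
    refine (sum_le_sum_of_subset_of_nonneg (filter_subset _ _) fun v hv _ => by
      rw [sub_nonneg]; exact_mod_cast n4 v hv).trans (le_of_eq ?_)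
    rw [sum_sub_distrib, card_eq_sum_card_fiberwise (f := a) (t := Gs) ha,
      card_eq_sum_card_fiberwise (f := a) (t := Gs) fun o ho => ha o (hR ho)]
    push_cast
    congr 1
    · exact sum_congr rfl fun v hv => by rw [(hmu v hv).1]
    · exact sum_congr rfl fun v _ => by rw [hρ v]
  have s5 := sum_le_sum fun v (hv : v ∈ Gs.filter rt) => point hL hC
    (hmu v (mem_filter.1 hv).1).2.1 (n2 v (mem_filter.1 hv).1 (mem_filter.1 hv).2)
    (n4 v (mem_filter.1 hv).1) (n3 v)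
  rw [sum_sub_distrib, sum_add_distrib, ← mul_sum, ← mul_sum, ← mul_sum, ← mul_sum] at s5
  have t1 := s1 rt (fun k v => k ≤ mu v ∧ ∀ o ∈ Rg, a o = v → r v < r (a (pt o)))
    fun k v => by rw [hrt]
  have t2 := s1 (fun v => ¬ rt v) (fun k v => k ≤ mu v ∧ ¬ ∀ o ∈ Rg, a o = v → r v < r (a (pt o)))
    fun k v => by rw [hrt]
  have t3 : ∀ x y z w : ℝ, w * (L * (x - y) + Cw * z) = L * (w * x) - L * (w * y) + Cw * (w * z) :=
    fun x y z w => by ring
  simp only [t3]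
  rw [sum_add_distrib, sum_sub_distrib, ← mul_sum, ← mul_sum, ← mul_sum, t1, t2]
  have u1 := mul_le_mul_of_nonneg_left s2 hC
  have u2 := mul_le_mul_of_nonneg_left s3 hL.le
  have u3 := mul_le_mul_of_nonneg_left s4 (add_nonneg hL.le hC)
  linarith

end Vale.Agent.P201
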