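import Vale.Agent.P201.L2
import Vale.Agent.P201.PartC1a

/-!
Some level of a configuration has a small first moment.
-/

namespace Vale.Agent.P201

open Finset Classical

namespace Lv

variable {H V Lb : Type} {X : Sys H V Lb} {M : H → H} {K s A S g : ℕ} {ep : ℝ}
  {h : Fin S × Bool → H} {bl : Fin S → Fin K} {R : Raw S}

noncomputable def rk (X : Sys H V Lb) (h : Fin S × Bool → H) (K : ℕ) (t : Fin S) : ℕ :=
  (K - mu X h t) * S + t.1

noncomputable def cnt {α : Type} (T : Finset α) (p : α → Prop) : ℕ := (T.filter p).card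

theorem cnt_eq {α : Type} (T : Finset α) (p : α → Prop) (i : DecidablePred p) :
    (@Finset.filter α p i T).card = cnt T p := by
  unfold cnt; congr

theorem rk_lt {t t' : Fin S} (h2 : mu X h t' ≤ K) (e : mu X h t < mu X h t') :
    rk X h K t' < rk X h K t := by
  unfold rk
  have h3 : K - mu X h t' + 1 ≤ K - mu X h t := by omega
  have h4 := Nat.mul_le_mul_right S h3
  have := t'.2
  rw [add_mul, one_mul] at h4
  omega

theorem rk_inj {t t' : Fin S} (e : rk X h K t = rk X h K t') : t = t' := by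
  have h1 := congrArg (· % S) e
  simp only [rk, Nat.mul_add_mod_of_lt t.2, Nat.mul_add_mod_of_lt t'.2] at h1
  exact Fin.ext h1

noncomputable def Gs (X : Sys H V Lb) (h : Fin S × Bool → H) (bl : Fin S → Fin K) :
    Finset (Fin S) := univ.filter fun t => Good X h bl t ∧ rp X h t = t

theorem mem_Uk {k : ℕ} {t : Fin S} : t ∈ Uk X h bl k ↔ t ∈ Gs X h bl ∧ k ≤ mu X h t := by
  simp [Uk, Gs, and_assoc]

theorem rp_mem {t : Fin S} (hG : Good X h bl t) : rp X h t ∈ Gs X h bl :=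
  mem_filter.2 ⟨mem_univ _, good_congr (vt_rp t).symm hG, rp_rp t⟩

theorem comp_le (c : Config X M K s A ep S h R.lk R.rg bl) (hg : X.Girth M g) (hs : 4 * s ≤ g)
    (k : ℕ) : ((Uk X h bl k).image (clk X h R.rg bl k)).card ≤
      ((Gs X h bl).filter fun v => k ≤ mu X h v ∧ ∀ o ∈ Rg X h R.rg bl, rp X h o = v →
        rk X h K v < rk X h K (rp X h (ptn R.rg o))).card := by
  refine le_trans (card_le_card ?_) (card_image_le (f := clk X h R.rg bl k))
  intro d hd
  obtain ⟨u0, hu0, rfl⟩ := mem_image.1 hd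
  obtain ⟨u, hu, hmin⟩ := exists_min_image
    ((Uk X h bl k).filter fun u => clk X h R.rg bl k u = clk X h R.rg bl k u0) (rk X h K)
    ⟨u0, mem_filter.2 ⟨hu0, rfl⟩⟩
  obtain ⟨hu1, hu2⟩ := mem_filter.1 hu
  refine mem_image.2 ⟨u, mem_filter.2 ⟨(mem_Uk.1 hu1).1, (mem_Uk.1 hu1).2, ?_⟩, hu2⟩
  intro o ho e
  have hne : rp X h (ptn R.rg o) ≠ u := e ▸ rp_ptn_ne c ho
  by_contra hlt
  have hle : mu X h u ≤ mu X h (rp X h (ptn R.rg o)) := by
    by_contra h'
    exact hlt (rk_lt (mu_le c hg hs _) (not_le.1 h'))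
  have hf : rp X h (ptn R.rg o) ∈ Uk X h bl k :=
    mem_Uk.2 ⟨rp_mem (rg_spec c ho).2.2.1, (mem_Uk.1 hu1).2.trans hle⟩
  have hc := clk_congr (Relation.EqvGen.rel _ _ (⟨hu1, hf, o, ho, e, rfl⟩ : Rel X h R.rg bl k _ _))
  have := hmin _ (mem_filter.2 ⟨hf, hc.symm.trans hu2⟩)
  exact hne (rk_inj (K := K) (X := X) (h := h) (by omega))

theorem sing_le (c : Config X M K s A ep S h R.lk R.rg bl) (hg : X.Girth M g) (hs : 4 * s ≤ g)
    (k : ℕ) : ((Uk X h bl k).filter fun u => ∀ u' ∈ Uk X h bl k,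
      clk X h R.rg bl k u' = clk X h R.rg bl k u → u' = u).card ≤
      ((Gs X h bl).filter fun v => k ≤ mu X h v ∧ ∀ o ∈ Rg X h R.rg bl, rp X h o = v →
        rk X h K v < rk X h K (rp X h (ptn R.rg o)) ∧ mu X h (rp X h (ptn R.rg o)) < k).card := by
  refine card_le_card ?_
  intro u hu
  obtain ⟨hu1, hu2⟩ := mem_filter.1 hu
  refine mem_filter.2 ⟨(mem_Uk.1 hu1).1, (mem_Uk.1 hu1).2, fun o ho e => ?_⟩
  have hne : rp X h (ptn R.rg o) ≠ u := e ▸ rp_ptn_ne c ho
  have hlt : mu X h (rp X h (ptn R.rg o)) < k := by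
    by_contra h'
    have hf : rp X h (ptn R.rg o) ∈ Uk X h bl k :=
      mem_Uk.2 ⟨rp_mem (rg_spec c ho).2.2.1, not_lt.1 h'⟩
    have hc := clk_congr
      (Relation.EqvGen.rel _ _ (⟨hu1, hf, o, ho, e, rfl⟩ : Rel X h R.rg bl k _ _))
    exact hne (hu2 _ hf hc.symm)
  exact ⟨rk_lt (mu_le c hg hs _) (lt_of_lt_of_le hlt (mem_Uk.1 hu1).2), hlt⟩

theorem Uk_split (k : ℕ) (p : Fin S → Prop) : (Uk X h bl k).card =
    ((Gs X h bl).filter fun v => k ≤ mu X h v ∧ p v).card +
      ((Gs X h bl).filter fun v => k ≤ mu X h v ∧ ¬ p v).card := by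
  rw [← card_filter_add_card_filter_not (s := Uk X h bl k) p]
  congr 2 <;> ext v <;> simp [mem_Uk, and_assoc]

theorem sum_levels {σ : Type} (T : Finset σ) (f : σ → ℕ) (K : ℕ) (hf : ∀ x ∈ T, f x ≤ K) :
    ∑ k ∈ Icc 1 K, (T.filter fun x => k ≤ f x).card = ∑ x ∈ T, f x := by
  simp only [card_filter]
  rw [sum_comm]
  refine sum_congr rfl fun x hx => ?_
  rw [← card_filter]
  have : (Icc 1 K).filter (fun k => k ≤ f x) = Icc 1 (f x) := by
    ext k
    have := hf x hx
    simp only [mem_filter, mem_Icc]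
    omega
  rw [this]; simp

theorem mu_eq {v : Fin S} (hv : v ∈ Gs X h bl) :
    mu X h v = ((univ.filter fun t => Good X h bl t).filter fun o => rp X h o = v).card := by
  obtain ⟨h1, h2⟩ := (mem_filter.1 hv).2
  unfold mu
  congr 1
  ext t
  simp only [mem_filter, mem_univ, true_and]
  exact ⟨fun e => ⟨good_congr e.symm h1, (rp_congr e).trans h2⟩,
    fun e => vt_of_rp (e.2.trans h2.symm)⟩

theorem sum_Uk (c : Config X M K s A ep S h R.lk R.rg bl) (hg : X.Girth M g) (hs : 4 * s ≤ g) :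
    ∑ k ∈ Icc 1 K, (Uk X h bl k).card = (univ.filter fun t => Good X h bl t).card := by
  have e : ∀ k, Uk X h bl k = (Gs X h bl).filter fun v => k ≤ mu X h v := by
    intro k; ext v; simp [mem_Uk]
  simp only [e]
  rw [sum_levels _ _ _ fun x _ => mu_le c hg hs x,
    card_eq_sum_card_fiberwise (f := rp X h) (t := Gs X h bl)
      fun t ht => mem_coe.2 (rp_mem (mem_filter.1 (mem_coe.1 ht)).2)]
  exact sum_congr rfl fun v hv => mu_eq hv

theorem sum_Bk (c : Config X M K s A ep S h R.lk R.rg bl) (hg : X.Girth M g) (hs : 4 * s ≤ g) :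
    ∑ k ∈ Icc 1 K, (Bk X h R.lk bl k).card ≤
      2 * (univ.filter fun t => ¬ Good X h bl t).card := by
  set T : Finset (Fin S × Bool) := univ.filter fun x => ¬ Good X h bl x.1 ∧ cn X h bl x = x with hT
  have e : ∀ k, Bk X h R.lk bl k = T.filter fun x => k ≤ em h R.lk x := by
    intro k; ext v; simp [Bk, hT, and_assoc]
  simp only [e]
  rw [sum_levels _ _ _ fun x _ => (em_le_mu c x).trans (mu_le c hg hs _)]
  have h1 : ((univ.filter fun t => ¬ Good X h bl t) ×ˢ (univ : Finset Bool)).card =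
      ∑ x ∈ T, (((univ.filter fun t => ¬ Good X h bl t) ×ˢ (univ : Finset Bool)).filter
        fun y => cn X h bl y = x).card := by
    refine card_eq_sum_card_fiberwise fun y hy => mem_coe.2 (mem_filter.2 ⟨mem_univ _, ?_, cn_cn c y⟩)
    have hy' := (mem_filter.1 (mem_product.1 (mem_coe.1 hy)).1).2
    exact fun hG => hy' (good_congr (vt_of_h c (h_cn y)) hG)
  rw [card_product, card_univ, Fintype.card_bool, mul_comm] at h1
  rw [h1]
  refine sum_le_sum fun x hx => card_le_card fun y hy => ?_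
  obtain ⟨a1, a2⟩ := (mem_filter.1 hx).2
  obtain ⟨b1, -⟩ := (mem_filter.1 hy).2
  refine mem_filter.2 ⟨mem_product.2 ⟨mem_filter.2 ⟨mem_univ _, fun hG => a1 ?_⟩, mem_univ _⟩, ?_⟩
  · exact good_congr (vt_of_h c b1) hG
  · rw [cn_congr c b1, a2]

theorem card_Rg (c : Config X M K s A ep S h R.lk R.rg bl) :
    (univ.filter fun t => Good X h bl t).card ≤ (Rg X h R.rg bl).card +
      (univ.filter fun t => R.rg t = none).card + (univ.filter fun t => ¬ Good X h bl t).card := by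
  have h1 : (univ.filter fun t => ∃ t', R.rg t = some t' ∧ ¬ Good X h bl t').card ≤
      (univ.filter fun t => ¬ Good X h bl t).card := by
    refine card_le_card_of_injOn (ptn R.rg) ?_ ?_
    · intro t ht
      obtain ⟨t', a, b⟩ := (mem_filter.1 (mem_coe.1 ht)).2
      exact mem_coe.2 (mem_filter.2 ⟨mem_univ _, by simpa [ptn, a] using b⟩)
    · intro t ht u hu e
      obtain ⟨t', a, -⟩ := (mem_filter.1 (mem_coe.1 ht)).2
      obtain ⟨u', a', -⟩ := (mem_filter.1 (mem_coe.1 hu)).2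
      simp only [ptn, a, a', Option.getD_some] at e
      subst e
      exact Option.some.inj ((c.hrg _ _ a).1.symm.trans (c.hrg _ _ a').1)
  refine le_trans (card_le_card (t := (Rg X h R.rg bl ∪ univ.filter fun t => R.rg t = none) ∪
    univ.filter fun t => ∃ t', R.rg t = some t' ∧ ¬ Good X h bl t') ?_) ?_
  · intro t ht
    have hG := (mem_filter.1 ht).2
    simp only [mem_union, mem_filter, mem_univ, true_and, Rg]
    rcases e : R.rg t with _ | t'
    · exact Or.inl (Or.inr rfl)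
    · by_cases h' : Good X h bl t'
      · exact Or.inl (Or.inl ⟨hG, t', rfl, h'⟩)
      · exact Or.inr ⟨t', rfl, h'⟩
  · refine (card_union_le _ _).trans (add_le_add (card_union_le _ _) h1)

theorem em_bound (c : Config X M K s A ep S h R.lk R.rg bl) (v : Fin S) (x : Fin S × Bool)
    (hx : x ∈ univ.filter fun x => cn X h bl x = x ∧ rp X h x.1 = v) :
    em h R.lk x ≤ ∑ y ∈ (univ.filter fun x => cn X h bl x = x ∧ rp X h x.1 = v).erase x,
      em h R.lk y + (univ.filter fun y : Fin S × Bool => ¬ Lkd R.lk y ∧ rp X h y.1 = v).card := by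
  obtain ⟨x1, x2⟩ := (mem_filter.1 hx).2
  have h1 : em h R.lk x ≤ (((univ.filter fun x => cn X h bl x = x ∧ rp X h x.1 = v).erase x).biUnion
      (fun y => univ.filter fun z => h z = h y ∧ Lkd R.lk z) ∪
      univ.filter fun y : Fin S × Bool => ¬ Lkd R.lk y ∧ rp X h y.1 = v).card := by
    refine card_le_card_of_injOn (fun y => (y.1, !y.2)) ?_ ?_
    · rintro ⟨t, b⟩ hy
      obtain ⟨y1, -⟩ := (mem_filter.1 (mem_coe.1 hy)).2
      have e1 : rp X h t = v := (rp_congr (vt_of_h c y1)).trans x2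
      refine mem_coe.2 (mem_union.2 ?_)
      by_cases hl : Lkd R.lk (t, !b)
      · refine Or.inl (mem_biUnion.2 ⟨cn X h bl (t, !b), mem_erase.2 ⟨fun e => ?_,
          mem_filter.2 ⟨mem_univ _, cn_cn c _, (rp_congr (vt_of_h c (h_cn _))).trans e1⟩⟩,
          mem_filter.2 ⟨mem_univ _, (h_cn _).symm, hl⟩⟩)
        have e2 : h (t, !b) = h (t, b) := by rw [y1, ← e, h_cn (X := X) (h := h)]
        have := slot_ne c e2
        cases b <;> simp at this
      · exact Or.inr (mem_filter.2 ⟨mem_univ _, hl, e1⟩)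
    · rintro ⟨t, b⟩ _ ⟨t', b'⟩ _ e
      simp only [Prod.mk.injEq, Bool.not_inj_iff] at e
      exact Prod.ext e.1 e.2
  exact h1.trans ((card_union_le _ _).trans (add_le_add card_biUnion_le le_rfl))

theorem bad_sum (c : Config X M K s A ep S h R.lk R.rg bl) (hg : X.Girth M g) (hs : 4 * s ≤ g)
    {L Cw : ℝ} (hL : 0 < L) (hC : 0 ≤ Cw) (hK : Cw * (1 + Real.log K) ≤ L / 2) :
    ∑ k ∈ Icc 1 K, lam (Cw / L) k * ((((Bk X h R.lk bl k).image fun x => rp X h x.1).card : ℝ) -
      ((Bk X h R.lk bl k).card : ℝ) / 2) ≤ (univ.filter fun t => R.lk t = none).card := by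
  set Bv : Finset (Fin S) := univ.filter fun t => ¬ Good X h bl t ∧ rp X h t = t with hBv
  set T : Fin S → Finset (Fin S × Bool) :=
    fun v => univ.filter fun x => cn X h bl x = x ∧ rp X h x.1 = v with hT
  have hmap : ∀ k, ∀ x ∈ Bk X h R.lk bl k, rp X h x.1 ∈ Bv := fun k x hx =>
    mem_filter.2 ⟨mem_univ _, fun hG => (mem_filter.1 hx).2.1 (good_congr (vt_rp _) hG), rp_rp _⟩
  have hfib : ∀ k, ∀ v ∈ Bv, (Bk X h R.lk bl k).filter (fun x => rp X h x.1 = v) =
      (T v).filter fun x => k ≤ em h R.lk x := by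
    intro k v hv
    ext x
    simp only [Bk, hT, mem_filter, mem_univ, true_and]
    constructor
    · rintro ⟨⟨-, a, b⟩, d⟩; exact ⟨⟨a, d⟩, b⟩
    · rintro ⟨⟨a, d⟩, b⟩
      exact ⟨⟨fun hG => (mem_filter.1 hv).2.1 (d ▸ good_congr (vt_rp _).symm hG), a, b⟩, d⟩
  have e1 : ∀ k, ((Bk X h R.lk bl k).card : ℝ) =
      ∑ v ∈ Bv, (((T v).filter fun x => k ≤ em h R.lk x).card : ℝ) := by
    intro k
    rw [card_eq_sum_card_fiberwise (f := fun x => rp X h x.1) (t := Bv)
      fun x hx => mem_coe.2 (hmap k x (mem_coe.1 hx))]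
    push_cast
    exact sum_congr rfl fun v hv => by rw [hfib k v hv]
  have e2 : ∀ k, (((Bk X h R.lk bl k).image fun x => rp X h x.1).card : ℝ) =
      ∑ v ∈ Bv, (if ∃ x ∈ T v, k ≤ em h R.lk x then (1 : ℝ) else 0) := by
    intro k
    rw [sum_boole]
    congr 2
    ext v
    simp only [mem_image, mem_filter]
    constructor
    · rintro ⟨x, hx, rfl⟩
      have hx' : x ∈ (Bk X h R.lk bl k).filter (fun y => rp X h y.1 = rp X h x.1) :=
        mem_filter.2 ⟨hx, rfl⟩
      rw [hfib k _ (hmap k x hx)] at hx'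
      exact ⟨hmap k x hx, x, (mem_filter.1 hx').1, (mem_filter.1 hx').2⟩
    · rintro ⟨hv, x, a, b⟩
      have hx' : x ∈ (T v).filter fun x => k ≤ em h R.lk x := mem_filter.2 ⟨a, b⟩
      rw [← hfib k _ hv] at hx'
      exact ⟨x, (mem_filter.1 hx').1, (mem_filter.1 hx').2⟩
  have e3 : ∑ v ∈ Bv, (univ.filter fun y : Fin S × Bool => ¬ Lkd R.lk y ∧ rp X h y.1 = v).card ≤
      (univ.filter fun y : Fin S × Bool => ¬ Lkd R.lk y).card := by
    rw [card_eq_sum_card_fiberwise (s := univ.filter fun y : Fin S × Bool => ¬ Lkd R.lk y)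
      (f := fun y => rp X h y.1) (t := univ) fun _ _ => mem_coe.2 (mem_univ _)]
    simp only [filter_filter]
    exact sum_le_sum_of_subset (subset_univ _)
  have e4 : ((∑ v ∈ Bv, (univ.filter fun y : Fin S × Bool =>
      ¬ Lkd R.lk y ∧ rp X h y.1 = v).card : ℕ) : ℝ) ≤
      ((2 * (univ.filter fun t => R.lk t = none).card : ℕ) : ℝ) :=
    Nat.cast_le.2 (e3.trans (card_unlinked c))
  push_cast at e4
  calc _ = ∑ v ∈ Bv, ∑ k ∈ Icc 1 K, lam (Cw / L) k *
        ((if ∃ x ∈ T v, k ≤ em h R.lk x then (1 : ℝ) else 0) -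
          (((T v).filter fun x => k ≤ em h R.lk x).card : ℝ) / 2) := by
        rw [sum_comm]
        refine sum_congr rfl fun k _ => ?_
        rw [e1, e2, sum_div, ← sum_sub_distrib, mul_sum]
    _ ≤ ∑ v ∈ Bv, ((univ.filter fun y : Fin S × Bool =>
          ¬ Lkd R.lk y ∧ rp X h y.1 = v).card : ℝ) / 2 :=
        sum_le_sum fun v _ => wb (T v) (em h R.lk) _ hL hC hK
          (fun x _ => (em_le_mu c x).trans (mu_le c hg hs _))
          (fun x hx => (em_bound c v x hx).trans (le_of_eq (by congr; exact Subsingleton.elim _ _)))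
    _ ≤ _ := by rw [← sum_div]; linarith

noncomputable def ww (X : Sys H V Lb) (h : Fin S × Bool → H) (R : Raw S) (bl : Fin S → Fin K)
    (L Cw : ℝ) (k : ℕ) : ℝ :=
  L * ((cnt (Gs X h bl) fun v => k ≤ mu X h v ∧
      ∀ o ∈ Rg X h R.rg bl, rp X h o = v → rk X h K v < rk X h K (rp X h (ptn R.rg o)) : ℝ) -
      (cnt (Gs X h bl) fun v => k ≤ mu X h v ∧ ¬ ∀ o ∈ Rg X h R.rg bl, rp X h o = v →
        rk X h K v < rk X h K (rp X h (ptn R.rg o)) : ℝ)) +
      Cw * (cnt (Gs X h bl) fun v => k ≤ mu X h v ∧ ∀ o ∈ Rg X h R.rg bl, rp X h o = v →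
        rk X h K v < rk X h K (rp X h (ptn R.rg o)) ∧ mu X h (rp X h (ptn R.rg o)) < k : ℝ)

theorem pat_le (c : Config X M K s A ep S h R.lk R.rg bl) (hM : X.IsMatch M) (hg : X.Girth M g)
    (hs : 4 * s ≤ g) (hR : Realizes X R M h) {ga L Cw ln ll : ℝ} (hL : 0 < L) (hC : 0 ≤ Cw)
    (k : ℕ) (hk : 1 ≤ k) : (pat c hM hR k hk).logW ga L Cw ln ll ≤
      - ga * ((Uk X h bl k).card : ℝ) + ww X h R bl L Cw k +
        ((((Bk X h R.lk bl k).image fun x => rp X h x.1).card : ℝ) -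
          ((Bk X h R.lk bl k).card : ℝ) / 2) * ln + ((Bk X h R.lk bl k).card : ℝ) * ll := by
  have a1 := (Nat.cast_le (α := ℝ)).2 (comp_le c hg hs k)
  have a2 := (Nat.cast_le (α := ℝ)).2 (sing_le c hg hs k)
  have a3 := congrArg (Nat.cast (R := ℝ)) (Uk_split (X := X) (h := h) (bl := bl) k fun v =>
    ∀ o ∈ Rg X h R.rg bl, rp X h o = v → rk X h K v < rk X h K (rp X h (ptn R.rg o)))
  push_cast at a3
  have a4 := mul_le_mul_of_nonneg_left a1 hL.le
  have a5 := mul_le_mul_of_nonneg_left a2 hC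
  have a6 := congrArg (L * ·) a3
  simp only [SubPat.logW, cnt_eq] at a4 a5 a6 ⊢
  simp only [pat, ww]
  linarith

theorem ww_sum (c : Config X M K s A ep S h R.lk R.rg bl) (hg : X.Girth M g)
    (hs : 4 * s ≤ g) {L Cw : ℝ} (hL : 0 < L) (hC : 0 ≤ Cw)
    (hK : Cw * (1 + Real.log K) ≤ L / 2) :
    ∑ k ∈ Icc 1 K, lam (Cw / L) k * ww X h R bl L Cw k ≤ (L + Cw) *
      (((univ.filter fun t => Good X h bl t).card : ℝ) - (Rg X h R.rg bl).card) := by
  have := wi (Gs X h bl) (univ.filter fun t => Good X h bl t) (Rg X h R.rg bl)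
      (fun t ht => mem_filter.2 ⟨mem_univ _, (mem_filter.1 ht).2.1⟩) (rp X h) (mu X h) (rk X h K)
      (ptn R.rg) hL hC hK (fun o ho => rp_mem (mem_filter.1 ho).2)
      (fun v hv => ⟨(mu_eq hv).trans (by rw [cnt_eq, cnt_eq]), mu_pos v, mu_le c hg hs v⟩)
      (fun o ho => (rg_spec c ho).2.2.2)
      (fun v _ v' _ e => by
        by_contra h'
        exact absurd (rk_lt (mu_le c hg hs _) (not_le.1 h')) (not_lt.2 e.le))
  simp only [cnt_eq] at this
  simp only [ww, cnt_eq]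
  exact this

end Lv

open Lv in
theorem level {H V Lb : Type} {X : Sys H V Lb} {M : H → H} {K s A S g : ℕ} {ep : ℝ}
    {h : Fin S × Bool → H} {bl : Fin S → Fin K} (R : Raw S)
    (c : Config X M K s A ep S h R.lk R.rg bl) (hM : X.IsMatch M) (hg : X.Girth M g)
    (hs : 4 * s ≤ g) (hs1 : 1 ≤ s) (hR : Realizes X R M h) {ga L Cw ln ll : ℝ} (hga : 0 ≤ ga)
    (hL : 0 < L) (hC : 0 ≤ Cw) (hK : Cw * (1 + Real.log K) ≤ L / 2) (hln : 0 ≤ ln) (hll : 0 ≤ ll)
    (hY : 0 < gain K s S ep ga L Cw ln ll) :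
    ∃ P : SubPat (Fin S), P.logW ga L Cw ln ll ≤ - gain K s S ep ga L Cw ln ll / K ∧
      ∀ M' h', X.IsMatch M' → Realizes X R M' h' → Emb X P M' h' := by
  have hS : 0 < S := lt_of_lt_of_le hs1 c.big
  have hK0 : 0 < K := Fin.pos (bl ⟨0, hS⟩)
  set Y := gain K s S ep ga L Cw ln ll with hYd
  set u : ℕ → ℝ := fun k => ((Uk X h bl k).card : ℝ) with hu
  set b : ℕ → ℝ := fun k => ((Bk X h R.lk bl k).card : ℝ) with hb
  set bv : ℕ → ℝ := fun k => (((Bk X h R.lk bl k).image fun x => rp X h x.1).card : ℝ) with hbv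
  set w : ℕ → ℝ := ww X h R bl L Cw with hw
  set F : ℕ → ℝ := fun k => - ga * u k + w k + (bv k - b k / 2) * ln + b k * ll with hF
  have hP : ∀ k (hk : 1 ≤ k), (pat c hM hR k hk).logW ga L Cw ln ll ≤ F k :=
    fun k hk => pat_le c hM hg hs hR hL hC k hk
  have hwi := ww_sum c hg hs hL hC hK
  have hbad : ((univ.filter fun t => ¬ Good X h bl t).card : ℝ) ≤ 4 * (K : ℝ) ^ 3 := by
    exact_mod_cast cfg_bad c hM hg hs
  have hgood : ((univ.filter fun t => Good X h bl t).card : ℝ) +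
      (univ.filter fun t => ¬ Good X h bl t).card = S := by
    have := card_filter_add_card_filter_not (s := (univ : Finset (Fin S)))
      (fun t => Good X h bl t)
    rw [card_univ, Fintype.card_fin] at this
    exact_mod_cast this
  have hU : ∑ k ∈ Icc 1 K, u k = ((univ.filter fun t => Good X h bl t).card : ℝ) := by
    rw [← sum_Uk c hg hs]; simp [hu]
  have hB : ∑ k ∈ Icc 1 K, b k ≤ 2 * ((univ.filter fun t => ¬ Good X h bl t).card : ℝ) := by
    have := (Nat.cast_le (α := ℝ)).2 (sum_Bk c hg hs)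
    simpa [hb] using this
  have hRg : ((univ.filter fun t => Good X h bl t).card : ℝ) ≤ (Rg X h R.rg bl).card +
      (univ.filter fun t => R.rg t = none).card + (univ.filter fun t => ¬ Good X h bl t).card := by
    exact_mod_cast card_Rg c
  have hE := bad_sum c hg hs hL hC hK
  have hsp : (0 : ℝ) < s := by exact_mod_cast hs1
  have hE2 : ((univ.filter fun t => R.lk t = none).card : ℝ) ≤ ep * S / s :=
    (le_div_iff₀ hsp).2 c.few2
  have t1 : ∑ k ∈ Icc 1 K, lam (Cw / L) k * (- ga * u k) ≤ - (ga / 2 * (S - 4 * (K : ℝ) ^ 3)) := by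
    calc _ ≤ ∑ k ∈ Icc 1 K, - (ga / 2) * u k := by
          refine sum_le_sum fun k hk => ?_
          have l1 := (lam_bd hL hC hK k (mem_Icc.1 hk).2).1
          have l2 : 0 ≤ ga * u k := mul_nonneg hga (Nat.cast_nonneg _)
          have := mul_le_mul_of_nonneg_right l1 l2
          linarith
      _ ≤ _ := by
          rw [← mul_sum, hU]
          have := mul_le_mul_of_nonneg_left (show (S : ℝ) - 4 * (K : ℝ) ^ 3 ≤
            ((univ.filter fun t => Good X h bl t).card : ℝ) by linarith) hga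
          linarith
  have t2 : ∑ k ∈ Icc 1 K, lam (Cw / L) k * w k ≤ (L + Cw) * (ep * S + 4 * (K : ℝ) ^ 3) :=
    hwi.trans (mul_le_mul_of_nonneg_left (by linarith [c.few1]) (by linarith))
  have t3 : ∑ k ∈ Icc 1 K, lam (Cw / L) k * ((bv k - b k / 2) * ln) ≤ ep * S / s * ln := by
    simp only [← mul_assoc]
    rw [← sum_mul]
    exact mul_le_mul_of_nonneg_right (hE.trans hE2) hln
  have t4 : ∑ k ∈ Icc 1 K, lam (Cw / L) k * (b k * ll) ≤ 8 * (K : ℝ) ^ 3 * ll := by
    calc _ ≤ ∑ k ∈ Icc 1 K, b k * ll := by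
          refine sum_le_sum fun k hk => ?_
          have l1 := (lam_bd hL hC hK k (mem_Icc.1 hk).2).2
          have l2 : 0 ≤ b k * ll := mul_nonneg (Nat.cast_nonneg _) hll
          have := mul_le_mul_of_nonneg_right l1 l2
          linarith
      _ ≤ _ := by
          rw [← sum_mul]
          exact mul_le_mul_of_nonneg_right (by linarith) hll
  have tot : ∑ k ∈ Icc 1 K, lam (Cw / L) k * F k ≤ ∑ _k ∈ Icc 1 K, - Y / K := by
    have hKp : (K : ℝ) ≠ 0 := by exact_mod_cast hK0.ne'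
    rw [sum_const, Nat.card_Icc, Nat.add_sub_cancel, nsmul_eq_mul, mul_div_cancel₀ _ hKp]
    simp only [hF, mul_add, sum_add_distrib]
    rw [hYd, gain]
    linarith
  obtain ⟨k, hk, hk2⟩ := exists_le_of_sum_le ⟨1, mem_Icc.2 ⟨le_rfl, hK0⟩⟩ tot
  refine ⟨pat c hM hR k (mem_Icc.1 hk).1, (hP k _).trans ?_, pat_emb c hM hR k _⟩
  obtain ⟨l1, l2⟩ := lam_bd hL hC hK k (mem_Icc.1 hk).2
  have hneg : - Y / K < 0 := div_neg_of_neg_of_pos (by linarith) (by exact_mod_cast hK0)
  have hF0 : F k < 0 := by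
    by_contra h'
    have := mul_nonneg (show 0 ≤ lam (Cw / L) k by linarith) (not_lt.1 h')
    linarith
  have := mul_le_mul_of_nonpos_right l2 hF0.le
  linarith

end Vale.Agent.P201
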