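import Vale.Agent.P201.PartB

/-! Part C2 of P201: the first moment bound for a sub-pattern. -/

namespace Vale.Agent.P201

open Finset

namespace C2

lemma mf {α : Type} {p : α → Prop} {i : DecidablePred p} {s : Finset α} {a : α} :
    a ∈ @Finset.filter α p i s ↔ a ∈ s ∧ p a := mem_filter

open Classical in
lemma cls {ι κ α D : Type} [Fintype ι] [Fintype κ] [DecidableEq ι] [DecidableEq κ]
    (U : Finset ι) (cl : ι → κ) (S : Finset α) (dat : α → D) (E : Finset D)
    (hE : ∀ a ∈ S, dat a ∈ E) (n : D → ℕ) (hn : ∀ d, (S.filter fun a => dat a = d).card ≤ n d)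
    (a0 : α) (F : Finset (ι → α)) (h1 : ∀ a ∈ F, ∀ u ∈ U, a u ∈ S)
    (h2 : ∀ a ∈ F, ∀ u ∉ U, a u = a0)
    (h3 : ∀ a ∈ F, ∀ u ∈ U, ∀ u' ∈ U, cl u = cl u' → dat (a u) = dat (a u')) :
    F.card ≤ ∏ c ∈ U.image cl, ∑ d ∈ E, n d ^ (U.filter fun u => cl u = c).card := by
  let t : κ → Finset D := fun c => if c ∈ U.image cl then E else {dat a0}
  have hsub : F ⊆ (Fintype.piFinset t).biUnion fun d => Fintype.piFinset fun u =>
      if u ∈ U then S.filter fun a => dat a = d (cl u) else {a0} := by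
    intro a ha
    refine mem_biUnion.2 ⟨fun c => if e : ∃ u ∈ U, cl u = c then dat (a e.choose) else dat a0,
      Fintype.mem_piFinset.2 fun c => ?_, Fintype.mem_piFinset.2 fun u => ?_⟩
    · by_cases e : ∃ u ∈ U, cl u = c
      · simp only [t, dif_pos e, if_pos (mem_image.2 e)]
        exact hE _ (h1 a ha _ e.choose_spec.1)
      · simp only [t, dif_neg e, if_neg (fun x => e (mem_image.1 x)), mem_singleton]
    · by_cases hu : u ∈ U
      · have e : ∃ u' ∈ U, cl u' = cl u := ⟨u, hu, rfl⟩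
        rw [if_pos hu, mf]
        simp only [dif_pos e]
        exact ⟨h1 a ha u hu, h3 a ha u hu _ e.choose_spec.1 e.choose_spec.2.symm⟩
      · rw [if_neg hu, mem_singleton]
        exact h2 a ha u hu
  refine (card_le_card hsub).trans (card_biUnion_le.trans ?_)
  have e1 : ∏ c ∈ U.image cl, ∑ d ∈ E, n d ^ (U.filter fun u => cl u = c).card =
      ∏ c, ∑ d ∈ t c, n d ^ (U.filter fun u => cl u = c).card := by
    rw [← prod_subset (subset_univ (U.image cl))]
    · exact prod_congr rfl fun c hc => by simp only [t, if_pos hc]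
    · intro c _ hc
      have : (U.filter fun u => cl u = c) = ∅ :=
        filter_eq_empty_iff.2 fun u hu e => hc (mem_image.2 ⟨u, hu, e⟩)
      simp only [t, if_neg hc, this, card_empty, pow_zero, sum_singleton]
  rw [e1, prod_univ_sum]
  refine sum_le_sum fun d _ => ?_
  rw [Fintype.card_piFinset]
  calc ∏ u, (if u ∈ U then S.filter fun a => dat a = d (cl u) else {a0}).card
      ≤ ∏ u, if u ∈ U then n (d (cl u)) else 1 := prod_le_prod' fun u _ => by
        split_ifs
        · exact hn _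
        · simp
    _ = ∏ u ∈ U, n (d (cl u)) := by rw [prod_ite_mem, univ_inter]
    _ = _ := by
        rw [← prod_fiberwise_of_maps_to' (t := univ) (fun u _ => mem_univ (cl u))
          fun c => n (d c)]
        simp only [prod_const]

lemma even_card {σ : Type} (T : Finset σ) (ep : σ → σ)
    (hep : ∀ x ∈ T, ep x ∈ T ∧ ep (ep x) = x ∧ ep x ≠ x) : Even T.card := by
  rw [← ZMod.natCast_eq_zero_iff_even, card_eq_sum_ones, Nat.cast_sum]
  exact sum_involution (fun a _ => ep a) (fun _ _ => by decide) (fun a ha _ => (hep a ha).2.2)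
    (fun a ha => (hep a ha).1) fun a ha => (hep a ha).2.1

open Classical in
lemma cls_bd {H V Lb : Type} [Fintype H] (X : Sys H V Lb) {N0 : ℕ} {ga L Cw : ℝ}
    (s1 : (X.Co.card : ℝ) ≤ N0 * Real.exp (- ga + L + Cw))
    (s2 : ((∑ c ∈ X.Co, X.cnt (X.dat c) : ℕ) : ℝ) ≤ (N0 : ℝ) ^ 2 * Real.exp (- 2 * ga))
    (s3 : ∀ d, (X.cnt d : ℝ) ≤ N0 * Real.exp (- ga - L)) (r w : ℕ) (hr : 1 ≤ r)
    (h1 : r = 1 → w = 1) (h2 : r ≠ 1 → w = 0) :
    ((∑ d ∈ X.Co.image X.dat, X.cnt d ^ r : ℕ) : ℝ) ≤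
      (N0 : ℝ) ^ r * Real.exp (- ga * r + L * (2 - r) + Cw * w) := by
  by_cases e : r = 1
  · subst e
    rw [h1 rfl]
    have : ∑ d ∈ X.Co.image X.dat, X.cnt d ^ 1 = X.Co.card := by
      rw [card_eq_sum_card_image X.dat X.Co]
      exact sum_congr rfl fun d _ => by rw [pow_one, Sys.cnt]
    rw [this]
    refine s1.trans (le_of_eq ?_)
    congr 1
    · simp
    · congr 1
      push_cast
      ring
  · obtain ⟨k, rfl⟩ : ∃ k, r = k + 2 := ⟨r - 2, by omega⟩
    rw [h2 e]
    have : ∑ c ∈ X.Co, X.cnt (X.dat c) = ∑ d ∈ X.Co.image X.dat, X.cnt d ^ 2 := by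
      rw [sum_comp X.cnt X.dat]
      exact sum_congr rfl fun d _ => by rw [smul_eq_mul, sq, Sys.cnt]
    rw [this] at s2
    push_cast at s2 ⊢
    calc ∑ d ∈ X.Co.image X.dat, (X.cnt d : ℝ) ^ (k + 2)
        ≤ ∑ d ∈ X.Co.image X.dat, (N0 * Real.exp (- ga - L)) ^ k * (X.cnt d : ℝ) ^ 2 :=
          sum_le_sum fun d _ => by
            rw [pow_add]
            gcongr
            exact s3 d
      _ ≤ (N0 * Real.exp (- ga - L)) ^ k * ((N0 : ℝ) ^ 2 * Real.exp (- 2 * ga)) := by
          rw [← mul_sum]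
          gcongr
      _ = _ := by
          rw [mul_pow, ← Real.exp_nat_mul, mul_mul_mul_comm, ← pow_add, ← Real.exp_add]
          congr 2
          ring

open Classical in
lemma prod_bd {H V Lb ι : Type} [Fintype H] [DecidableEq ι] (X : Sys H V Lb) {N0 : ℕ}
    {ga L Cw : ℝ} (s1 : (X.Co.card : ℝ) ≤ N0 * Real.exp (- ga + L + Cw))
    (s2 : ((∑ c ∈ X.Co, X.cnt (X.dat c) : ℕ) : ℝ) ≤ (N0 : ℝ) ^ 2 * Real.exp (- 2 * ga))
    (s3 : ∀ d, (X.cnt d : ℝ) ≤ N0 * Real.exp (- ga - L)) (U : Finset ι) (cl : ι → ι) :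
    ((∏ c ∈ U.image cl, ∑ d ∈ X.Co.image X.dat, X.cnt d ^ (U.filter fun u => cl u = c).card : ℕ) :
      ℝ) ≤ (N0 : ℝ) ^ U.card * Real.exp (- ga * U.card +
        L * (2 * ((U.image cl).card : ℝ) - U.card) +
        Cw * ((U.filter fun u => ∀ u' ∈ U, cl u' = cl u → u' = u).card : ℝ)) := by
  set W := U.filter fun u => ∀ u' ∈ U, cl u' = cl u → u' = u with hW
  have eU := card_eq_sum_card_image cl U
  have eW : W.card = ∑ c ∈ U.image cl, (W.filter fun u => cl u = c).card :=
    card_eq_sum_card_fiberwise fun u hu => mem_image_of_mem _ (mf.1 hu).1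
  rw [Nat.cast_prod]
  refine (prod_le_prod (fun _ _ => Nat.cast_nonneg _) fun c hc => cls_bd X s1 s2 s3 _
    (W.filter fun u => cl u = c).card ?_ ?_ ?_).trans (le_of_eq ?_)
  · obtain ⟨u, hu, e⟩ := mem_image.1 hc
    exact card_pos.2 ⟨u, mf.2 ⟨hu, e⟩⟩
  · intro e
    obtain ⟨u, hu⟩ := card_eq_one.1 e
    have h0 : ∀ v, v ∈ U ∧ cl v = c ↔ v = u := fun v => by
      rw [← mem_singleton (b := v), ← hu, mf]
    refine card_eq_one.2 ⟨u, Finset.ext fun v => ?_⟩
    rw [mf, mem_singleton, hW, mf]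
    constructor
    · exact fun a => (h0 v).1 ⟨a.1.1, a.2⟩
    · rintro rfl
      have := (h0 v).2 rfl
      exact ⟨⟨this.1, fun u' a b => (h0 u').1 ⟨a, b.trans this.2⟩⟩, this.2⟩
  · intro e
    refine card_eq_zero.2 (filter_eq_empty_iff.2 fun u hu b => e ?_)
    obtain ⟨a1, a2⟩ := mf.1 hu
    refine card_eq_one.2 ⟨u, Finset.ext fun v => ?_⟩
    rw [mf, mem_singleton]
    exact ⟨fun a => a2 v a.1 (a.2.trans b.symm), by rintro rfl; exact ⟨a1, b⟩⟩
  · rw [prod_mul_distrib, prod_pow_eq_pow_sum, ← eU, ← Real.exp_sum]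
    congr 2
    rw [eW]
    conv_rhs => rw [eU]
    push_cast
    simp only [sum_add_distrib, ← mul_sum, sum_sub_distrib, sum_const, nsmul_eq_mul]
    ring

end C2

open Classical in
theorem fm {H V Lb ι : Type} [Fintype H] [Fintype V] [Fintype ι] [DecidableEq ι] (X : Sys H V Lb)
    {l lam : ℕ} (hb : X.Bd l lam) (hl : 2 ≤ l) (g N0 : ℕ)
    (hN : N0 + 4 * l ^ (g + 4) + 2 * lam + 2 * Fintype.card ι ≤ Fintype.card H)
    (hV : 1 ≤ Fintype.card V) (hV0 : Fintype.card V ≤ N0) {ga L Cw : ℝ}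
    (s1 : (X.Co.card : ℝ) ≤ N0 * Real.exp (- ga + L + Cw))
    (s2 : ((∑ c ∈ X.Co, X.cnt (X.dat c) : ℕ) : ℝ) ≤ (N0 : ℝ) ^ 2 * Real.exp (- 2 * ga))
    (s3 : ∀ d, (X.cnt d : ℝ) ≤ N0 * Real.exp (- ga - L)) (P : SubPat ι) :
    (((X.Omega g).filter fun M => ∃ h, Emb X P M h).card : ℝ) ≤
      (X.Omega g).card * Real.exp (P.logW ga L Cw (Real.log (Fintype.card V)) (Real.log l)) := by
  obtain ⟨h0⟩ : Nonempty H := Fintype.card_pos_iff.1 (by omega)
  let T : Finset (ι × Bool) := P.U ×ˢ univ ∪ P.Bs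
  have hT : ∀ x, x ∈ T ↔ x.1 ∈ P.U ∨ x ∈ P.Bs := fun x => by simp [T]
  have hTc : T.card = 2 * P.U.card + P.Bs.card := by
    rw [card_union_of_disjoint (disjoint_left.2 fun x a b => P.disj x b (mem_product.1 a).1),
      card_product, card_univ, Fintype.card_bool, mul_comm]
  have hep : ∀ x ∈ T, P.ep x ∈ T ∧ P.ep (P.ep x) = x ∧ P.ep x ≠ x := fun x hx => by
    rw [hT]
    exact P.inv x ((hT x).1 hx)
  obtain ⟨r, hr⟩ := C2.even_card T P.ep hep
  obtain ⟨b, hb'⟩ : ∃ b, P.Bs.card = 2 * b ∧ r = P.U.card + b := ⟨r - P.U.card, by omega⟩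
  have hTι : T.card ≤ 2 * Fintype.card ι := by
    refine (card_le_univ T).trans (le_of_eq ?_)
    rw [Fintype.card_prod, Fintype.card_bool, mul_comm]
  let F : Finset (ι × Bool → H) := univ.filter fun h => (∀ x ∉ T, h x = h0) ∧ ∃ M, Emb X P M h
  have hF : ∀ h ∈ F, (∀ x ∉ T, h x = h0) ∧ ∃ M, Emb X P M h := fun h hh => (C2.mf.1 hh).2
  have c1 : ((X.Omega g).filter fun M => ∃ h, Emb X P M h).card * N0 ^ r ≤
      F.card * (X.Omega g).card := by
    have hsub : ((X.Omega g).filter fun M => ∃ h, Emb X P M h) ⊆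
        F.biUnion fun h => (X.Omega g).filter fun M => ∀ x ∈ T, M (h x) = h (P.ep x) := by
      intro M hM
      obtain ⟨m1, h, e⟩ := C2.mf.1 hM
      have k : ∀ x, x.1 ∈ P.U ∨ x ∈ P.Bs → (if x ∈ T then h x else h0) = h x := fun x hx =>
        if_pos ((hT x).2 hx)
      have e' : Emb X P M fun x => if x ∈ T then h x else h0 :=
        ⟨fun x y hx hy => by rw [k x hx, k y hy]; exact e.inj x y hx hy,
          fun x hx => by rw [k x hx, k _ (P.inv x hx).1]; exact e.hM x hx,
          fun u hu => by rw [k _ (Or.inl hu), k _ (Or.inl hu)]; exact e.hv u hu,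
          fun x hx y hy => by rw [k x (Or.inr hx), k y (Or.inr hy)]; exact e.hb x hx y hy,
          fun u hu u' hu' => by
            rw [k _ (Or.inl hu), k _ (Or.inl hu), k _ (Or.inl hu'), k _ (Or.inl hu')]
            exact e.hc u hu u' hu'⟩
      exact mem_biUnion.2 ⟨_, C2.mf.2 ⟨mem_univ _, fun x hx => if_neg hx, M, e'⟩,
        C2.mf.2 ⟨m1, fun x hx => e'.hM x ((hT x).1 hx)⟩⟩
    refine (Nat.mul_le_mul_right _ ((card_le_card hsub).trans card_biUnion_le)).trans ?_
    rw [sum_mul]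
    refine (sum_le_card_nsmul _ _ _ fun h hh => ?_).trans (le_of_eq (smul_eq_mul _ _))
    obtain ⟨-, M, e⟩ := hF h hh
    refine le_trans (Nat.mul_le_mul_right _ (card_le_card fun M' a => C2.mf.2 (C2.mf.1 a)))
      (switch X hb hl g N0 r T (by omega) P.ep hep h
      (fun x hx y hy => e.inj x y ((hT x).1 hx) ((hT y).1 hy)) (by omega))
  let fa : (ι × Bool → H) → ι → H × H := fun h u =>
    if u ∈ P.U then (h (u, P.sg u), h (u, !P.sg u)) else (h0, h0)
  let fb : (ι × Bool → H) → ι × Bool → H := fun h x => if x ∈ P.Bs then h x else h0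
  have c2 : F.card ≤ (F.image fa).card * (F.image fb).card := by
    rw [← card_product]
    refine card_le_card_of_injOn (fun h => (fa h, fb h)) (fun h hh => mem_coe.2
      (mem_product.2 ⟨mem_image_of_mem _ hh, mem_image_of_mem _ hh⟩)) fun h hh h' hh' e => ?_
    funext x
    by_cases hx : x ∈ T
    · rcases (hT x).1 hx with a | a
      · have := congrFun (congrArg Prod.fst e) x.1
        simp only [fa, if_pos a, Prod.mk.injEq] at this
        obtain ⟨u, c⟩ := x
        cases c <;> cases hs : P.sg u <;> simp only [hs, Bool.not_true, Bool.not_false] at this <;>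
          first | exact this.1 | exact this.2
      · have := congrFun (congrArg Prod.snd e) x
        simpa only [fb, if_pos a] using this
    · rw [(hF h hh).1 x hx, (hF h' hh').1 x hx]
  have c3 := C2.cls P.U P.cl X.Co X.dat (X.Co.image X.dat) (fun a ha => mem_image_of_mem _ ha)
    X.cnt (fun d => card_le_card fun x a => C2.mf.2 (C2.mf.1 a)) (h0, h0) (F.image fa)
    (by
      intro a ha u hu
      obtain ⟨h, hh, rfl⟩ := mem_image.1 ha
      obtain ⟨-, M, e⟩ := hF h hh
      simp only [fa, if_pos hu, Sys.Co]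
      refine C2.mf.2 ⟨mem_univ _, ?_, fun k => ?_⟩
      · cases P.sg u
        · exact e.hv u hu
        · exact (e.hv u hu).symm
      · have := e.inj _ _ (Or.inl hu) (Or.inl hu) k
        simp at this)
    (by
      intro a ha u hu
      obtain ⟨h, hh, rfl⟩ := mem_image.1 ha
      simp only [fa, if_neg hu])
    (by
      intro a ha u hu u' hu' k
      obtain ⟨h, hh, rfl⟩ := mem_image.1 ha
      obtain ⟨-, M, e⟩ := hF h hh
      simp only [fa, if_pos hu, if_pos hu']
      exact e.hc u hu u' hu' k)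
  have c4 := C2.cls P.Bs P.bv univ X.vtx univ (fun a _ => mem_univ _)
    (fun _ => l) (fun d => hb.1 d) h0 (F.image fb) (fun _ _ _ _ => mem_univ _)
    (by
      intro a ha u hu
      obtain ⟨h, hh, rfl⟩ := mem_image.1 ha
      simp only [fb, if_neg hu])
    (by
      intro a ha u hu u' hu' k
      obtain ⟨h, hh, rfl⟩ := mem_image.1 ha
      obtain ⟨-, M, e⟩ := hF h hh
      simp only [fb, if_pos hu, if_pos hu']
      exact e.hb u hu u' hu' k)
  simp only [sum_const, card_univ, smul_eq_mul, prod_mul_distrib, prod_const,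
    prod_pow_eq_pow_sum, ← card_eq_sum_card_image] at c4
  have c5 := C2.prod_bd X s1 s2 s3 P.U P.cl
  have hv : (0 : ℝ) < Fintype.card V := by exact_mod_cast hV
  have hv0 : (Fintype.card V : ℝ) ≤ N0 := by exact_mod_cast hV0
  have hl0 : (0 : ℝ) < l := by exact_mod_cast (by omega : 0 < l)
  have hn : (0 : ℝ) < N0 := hv.trans_le hv0
  have c6 : Real.exp ((((P.Bs.image P.bv).card : ℝ) - (P.Bs.card : ℝ) / 2) *
      Real.log (Fintype.card V) + P.Bs.card * Real.log l) * (Fintype.card V : ℝ) ^ b =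
      (Fintype.card V : ℝ) ^ (P.Bs.image P.bv).card * (l : ℝ) ^ P.Bs.card := by
    rw [← Real.exp_log (pow_pos hv b), ← Real.exp_log (pow_pos hv (P.Bs.image P.bv).card),
      ← Real.exp_log (pow_pos hl0 P.Bs.card), ← Real.exp_add, ← Real.exp_add]
    simp only [Real.log_pow]
    congr 1
    rw [hb'.1]
    push_cast
    ring
  refine le_of_mul_le_mul_right ?_ (pow_pos hn r)
  have c1' : (((X.Omega g).filter fun M => ∃ h, Emb X P M h).card : ℝ) * (N0 : ℝ) ^ r ≤
      F.card * (X.Omega g).card := by exact_mod_cast c1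
  refine c1'.trans ?_
  rw [mul_assoc, mul_comm]
  gcongr
  have c7 : (F.card : ℝ) ≤ ((F.image fa).card : ℝ) * (F.image fb).card := by exact_mod_cast c2
  have c4' : ((F.image fb).card : ℝ) ≤
      (Fintype.card V : ℝ) ^ (P.Bs.image P.bv).card * (l : ℝ) ^ P.Bs.card := by exact_mod_cast c4
  refine c7.trans ((mul_le_mul ((Nat.cast_le.2 c3).trans c5) c4' (Nat.cast_nonneg _)
    (by positivity)).trans ?_)
  rw [← c6, SubPat.logW, add_assoc _ (_ * Real.log _), Real.exp_add _ (_ + _), hb'.2, pow_add]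
  calc _ ≤ _ := mul_le_mul_of_nonneg_left (mul_le_mul_of_nonneg_left
        (pow_le_pow_left₀ hv.le hv0 b) (Real.exp_pos _).le) (by positivity)
    _ = _ := by ring

end Vale.Agent.P201
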