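import Vale.Agent.P201.PartC0

/-! Part C3: raw patterns. -/

namespace Vale.Agent.P201

open Finset

namespace C3

lemma exists_enum {α : Type} [DecidableEq α] {B T : Finset α} (hB : B ⊆ T) {A : ℕ}
    (h : B.card ≤ A) : ∃ g ∈ Fintype.piFinset fun _ : Fin A => insertNone T,
      ∀ p, p ∈ B ↔ ∃ i, g i = some p := by
  refine ⟨fun i => B.toList[i.1]?, Fintype.mem_piFinset.2 fun i => mem_insertNone.2 fun a ha =>
    hB (mem_toList.1 (List.mem_of_getElem? ha)), fun p => ⟨fun hp => ?_, fun ⟨i, hi⟩ =>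
      mem_toList.1 (List.mem_of_getElem? hi)⟩⟩
  obtain ⟨i, hi⟩ := List.mem_iff_getElem?.1 (mem_toList.2 hp)
  have := (List.getElem?_eq_some_iff.1 hi).1
  rw [length_toList] at this
  exact ⟨⟨i, this.trans_le h⟩, hi⟩

/-- The breaks with their values. -/
def bs {S : ℕ} (f : Fin S → ℕ) : Finset (ℕ × ℕ) :=
  ((range (S - 2)).filter fun t => ext f (t + 2) + ext f t ≠ 2 * ext f (t + 1)).image
    fun t => (t, ext f (t + 2))

lemma mem_bs {S : ℕ} {f : Fin S → ℕ} {t v : ℕ} : (t, v) ∈ bs f ↔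
    t + 2 < S ∧ ext f (t + 2) + ext f t ≠ 2 * ext f (t + 1) ∧ ext f (t + 2) = v := by
  simp only [bs, mem_image, mem_filter, mem_range, Prod.mk.injEq]
  constructor
  · rintro ⟨a, ⟨h1, h2⟩, rfl, h3⟩
    exact ⟨by omega, h2, h3⟩
  · rintro ⟨h1, h2, h3⟩
    exact ⟨t, ⟨by omega, h2⟩, rfl, h3⟩

lemma eq_of_bs {S : ℕ} {f f' : Fin S → ℕ} (h0 : ext f 0 = ext f' 0) (h1 : ext f 1 = ext f' 1)
    (h : bs f = bs f') : f = f' := by
  have key : ∀ t, ext f t = ext f' t ∧ ext f (t + 1) = ext f' (t + 1) := by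
    intro t
    induction t with
    | zero => exact ⟨h0, h1⟩
    | succ t ih =>
      refine ⟨ih.2, ?_⟩
      by_cases hl : t + 2 < S
      · have a := mem_bs (f := f) (t := t) (v := ext f (t + 2))
        have b := mem_bs (f := f') (t := t) (v := ext f (t + 2))
        have c := mem_bs (f := f) (t := t) (v := ext f' (t + 2))
        have d := mem_bs (f := f') (t := t) (v := ext f' (t + 2))
        rw [h, b] at a
        rw [h, d] at c
        change ext f (t + 2) = ext f' (t + 2)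
        omega
      · simp only [ext, dif_neg hl]
  funext t
  have := (key t.1).1
  simpa only [ext, dif_pos t.2] using this

lemma exists_set (S Y A : ℕ) (hY : 0 < Y) : ∃ Φ : Finset (Fin S → ℕ),
    Φ.card ≤ Y ^ 2 * (S * Y + 1) ^ A ∧ ∀ f, (∀ t, f t < Y) → brk f ≤ A → f ∈ Φ := by
  refine ⟨(Fintype.piFinset fun _ => range Y).filter fun f => brk f ≤ A, ?_, fun f h1 h2 =>
    mem_filter.2 ⟨Fintype.mem_piFinset.2 fun t => mem_range.2 (h1 t), h2⟩⟩
  have e1 : ∀ f ∈ (Fintype.piFinset fun _ : Fin S => range Y).filter fun f => brk f ≤ A,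
      ∀ t, ext f t < Y := fun f hf t => by
    unfold ext
    split_ifs
    · exact mem_range.1 (Fintype.mem_piFinset.1 (mem_filter.1 hf).1 _)
    · exact hY
  choose! g g1 g2 using fun f (hf : f ∈ (Fintype.piFinset fun _ : Fin S => range Y).filter
      fun f => brk f ≤ A) => exists_enum (B := bs f) (T := range S ×ˢ range Y) (A := A)
    (fun p hp => by
      have := mem_bs.1 (show (p.1, p.2) ∈ bs f from hp)
      exact mem_product.2 ⟨mem_range.2 (by omega), mem_range.2 (this.2.2 ▸ e1 f hf _)⟩)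
    (card_image_le.trans (mem_filter.1 hf).2)
  refine (card_le_card_of_injOn (t := (range Y ×ˢ range Y) ×ˢ
    Fintype.piFinset fun _ : Fin A => insertNone (range S ×ˢ range Y))
    (fun f => ((ext f 0, ext f 1), g f)) (fun f hf => mem_coe.2 (mem_product.2
      ⟨mem_product.2 ⟨mem_range.2 (e1 f hf 0), mem_range.2 (e1 f hf 1)⟩, g1 f hf⟩))
    fun f hf f' hf' h => ?_).trans (le_of_eq ?_)
  · simp only [Prod.mk.injEq] at h
    refine eq_of_bs h.1.1 h.1.2 (Finset.ext fun p => ?_)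
    rw [g2 f hf, g2 f' hf', h.2]
  · simp [sq]

lemma oc_inj {S : ℕ} : Function.Injective (oc (S := S)) := by
  rintro (_ | a) (_ | b) h <;> simp only [oc] at h
  · rfl
  · omega
  · omega
  · rw [Fin.ext (show a.1 = b.1 by omega)]

lemma oc_lt {S : ℕ} (x : Option (Fin S)) : oc x < 2 * S + 1 := by
  rcases x with _ | a <;> simp only [oc] <;> omega

lemma sc_inj {S : ℕ} : Function.Injective (sc (S := S)) := by
  rintro ⟨a, _ | _⟩ ⟨b, _ | _⟩ h <;> simp only [sc, Bool.toNat_false, Bool.toNat_true] at h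
  · rw [Fin.ext (show a.1 = b.1 by omega)]
  · omega
  · omega
  · rw [Fin.ext (show a.1 = b.1 by omega)]

lemma sc_lt {S : ℕ} (x : Fin S × Bool) : sc x < 2 * S + 1 := by
  rcases x with ⟨a, _ | _⟩ <;> simp only [sc, Bool.toNat_false, Bool.toNat_true] <;> omega

lemma brk_le {S : ℕ} (f : Fin S → ℕ) (B : Finset (Fin S))
    (h : ∀ t t' t'' : Fin S, t'.1 = t.1 + 1 → t''.1 = t'.1 + 1 → t ∉ B → t' ∉ B → t'' ∉ B →
      f t'' + f t = 2 * f t') : brk f ≤ 3 * B.card := by
  have : ((range (S - 2)).filter fun t => ext f (t + 2) + ext f t ≠ 2 * ext f (t + 1)) ⊆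
      B.image (fun t => t.1) ∪ B.image (fun t => t.1 - 1) ∪ B.image (fun t => t.1 - 2) := by
    intro t ht
    simp only [mem_filter, mem_range] at ht
    have l0 : t < S := by omega
    have l1 : t + 1 < S := by omega
    have l2 : t + 2 < S := by omega
    by_contra hc
    rw [mem_union, mem_union, not_or, not_or] at hc
    have a := h ⟨t, l0⟩ ⟨t + 1, l1⟩ ⟨t + 2, l2⟩ rfl rfl
      (fun hb => hc.1.1 (mem_image.2 ⟨_, hb, rfl⟩)) (fun hb => hc.1.2 (mem_image.2 ⟨_, hb, rfl⟩))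
      fun hb => hc.2 (mem_image.2 ⟨_, hb, rfl⟩)
    have c := ht.2
    simp only [ext, dif_pos l0, dif_pos l1, dif_pos l2] at c
    exact c a
  refine (card_le_card this).trans ((card_union_le _ _).trans ?_)
  have a := card_image_le (s := B) (f := fun t => t.1)
  have b := card_image_le (s := B) (f := fun t => t.1 - 1)
  have c := card_image_le (s := B) (f := fun t => t.1 - 2)
  have d := card_union_le (B.image fun t => t.1) (B.image fun t => t.1 - 1)
  omega

lemma exists_rep {α β : Type} (f : α → β) (w : α → ℕ) : ∃ e : α → α, (∀ x, f (e x) = f x) ∧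
    (∀ x y, f x = f y → e x = e y) ∧ ∀ x y, f y = f x → w (e x) ≤ w y := by
  have : ∀ b, (∃ x, f x = b) → ∃ m, f m = b ∧ ∀ y, f y = b → w m ≤ w y := fun b hb => by
    obtain ⟨m, h1, h2⟩ := (InvImage.wf w Nat.lt_wfRel.wf).has_min {x | f x = b} hb
    exact ⟨m, h1, fun y hy => not_lt.1 (h2 y hy)⟩
  choose m m1 m2 using this
  have m3 : ∀ b b' p q, b = b' → m b p = m b' q := by
    intro _ _ _ _ h; subst h; rfl
  exact ⟨fun x => m (f x) ⟨x, rfl⟩, fun x => m1 _ _, fun x y h => m3 _ _ _ _ h,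
    fun x y h => m2 _ _ y h⟩

section cfg
variable {H V Lb : Type} {X : Sys H V Lb} {M : H → H} {K s A S g : ℕ} {ep : ℝ}
  {h : Fin S × Bool → H} {lk rg : Fin S → Option (Fin S)} {bl : Fin S → Fin K}

lemma link (c : Config X M K s A ep S h lk rg bl) {t t' : Fin S} (h1 : t'.1 = t.1 + 1)
    (h2 : bl t' = bl t) : M (h (t, true)) = h (t', false) := c.hlk _ _ (c.blk _ _ h1 h2.symm)

lemma same {t t' : Fin S} (h1 : t'.1 = t.1 + 1) (hg : Good X h bl t) : bl t' = bl t := by
  obtain ⟨u, u1, u2⟩ := (hg t rfl).1.1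
  rw [show t' = u from Fin.ext (h1.trans u1.symm), u2]

lemma fwd (c : Config X M K s A ep S h lk rg bl) (hM : X.IsMatch M) {t t' u : Fin S}
    (h1 : t'.1 = t.1 + 1) (g1 : Good X h bl t)
    (hu : X.vtx (h (u, false)) = X.vtx (h (t, false))) : ∃ u', bl u' = bl u ∧
      ((h (u, false) = h (t, false) ∧ u'.1 = u.1 + 1 ∧ h (u', false) = h (t', false)) ∨
        (h (u, false) = h (t, true) ∧ u.1 = u'.1 + 1 ∧ h (u', true) = h (t', false))) := by
  have l := link c h1 (same h1 g1)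
  obtain ⟨⟨⟨a, a1, a2⟩, ⟨b, b1, b2⟩⟩, o | o⟩ := g1 u hu
  · exact ⟨a, a2, Or.inl ⟨o.1, a1, by rw [← link c a1 a2, o.2, l]⟩⟩
  · exact ⟨b, b2, Or.inr ⟨o.1, b1, by rw [← l, ← o.1, ← link c b1 b2.symm, (hM _).1]⟩⟩

lemma bwd (c : Config X M K s A ep S h lk rg bl) (hM : X.IsMatch M) {t t' u : Fin S}
    (h1 : t'.1 = t.1 + 1) (g1 : Good X h bl t) (g2 : Good X h bl t')
    (hu : X.vtx (h (u, false)) = X.vtx (h (t', false))) : ∃ u', bl u' = bl u ∧
      X.vtx (h (u', false)) = X.vtx (h (t, false)) := by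
  have l := link c h1 (same h1 g1)
  obtain ⟨⟨⟨a, a1, a2⟩, ⟨b, b1, b2⟩⟩, o | o⟩ := g2 u hu
  · refine ⟨b, b2, ?_⟩
    rw [c.hv, c.hv t, ← (hM (h (b, true))).1, link c b1 b2.symm, o.1, ← l, (hM _).1]
  · refine ⟨a, a2, ?_⟩
    rw [c.hv t, ← link c a1 a2, o.2, ← l, (hM _).1]

lemma step (c : Config X M K s A ep S h lk rg bl) (hM : X.IsMatch M) (hg : X.Girth M g)
    (hs : 4 * s ≤ g) {rho : Fin S → Fin S}
    (r1 : ∀ t, X.vtx (h (rho t, false)) = X.vtx (h (t, false)))
    (r2 : ∀ t u, X.vtx (h (u, false)) = X.vtx (h (t, false)) → (rho t).1 ≤ u.1) {t t' : Fin S}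
    (h1 : t'.1 = t.1 + 1) (g1 : Good X h bl t) (g2 : Good X h bl t') :
    (h (rho t, false) = h (t, false) ∧ (rho t').1 = (rho t).1 + 1 ∧
      h (rho t', false) = h (t', false)) ∨
    (h (rho t, false) = h (t, true) ∧ (rho t).1 = (rho t').1 + 1 ∧
      h (rho t', true) = h (t', false)) := by
  obtain ⟨u, u1, u2⟩ := fwd c hM h1 g1 (r1 t)
  obtain ⟨w, w1, w2⟩ := bwd c hM h1 g1 g2 (r1 t')
  have u3 : X.vtx (h (u, false)) = X.vtx (h (t', false)) := by
    rcases u2 with u2 | u2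
    · rw [u2.2.2]
    · rw [c.hv, u2.2.2]
  have a := c.mono (show rho t' ≤ u from r2 t' u u3)
  have b := c.mono (show rho t ≤ w from r2 t w w2)
  rw [w1, ← u1] at b
  rw [cfg_inj c hg hs (rho t') u (le_antisymm a b) ((r1 t').trans u3.symm)]
  exact u2

lemma eta_eq (c : Config X M K s A ep S h lk rg bl) {r t : Fin S} {b b' : Bool}
    {y : Fin S × Bool} (r2 : ∀ u, X.vtx (h (u, false)) = X.vtx (h (t, false)) → r.1 ≤ u.1)
    (h1 : h (r, b') = h (t, b)) (h2 : h y = h (t, b)) (h3 : sc y ≤ sc (r, b')) : y = (r, b') := by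
  obtain ⟨u, b''⟩ := y
  have v : ∀ u b, X.vtx (h (u, b)) = X.vtx (h (u, false)) := fun u b => by
    cases b
    · rfl
    · exact (c.hv u).symm
  have a := r2 u (by rw [← v u b'', h2, v])
  have e : u = r := Fin.ext (by
    cases b' <;> cases b'' <;> simp only [sc, Bool.toNat_false, Bool.toNat_true] at h3 <;> omega)
  subst e
  have n := c.hne u
  have e2 := h2.trans h1.symm
  cases b' <;> cases b''
  · rfl
  · exact absurd e2.symm n
  · exact absurd e2 n
  · rfl

end cfg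

end C3

open C3

theorem raw_count (S A : ℕ) :
    ∃ F : Finset (Raw S), F.card ≤ npat S A ∧ ∀ R : Raw S, R.Few A → R ∈ F := by
  obtain ⟨Φ, h1, h2⟩ := exists_set S (2 * S + 1) A (by omega)
  let code : Raw S → Fin 5 → Fin S → ℕ := fun R => ![fun t => oc (R.lk t), fun t => oc (R.rg t),
    fun t => (R.rho t).1, fun t => sc (R.eta (t, false)), fun t => sc (R.eta (t, true))]
  have hi : Function.Injective code := by
    rintro ⟨a, b, c, d⟩ ⟨a', b', c', d'⟩ e
    have e0 : a = a' := funext fun t => oc_inj (congrFun (congrFun e 0) t)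
    have e1 : b = b' := funext fun t => oc_inj (congrFun (congrFun e 1) t)
    have e2 : c = c' := funext fun t => Fin.ext (congrFun (congrFun e 2) t)
    have e3 : d = d' := funext fun ⟨t, x⟩ => by
      cases x
      · exact sc_inj (congrFun (congrFun e 3) t)
      · exact sc_inj (congrFun (congrFun e 4) t)
    rw [e0, e1, e2, e3]
  refine ⟨(Fintype.piFinset fun _ : Fin 5 => Φ).preimage code hi.injOn, ?_, fun R hR =>
    mem_preimage.2 (Fintype.mem_piFinset.2 fun i => ?_)⟩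
  · refine (card_le_card_of_injOn code (fun R hR => mem_coe.2 (mem_preimage.1 hR))
      hi.injOn).trans ?_
    rw [Fintype.card_piFinset, prod_const, card_univ, Fintype.card_fin]
    exact Nat.pow_le_pow_left h1 5
  · fin_cases i
    · exact h2 _ (fun t => oc_lt _) hR.1
    · exact h2 _ (fun t => oc_lt _) hR.2.1
    · exact h2 _ (fun t => by have := (R.rho t).2; change (R.rho t).1 < _; omega) hR.2.2.1
    · exact h2 _ (fun t => sc_lt _) hR.2.2.2.1
    · exact h2 _ (fun t => sc_lt _) hR.2.2.2.2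

theorem raw_few {H V Lb : Type} {X : Sys H V Lb} {M : H → H} {K s A S g : ℕ} {ep : ℝ}
    {h : Fin S × Bool → H} {lk rg : Fin S → Option (Fin S)} {bl : Fin S → Fin K}
    (c : Config X M K s A ep S h lk rg bl) (hM : X.IsMatch M) (hg : X.Girth M g) (hs : 4 * s ≤ g) :
    ∃ R : Raw S, R.lk = lk ∧ R.rg = rg ∧ Realizes X R M h ∧ R.Few (A + 12 * K ^ 3) := by
  classical
  obtain ⟨rho, r1, r2, r3⟩ := exists_rep (fun t => X.vtx (h (t, false))) fun t => t.1
  obtain ⟨eta, e1, e2, e3⟩ := exists_rep h sc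
  have hb := cfg_bad c hM hg hs
  have key : ∀ f : Fin S → ℕ, (∀ t t' t'' : Fin S, t'.1 = t.1 + 1 → t''.1 = t'.1 + 1 →
      Good X h bl t → Good X h bl t' → Good X h bl t'' → f t'' + f t = 2 * f t') →
      brk f ≤ A + 12 * K ^ 3 := fun f hf => by
    have := brk_le f (univ.filter fun t => ¬ Good X h bl t) fun t t' t'' a b g1 g2 g3 =>
      hf t t' t'' a b (by simpa using g1) (by simpa using g2) (by simpa using g3)
    omega
  have et : ∀ t b b', h (rho t, b') = h (t, b) → eta (t, b) = (rho t, b') := fun t b b' e =>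
    eta_eq c (r3 t) e (e1 _) (e3 _ _ e)
  have o1 : ∀ t, Good X h bl t → h (rho t, false) = h (t, false) →
      ∀ b, eta (t, b) = (rho t, b) := fun t gt e b => by
    rcases (gt _ (r1 t)).2 with o | o
    · cases b
      · exact et _ _ _ o.1
      · exact et _ _ _ o.2
    · exact absurd (e.symm.trans o.1) (c.hne t)
  have o2 : ∀ t, Good X h bl t → h (rho t, false) ≠ h (t, false) →
      ∀ b, eta (t, b) = (rho t, !b) := fun t gt e b => by
    rcases (gt _ (r1 t)).2 with o | o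
    · exact absurd o.1 e
    · cases b
      · exact et _ _ _ o.2
      · exact et _ _ _ o.1
  have tri : ∀ t t' t'' : Fin S, t'.1 = t.1 + 1 → t''.1 = t'.1 + 1 →
      Good X h bl t → Good X h bl t' → Good X h bl t'' →
      (rho t'').1 + (rho t).1 = 2 * (rho t').1 ∧
      ∀ b, sc (eta (t'', b)) + sc (eta (t, b)) = 2 * sc (eta (t', b)) := by
    intro t t' t'' a b g1 g2 g3
    rcases step c hM hg hs r1 r3 a g1 g2 with p | p <;>
      rcases step c hM hg hs r1 r3 b g2 g3 with q | q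
    · refine ⟨by omega, fun x => ?_⟩
      rw [o1 t g1 p.1, o1 t' g2 q.1, o1 t'' g3 q.2.2]
      simp only [sc]
      omega
    · exact absurd (p.2.2.symm.trans q.1) (c.hne t')
    · exact absurd (q.1.trans p.2.2.symm) (c.hne _)
    · refine ⟨by omega, fun x => ?_⟩
      rw [o2 t g1 fun e => c.hne t (e.symm.trans p.1), o2 t' g2 fun e => c.hne t' (e.symm.trans q.1),
        o2 t'' g3 fun e => c.hne _ (e.trans q.2.2.symm)]
      simp only [sc]
      omega
  have lc : ∀ t, Good X h bl t → oc (lk t) = t.1 + 2 := fun t gt => by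
    obtain ⟨u, u1, u2⟩ := (gt t rfl).1.1
    rw [c.blk t u u1 u2.symm]
    simp only [oc]
    omega
  refine ⟨⟨lk, rg, rho, eta⟩, rfl, rfl, ⟨fun x y => ⟨e2 x y, fun e => ?_⟩,
    fun t t' => ⟨r2 t t', fun e => ?_⟩, c.hv, c.hlk, fun t t' e => ?_⟩,
    key _ fun t t' t'' a b g1 g2 g3 => ?_, c.hbrk.trans (Nat.le_add_right _ _),
    key _ fun t t' t'' a b g1 g2 g3 => (tri t t' t'' a b g1 g2 g3).1,
    key _ fun t t' t'' a b g1 g2 g3 => (tri t t' t'' a b g1 g2 g3).2 false,
    key _ fun t t' t'' a b g1 g2 g3 => (tri t t' t'' a b g1 g2 g3).2 true⟩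
  · exact (e1 x).symm.trans ((congrArg h e).trans (e1 y))
  · exact (r1 t).symm.trans ((congrArg (fun u => X.vtx (h (u, false))) e).trans (r1 t'))
  · have a := c.hrg t t' e
    have b := c.hrg t' t a.1
    simp only [Sys.dat, Prod.mk.injEq]
    exact ⟨a.2.1, b.2.1.symm, by rw [a.2.2.1]; ring⟩
  · change oc (lk t'') + oc (lk t) = 2 * oc (lk t')
    rw [lc t g1, lc t' g2, lc t'' g3]
    omega

end Vale.Agent.P201
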