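import Vale.Agent.P201.PartB
import Vale.Agent.P201.PartC1b
import Vale.Agent.P201.PartC2
import Vale.Agent.P201.PartC3

/-! The union bound: some matching of large girth has no configuration. -/

namespace Vale.Agent.P201

open Finset

theorem nc {H V Lb : Type} [Fintype H] [Fintype V] (X : Sys H V Lb)
    {l lam : ℕ} (hb : X.Bd l lam) (hl : 2 ≤ l) (h0 : ∃ M, X.IsMatch M) (g N0 K s A : ℕ)
    (hN : N0 + 4 * l ^ (g + 4) + 2 * lam + 2 * (2 * s * K) ≤ Fintype.card H)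
    (hV : 1 ≤ Fintype.card V) (hV0 : Fintype.card V ≤ N0) {ga L Cw ep : ℝ}
    (s1 : (X.Co.card : ℝ) ≤ N0 * Real.exp (- ga + L + Cw))
    (s2 : ((∑ c ∈ X.Co, X.cnt (X.dat c) : ℕ) : ℝ) ≤ (N0 : ℝ) ^ 2 * Real.exp (- 2 * ga))
    (s3 : ∀ d, (X.cnt d : ℝ) ≤ N0 * Real.exp (- ga - L))
    (hs : 4 * s ≤ g) (hs1 : 1 ≤ s) (hga : 0 ≤ ga) (hL : 0 < L) (hC : 0 ≤ Cw)
    (hK : Cw * (1 + Real.log K) ≤ L / 2)
    (hY : ∀ S, s ≤ S → S ≤ 2 * s * K →
      0 < gain K s S ep ga L Cw (Real.log (Fintype.card V)) (Real.log l) ∧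
      ((2 * s * K + 1 : ℕ) : ℝ) * npat S (A + 12 * K ^ 3) *
        Real.exp (- gain K s S ep ga L Cw (Real.log (Fintype.card V)) (Real.log l) / K) < 1) :
    ∃ M, X.IsMatch M ∧ X.Girth M g ∧ ∀ S h lk rg bl, ¬ Config X M K s A ep S h lk rg bl := by
  classical
  by_contra hc
  push Not at hc
  have mem : ∀ M, M ∈ X.Omega g ↔ X.IsMatch M ∧ X.Girth M g := fun M => by simp [Sys.Omega]
  have hne := omega_nonempty X hb hl g h0 (by omega)
  have hpos : (0 : ℝ) < (X.Omega g).card := by exact_mod_cast hne.card_pos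
  choose F hF1 hF2 using fun S => raw_count S (A + 12 * K ^ 3)
  let Bad : (S : ℕ) → Raw S → Finset (H → H) := fun S R => (X.Omega g).filter fun M =>
    ∃ h bl, Config X M K s A ep S h R.lk R.rg bl ∧ Realizes X R M h
  have cov : ∀ M ∈ X.Omega g, ∃ S ∈ Icc s (2 * s * K), ∃ R ∈ F S, M ∈ Bad S R := by
    intro M hM
    obtain ⟨m1, m2⟩ := (mem M).1 hM
    obtain ⟨S, h, lk, rg, bl, c⟩ := hc M m1 m2
    obtain ⟨R, rfl, rfl, r1, r2⟩ := raw_few c m1 m2 hs
    refine ⟨S, mem_Icc.2 ⟨c.big, ?_⟩, R, hF2 S R r2, mem_filter.2 ⟨hM, h, bl, c, r1⟩⟩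
    have := card_eq_sum_card_fiberwise (s := (univ : Finset (Fin S))) (t := univ) (f := bl)
      fun _ _ => mem_coe.2 (mem_univ _)
    have h2 := sum_le_card_nsmul univ _ _ fun b _ => c.len b
    simp only [card_univ, Fintype.card_fin, smul_eq_mul] at this h2
    rw [mul_comm]
    exact this.trans_le h2
  have one : ∀ S ∈ Icc s (2 * s * K), ∀ R, ((Bad S R).card : ℝ) ≤ (X.Omega g).card *
      Real.exp (- gain K s S ep ga L Cw (Real.log (Fintype.card V)) (Real.log l) / K) := by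
    intro S hS R
    obtain ⟨a1, a2⟩ := mem_Icc.1 hS
    rcases (Bad S R).eq_empty_or_nonempty with h | ⟨M0, hM0⟩
    · rw [h, card_empty, Nat.cast_zero]; positivity
    obtain ⟨hM, h, bl, c, r⟩ := mem_filter.1 hM0
    obtain ⟨m1, m2⟩ := (mem M0).1 hM
    obtain ⟨P, p1, p2⟩ := level R c m1 m2 hs hs1 r hga hL hC hK
      (Real.log_natCast_nonneg _) (Real.log_natCast_nonneg _) (hY S a1 a2).1
    have f := fm X hb hl g N0 (by rw [Fintype.card_fin]; omega) hV hV0 s1 s2 s3 P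
    refine (Nat.cast_le.2 (card_le_card fun M hM => ?_)).trans (f.trans (by gcongr))
    obtain ⟨hM, h, bl, -, r⟩ := mem_filter.1 hM
    exact mem_filter.2 ⟨hM, h, p2 M h ((mem M).1 hM).1 r⟩
  have sub : X.Omega g ⊆ (Icc s (2 * s * K)).biUnion fun S => (F S).biUnion (Bad S) :=
    fun M hM => by simpa only [mem_biUnion] using cov M hM
  have c1 : ((X.Omega g).card : ℝ) ≤
      ∑ S ∈ Icc s (2 * s * K), ∑ R ∈ F S, ((Bad S R).card : ℝ) := by
    exact_mod_cast (card_le_card sub).trans (card_biUnion_le.trans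
      (sum_le_sum fun S _ => card_biUnion_le))
  have nI : (Icc s (2 * s * K)).Nonempty := let ⟨M, hM⟩ := hne; let ⟨S, hS, _⟩ := cov M hM; ⟨S, hS⟩
  have c2 : ∑ S ∈ Icc s (2 * s * K), ((2 * s * K + 1 : ℕ) : ℝ) * ∑ R ∈ F S, ((Bad S R).card : ℝ) <
      ∑ _S ∈ Icc s (2 * s * K), ((X.Omega g).card : ℝ) := by
    refine sum_lt_sum_of_nonempty nI fun S hS => ?_
    obtain ⟨a1, a2⟩ := mem_Icc.1 hS
    have b1 := sum_le_card_nsmul _ _ _ fun R (_ : R ∈ F S) => one S hS R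
    have b2 := mul_lt_mul_of_pos_left (hY S a1 a2).2 hpos
    have b3 : ((F S).card : ℝ) ≤ npat S (A + 12 * K ^ 3) := by exact_mod_cast hF1 S
    rw [nsmul_eq_mul] at b1
    calc _ ≤ ((2 * s * K + 1 : ℕ) : ℝ) * (npat S (A + 12 * K ^ 3) * ((X.Omega g).card *
          Real.exp (- gain K s S ep ga L Cw (Real.log (Fintype.card V)) (Real.log l) / K))) := by
          gcongr; exact b1.trans (by gcongr)
      _ < _ := by linarith
  rw [← mul_sum, sum_const, nsmul_eq_mul] at c2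
  have c3 : ((Icc s (2 * s * K)).card : ℝ) ≤ ((2 * s * K + 1 : ℕ) : ℝ) := by
    rw [Nat.card_Icc]; exact_mod_cast Nat.sub_le _ _
  have c4 := mul_le_mul_of_nonneg_left c1 (Nat.cast_nonneg (α := ℝ) (2 * s * K + 1))
  have c5 := mul_le_mul_of_nonneg_right c3 hpos.le
  linarith

end Vale.Agent.P201
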