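import Vale.Agent.P201.Defs

/-! Elementary moves on pictures. -/

namespace Vale.Agent.P201

open Finset

namespace D1

lemma linv_ne {T : Type} (x : T × Bool) : linv x ≠ x := fun h => by
  have := congrArg Prod.snd h
  simp [linv] at this

lemma linv_linv {T : Type} (x : T × Bool) : linv (linv x) = x := by simp [linv]

lemma ren_self {C : Type} [DecidableEq C] (x c : C) : ren x x c = c := by
  unfold ren; split_ifs with h <;> simp [*]

lemma ren_left {C : Type} [DecidableEq C] (x y : C) : ren x y x = y := by simp [ren]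

lemma ren_right {C : Type} [DecidableEq C] (x y : C) : ren x y y = y := by simp [ren]

lemma S_ren {C : Type} [DecidableEq C] {x y : C} (S : C → ZMod 2) (h : S x = S y) (c : C) :
    S (ren x y c) = S c := by
  unfold ren; split_ifs with h' <;> simp [*]

lemma z2 : ∀ x : ZMod 2, x + x = 0 := by decide

lemma z2' : ∀ x y w : ZMod 2, x + y = y + w → w = x := by decide

lemma z2'' : ∀ x y : ZMod 2, x + y = 0 → y = x := by decide

lemma sum_two {Λ V : Type} [DecidableEq Λ] [DecidableEq V] {A : Finset Λ} {a b : Λ} (ha : a ∈ A)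
    (hb : b ∈ A) (hab : a ≠ b) (v : Λ → V) (z : Λ → ZMod 2) (u : V) :
    ∑ x ∈ A.filter (fun x => v x = u), z x = (if v a = u then z a else 0) +
      ((if v b = u then z b else 0) + ∑ x ∈ ((A.erase a).erase b).filter (fun x => v x = u), z x) := by
  rw [sum_filter, sum_filter, ← add_sum_erase A _ ha,
    ← add_sum_erase (A.erase a) _ (mem_erase.2 ⟨hab.symm, hb⟩)]

lemma pl_step {Λ T V C : Type} [DecidableEq Λ] [DecidableEq V] [DecidableEq C] {A : Finset Λ}
    {al : Λ → Λ} {lab : Λ → T × Bool} {v : Λ → V} {L R : Λ → C} (h : Valid A al lab v L R)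
    {a b : Λ} (ha : a ∈ A) (hb : b ∈ A) (hn : R a = L b) (z : Λ → ZMod 2) (s : ZMod 2)
    (h1 : ∀ x ∈ A, (if al x = a ∨ al x = b then s else z (al x)) =
      if x = a ∨ x = b then s else z x)
    (h2 : ∀ u, ∑ x ∈ A.filter (fun x => v x = u), (if x = a ∨ x = b then s else z x) = 0) :
    ∃ S : C → ZMod 2, ∀ x ∈ (A.erase a).erase b,
      z x = S (ren (R b) (L a) (L x)) + S (ren (R b) (L a) (R x)) := by
  obtain ⟨S, hS⟩ := h.pl (fun x => if x = a ∨ x = b then s else z x) h1 h2
  have e1 := hS a ha
  have e2 := hS b hb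
  simp only [true_or, or_true, if_true] at e1 e2
  rw [e1, hn] at e2
  have e3 : S (R b) = S (L a) := z2' _ _ _ e2
  refine ⟨S, fun x hx => ?_⟩
  simp only [mem_erase] at hx
  have := hS x hx.2.2
  rw [if_neg (by tauto)] at this
  rw [S_ren S e3, S_ren S e3, this]

end D1

open D1

theorem splice {Λ T V C : Type} [DecidableEq Λ] [DecidableEq V] [DecidableEq C] {A : Finset Λ}
    {al : Λ → Λ} {lab : Λ → T × Bool} {v : Λ → V} {L R : Λ → C} (h : Valid A al lab v L R)
    {a b : Λ} (ha : a ∈ A) (hb : b ∈ A) (hab : a ≠ b) (hl : lab b = linv (lab a))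
    (hn : R a = L b) (hv : v a = v b ∨ al a = b) :
    ∃ al' : Λ → Λ, Valid ((A.erase a).erase b) al' lab (fun x => ren (v b) (v a) (v x))
      (fun x => ren (R b) (L a) (L x)) (fun x => ren (R b) (L a) (R x)) := by
  have hne : ∀ x ∈ A, al x ≠ x := fun x hx e => linv_ne (lab x) (by rw [← h.lab x hx, e])
  have hinj : ∀ x ∈ A, ∀ y, al x = y → x = al y := fun x hx y e => by rw [← e, h.inv x hx]
  have hsum : ∀ (z : Λ → ZMod 2) (s : ZMod 2) (u : V),
      ∑ x ∈ A.filter (fun x => v x = u), (if x = a ∨ x = b then s else z x) =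
        (if v a = u then s else 0) + ((if v b = u then s else 0) +
          ∑ x ∈ ((A.erase a).erase b).filter (fun x => v x = u), z x) := fun z s u => by
    rw [sum_two ha hb hab]
    simp only [true_or, or_true, if_true]
    congr 2
    refine sum_congr rfl fun x hx => ?_
    simp only [mem_filter, mem_erase] at hx
    rw [if_neg (by tauto)]
  by_cases hc : al a = b
  · have hc' : al b = a := by rw [← hc, h.inv a ha]
    have hm : ∀ x ∈ (A.erase a).erase b, x ∈ A ∧ al x ≠ a ∧ al x ≠ b := fun x hx => by
      simp only [mem_erase] at hx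
      exact ⟨hx.2.2, fun e => hx.1 ((hinj x hx.2.2 _ e).trans hc),
        fun e => hx.2.1 ((hinj x hx.2.2 _ e).trans hc')⟩
    refine ⟨al, fun x hx => ?_, fun x hx => h.inv x (hm x hx).1, fun x hx => h.lab x (hm x hx).1,
      fun x hx => by rw [h.nm x (hm x hx).1], fun z z1 z2 => ?_⟩
    · simp only [mem_erase]
      exact ⟨(hm x hx).2.2, (hm x hx).2.1, h.mem x (hm x hx).1⟩
    · refine pl_step h ha hb hn z (∑ x ∈ ((A.erase a).erase b).filter (fun x => v x = v a), z x)
        (fun x hx => ?_) fun u => ?_
      · by_cases h1 : x = a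
        · subst h1; simp [hc]
        · by_cases h2 : x = b
          · subst h2; simp [hc']
          · have hx' : x ∈ (A.erase a).erase b := by simp [h1, h2, hx]
            rw [if_neg (by have := hm x hx'; tauto), if_neg (by tauto), z1 x hx']
      · rw [hsum]
        by_cases h1 : v a = v b
        · have := z2 u
          simp only [h1, ren_self] at this
          rw [this, h1, add_zero, D1.z2]
        · by_cases h2 : v a = u
          · subst h2
            rw [if_pos rfl, if_neg (Ne.symm h1), zero_add, D1.z2]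
          · by_cases h3 : v b = u
            · subst h3
              rw [if_neg h2, if_pos rfl, zero_add, ← z2 (v a), ← sum_union]
              · refine sum_congr ?_ fun _ _ => rfl
                ext x
                rw [mem_union, mem_filter, mem_filter, mem_filter, ren]
                split_ifs with h4 <;> tauto
              · rw [disjoint_filter]
                exact fun x _ e1 e2 => h1 (e1.symm.trans e2)
            · rw [if_neg h2, if_neg h3, zero_add, zero_add, ← z2 u]
              refine sum_congr ?_ fun _ _ => rfl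
              ext x
              rw [mem_filter, mem_filter, ren]
              split_ifs with h4
              · simp [h4, h2, h3]
              · simp
  · have hvv : v a = v b := hv.resolve_right hc
    have hc' : al b ≠ a := fun e => hc (hinj b hb _ e).symm
    have hA : ∀ x ∈ (A.erase a).erase b, x ∈ A ∧ x ≠ a ∧ x ≠ b := fun x hx => by
      simp only [mem_erase] at hx; tauto
    have hca : al a ∈ (A.erase a).erase b := by simp [hc, hne a ha, h.mem a ha]
    have hcb : al b ∈ (A.erase a).erase b := by simp [hc', hne b hb, h.mem b hb]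
    refine ⟨fun x => if al x = a then al b else if al x = b then al a else al x,
      fun x hx => ?_, fun x hx => ?_, fun x hx => ?_, fun x hx => ?_, fun z z1 z2 => ?_⟩
    · split_ifs with h1 h2
      · exact hcb
      · exact hca
      · simp [h1, h2, h.mem x (hA x hx).1]
    · obtain ⟨x1, x2, x3⟩ := hA x hx
      by_cases h1 : al x = a
      · simp [h1, h.inv b hb, hab.symm, hinj x x1 _ h1, h.inv a ha]
      · by_cases h2 : al x = b
        · simp [h2, h.inv a ha, hab.symm, hinj x x1 _ h2, h.inv b hb]
        · simp [h1, h2, h.inv x x1, x2, x3]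
    · obtain ⟨x1, x2, x3⟩ := hA x hx
      split_ifs with h1 h2
      · rw [h.lab b hb, hl, ← h1, h.lab x x1, linv_linv]
      · rw [h.lab a ha, ← hl, ← h2, h.lab x x1]
      · exact h.lab x x1
    · obtain ⟨x1, x2, x3⟩ := hA x hx
      split_ifs with h1 h2
      · rw [h.nm b hb, ← h.nm x x1, h1, ren_left, ren_right]
      · rw [h.nm a ha, ← h.nm x x1, h2, hn]
      · rw [h.nm x x1]
    · have e : z (al b) = z (al a) := by
        have := z1 _ hca
        simpa [h.inv a ha] using this
      refine pl_step h ha hb hn z (z (al a)) (fun x hx => ?_) fun u => ?_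
      · by_cases h1 : x = a
        · subst h1; simp
        · by_cases h2 : x = b
          · subst h2; simp [e]
          · have hx' : x ∈ (A.erase a).erase b := by simp [h1, h2, hx]
            rw [if_neg (show ¬ (x = a ∨ x = b) by tauto)]
            by_cases h3 : al x = a
            · rw [if_pos (Or.inl h3), hinj x hx _ h3]
            · by_cases h4 : al x = b
              · rw [if_pos (Or.inr h4), hinj x hx _ h4, e]
              · have := z1 x hx'
                simp only [h3, h4, if_false] at this
                rw [if_neg (by tauto), this]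
      · have := z2 u
        simp only [hvv, ren_self] at this
        rw [hsum, this, hvv, add_zero, D1.z2]

theorem chainN_append {Λ C : Type} {L R : Λ → C} {c0 c1 : C} {O1 O2 : List Λ} :
    ChainN L R c0 (O1 ++ O2) c1 ↔ ∃ c, ChainN L R c0 O1 c ∧ ChainN L R c O2 c1 := by
  induction O1 generalizing c0 with
  | nil => simp [ChainN]
  | cons a O ih => simp [ChainN, ih, and_assoc]

theorem chainN_map {Λ C C' : Type} {L R : Λ → C} (f : C → C') {c0 c1 : C} {O : List Λ}
    (h : ChainN L R c0 O c1) :
    ChainN (fun x => f (L x)) (fun x => f (R x)) (f c0) O (f c1) := by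
  induction O generalizing c0 with
  | nil => exact congrArg f h
  | cons a O ih => exact ⟨congrArg f h.1, ih h.2⟩

namespace D1

lemma chain_sum {Λ C : Type} {L R : Λ → C} (S : C → ZMod 2) (z : Λ → ZMod 2) {c0 c1 : C}
    {O : List Λ} (h : ChainN L R c0 O c1) (hz : ∀ x ∈ O, z x = S (L x) + S (R x)) :
    (O.map z).sum = S c0 + S c1 := by
  induction O generalizing c0 with
  | nil => rw [show c0 = c1 from h, z2]; rfl
  | cons a O ih =>
    rw [List.map_cons, List.sum_cons, ih h.2 fun x hx => hz x (List.mem_cons_of_mem _ hx),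
      hz a List.mem_cons_self, h.1, add_assoc, ← add_assoc (S (R a)), z2, zero_add]

lemma chain_congr {Λ C : Type} {L R L' R' : Λ → C} {c0 c1 : C} {O : List Λ}
    (h : ChainN L R c0 O c1) (hz : ∀ x ∈ O, L' x = L x ∧ R' x = R x) : ChainN L' R' c0 O c1 := by
  induction O generalizing c0 with
  | nil => exact h
  | cons a O ih =>
    refine ⟨(hz a List.mem_cons_self).1.trans h.1, ?_⟩
    rw [(hz a List.mem_cons_self).2]
    exact ih h.2 fun x hx => hz x (List.mem_cons_of_mem _ hx)

lemma chain_end {Λ C : Type} {L R : Λ → C} {c0 c1 : C} {O : List Λ}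
    (h : ChainN L R c0 O c1) : c1 = c0 ∨ ∃ x ∈ O, c1 = R x := by
  induction O generalizing c0 with
  | nil => exact Or.inl h.symm
  | cons a O ih =>
    rcases ih h.2 with e | ⟨x, hx, e⟩
    · exact Or.inr ⟨a, List.mem_cons_self, e⟩
    · exact Or.inr ⟨x, List.mem_cons_of_mem _ hx, e⟩

end D1

theorem split {Λ T V C : Type} [DecidableEq Λ] [DecidableEq V] [DecidableEq C] {A : Finset Λ}
    {al : Λ → Λ} {lab : Λ → T × Bool} {v : Λ → V} {L R : Λ → C} (h : Valid A al lab v L R)
    {D : List Λ} (hD : D.Nodup) (hA : ∀ x ∈ D, x ∈ A) {v0 v1 : V} (h0 : ∀ x ∈ D, v x = v0)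
    (h1 : ∀ x ∈ A, v x ≠ v1) {c0 c1 : C} (hc : ChainN L R c0 D c1) :
    Valid A al lab (fun x => if x ∈ D then v1 else v x)
      (fun x => ren c1 c0 (L x)) (fun x => ren c1 c0 (R x)) := by
  refine ⟨h.mem, h.inv, h.lab, fun x hx => by rw [h.nm x hx], fun z z1 z2 => ?_⟩
  have e1 : ∑ x ∈ A.filter (fun x => x ∈ D), z x = 0 := by
    rw [← z2 v1]
    refine sum_congr (filter_congr fun x hx => ?_) fun _ _ => rfl
    by_cases h2 : x ∈ D <;> simp [h2, h1 x hx]
  obtain ⟨S, hS⟩ := h.pl z z1 fun u => by
    rw [← sum_filter_add_sum_filter_not _ (fun x => x ∈ D), filter_filter, filter_filter]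
    have e2 : ∑ x ∈ A.filter (fun x => v x = u ∧ x ∈ D), z x = 0 := by
      by_cases h2 : v0 = u
      · rw [← e1]
        refine sum_congr (filter_congr fun x _ => ?_) fun _ _ => rfl
        exact ⟨fun e => e.2, fun e => ⟨(h0 x e).trans h2, e⟩⟩
      · exact sum_eq_zero fun x hx => by
          simp only [mem_filter] at hx
          exact absurd ((h0 x hx.2.2).symm.trans hx.2.1) h2
    rw [e2, zero_add]
    by_cases h2 : v1 = u
    · exact sum_eq_zero fun x hx => by
        simp only [mem_filter] at hx
        exact absurd (hx.2.1.trans h2.symm) (h1 x hx.1)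
    · rw [← z2 u]
      refine sum_congr (filter_congr fun x _ => ?_) fun _ _ => rfl
      by_cases h3 : x ∈ D <;> simp [h3, h2]
  have e3 : A.filter (fun x => x ∈ D) = D.toFinset := by
    ext x; simp only [mem_filter, List.mem_toFinset]; exact ⟨fun e => e.2, fun e => ⟨hA x e, e⟩⟩
  rw [e3, List.sum_toFinset _ hD, chain_sum S z hc fun x hx => hS x (hA x hx)] at e1
  have e4 : S c1 = S c0 := z2'' _ _ e1
  exact ⟨S, fun x hx => by rw [S_ren S e4, S_ren S e4, hS x hx]⟩

namespace D1

lemma dyck_aux {Λ T : Type} [DecidableEq Λ] (lab : Λ → T × Bool) : ∀ (n : ℕ) (O : List Λ),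
    O.length = n → O.Nodup → FreeGroup.Red (O.map lab) [] →
    ∃ (al : Λ → Λ) (L R : Λ → Option Λ), (∀ x ∈ O, al x ∈ O ∧ al (al x) = x ∧
      lab (al x) = linv (lab x) ∧ L (al x) = R x ∧ ∀ y, R x = some y → y ∈ O) ∧
      (∀ z : Λ → ZMod 2, (∀ x ∈ O, z (al x) = z x) →
        ∃ S : Option Λ → ZMod 2, ∀ x ∈ O, z x = S (L x) + S (R x)) ∧
      ChainN L R none O none := by
  intro n
  induction n using Nat.strong_induction_on with
  | _ n ih =>
  intro O hn hO h
  rcases h.cases_head with h | ⟨l, h1, h2⟩
  · have : O = [] := by simpa using h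
    subst this
    exact ⟨id, fun _ => none, fun _ => none, by simp, fun z _ => ⟨0, by simp⟩, rfl⟩
  · generalize e : O.map lab = w at h1
    obtain ⟨L1, L2, t, β⟩ := h1
    rename_i L1 L2 t β
    obtain ⟨O1, O', rfl, e1, e2⟩ := List.map_eq_append_iff.1 e
    obtain ⟨a, O'', rfl, e3, e4⟩ := List.map_eq_cons_iff.1 e2
    obtain ⟨b, O2, rfl, e5, e6⟩ := List.map_eq_cons_iff.1 e4
    have hl : lab b = linv (lab a) := by rw [e3, e5]; rfl
    have hp : (O1 ++ a :: b :: O2).Perm (a :: b :: (O1 ++ O2)) :=
      List.perm_middle.trans (List.perm_middle.cons a)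
    have hO' := hp.nodup_iff.1 hO
    simp only [List.nodup_cons, List.mem_cons, not_or] at hO'
    obtain ⟨⟨hab, ha⟩, hb, hN⟩ := hO'
    obtain ⟨al, L, R, k1, k2, k3⟩ := ih (O1 ++ O2).length
      (by rw [← hn]; simp only [List.length_append, List.length_cons]; omega) (O1 ++ O2) rfl hN
      (by rw [List.map_append, e1, e6]; exact h2)
    obtain ⟨c, c1, c2⟩ := chainN_append.1 k3
    have hc : ∀ y, c = some y → y ∈ O1 ++ O2 := fun y e => by
      rcases chain_end c1 with e' | ⟨x, hx, e'⟩
      · rw [e'] at e; cases e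
      · exact (k1 x (List.mem_append_left _ hx)).2.2.2.2 y (e'.symm.trans e)
    have hm : ∀ x, x ∈ O1 ++ a :: b :: O2 ↔ x = a ∨ x = b ∨ x ∈ O1 ++ O2 := fun x => by
      rw [hp.mem_iff]; simp only [List.mem_cons]
    have hx : ∀ x ∈ O1 ++ O2, x ≠ a ∧ x ≠ b := fun x hx =>
      ⟨fun e => ha (e ▸ hx), fun e => hb (e ▸ hx)⟩
    have hba : b ≠ a := Ne.symm hab
    refine ⟨fun x => if x = a then b else if x = b then a else al x,
      fun x => if x = a then c else if x = b then some a else L x,
      fun x => if x = a then some a else if x = b then c else R x, fun x h0 => ?_,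
      fun z hz => ?_, ?_⟩
    · rcases (hm x).1 h0 with rfl | rfl | h0
      · simp [hba, hl]
      · simp only [hba, if_false, if_true, hl, linv_linv, true_and]
        exact ⟨(hm _).2 (Or.inl rfl), fun y e => (hm _).2 (Or.inr (Or.inr (hc y e)))⟩
      · obtain ⟨m1, m2, m3, m4, m5⟩ := k1 x h0
        simp only [(hx x h0).1, (hx x h0).2, (hx _ m1).1, (hx _ m1).2, if_false]
        exact ⟨(hm _).2 (Or.inr (Or.inr m1)), m2, m3, m4,
          fun y e => (hm _).2 (Or.inr (Or.inr (m5 y e)))⟩
    · obtain ⟨S, hS⟩ := k2 z fun x h0 => by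
        have := hz x ((hm _).2 (Or.inr (Or.inr h0)))
        simpa only [(hx x h0).1, (hx x h0).2, if_false] using this
      have hca : c ≠ some a := fun e => ha (hc a e)
      have hzb : z b = z a := by simpa using hz a ((hm _).2 (Or.inl rfl))
      refine ⟨fun y => if y = some a then S c + z a else S y, fun x h0 => ?_⟩
      rcases (hm x).1 h0 with rfl | rfl | h0
      · simp only [if_true, hca, if_false]
        rw [← add_assoc, z2, zero_add]
      · simp only [hba, if_true, hca, if_false]
        rw [add_comm, ← add_assoc, z2, zero_add, hzb]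
      · obtain ⟨m1, m2, m3, m4, m5⟩ := k1 x h0
        have n1 : R x ≠ some a := fun e => ha (m5 a e)
        have n2 : L x ≠ some a := fun e => by
          have := (k1 _ m1).2.2.2.1
          rw [m2] at this
          exact ha ((k1 _ m1).2.2.2.2 a (this.symm.trans e))
        simp only [(hx x h0).1, (hx x h0).2, if_false, n1, n2]
        exact hS x h0
    · refine chainN_append.2 ⟨c, chain_congr c1 fun x h0 => ?_, by simp, by simp [hba], ?_⟩
      · have := hx x (List.mem_append_left _ h0)
        simp [this.1, this.2]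
      · simp only [hba, if_false, if_true]
        refine chain_congr c2 fun x h0 => ?_
        have := hx x (List.mem_append_right _ h0)
        simp [this.1, this.2]

end D1

theorem dyck {Λ T V : Type} [DecidableEq Λ] [DecidableEq V] (lab : Λ → T × Bool) (v0 : V)
    (O : List Λ) (hO : O.Nodup) (h : FreeGroup.mk (O.map lab) = 1) :
    ∃ (al : Λ → Λ) (L R : Λ → Option Λ), Valid O.toFinset al lab (fun _ => v0) L R ∧
      ChainN L R none O none := by
  obtain ⟨d, d1, d2⟩ := FreeGroup.Red.exact.1 (h.trans FreeGroup.one_eq_mk)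
  rw [FreeGroup.Red.nil_iff.1 d2] at d1
  obtain ⟨al, L, R, k1, k2, k3⟩ := dyck_aux lab _ O rfl hO d1
  refine ⟨al, L, R, ⟨fun x hx => ?_, fun x hx => ?_, fun x hx => ?_, fun x hx => ?_,
    fun z hz _ => ?_⟩, k3⟩
  · exact List.mem_toFinset.2 (k1 x (List.mem_toFinset.1 hx)).1
  · exact (k1 x (List.mem_toFinset.1 hx)).2.1
  · exact (k1 x (List.mem_toFinset.1 hx)).2.2.1
  · exact (k1 x (List.mem_toFinset.1 hx)).2.2.2.1
  · obtain ⟨S, hS⟩ := k2 z fun x hx => hz x (List.mem_toFinset.2 hx)
    exact ⟨S, fun x hx => hS x (List.mem_toFinset.1 hx)⟩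

end Vale.Agent.P201
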