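import Vale.Agent.P201.PartD1a

/-! From a product of conjugates of cells to a picture of triangles. -/

namespace Vale.Agent.P201

open Finset

namespace D1

lemma valid_congr {Λ T V C : Type} [DecidableEq V] {A : Finset Λ}
    {al : Λ → Λ} {lab : Λ → T × Bool} {v v' : Λ → V} {L R : Λ → C} (h : Valid A al lab v L R)
    (hv : ∀ x ∈ A, v' x = v x) : Valid A al lab v' L R :=
  ⟨h.mem, h.inv, h.lab, h.nm, fun z z1 z2 => h.pl z z1 fun u => by
    rw [← z2 u]
    exact sum_congr (filter_congr fun x hx => by rw [hv x hx]) fun _ _ => rfl⟩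

lemma unstem {Λ T V C : Type} [DecidableEq Λ] [DecidableEq V] [DecidableEq C]
    {lab : Λ → T × Bool} {v : Λ → V} (a b : ℕ → Λ) (ha : Function.Injective a)
    (hb : Function.Injective b) (hab : ∀ i j, a i ≠ b j) (hl : ∀ j, lab (b j) = linv (lab (a j)))
    (hv : ∀ j, v (a j) = v (b j)) (Q : List Λ) (m : ℕ) : ∀ (A : Finset Λ) (al : Λ → Λ)
    (L R : Λ → C) (c0 c1 : C), Valid A al lab v L R → (∀ j < m, a j ∈ A ∧ b j ∈ A) →
    ChainN L R c0 ((List.range m).map a ++ (((List.range m).map b).reverse ++ Q)) c1 →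
    ∃ (A' : Finset Λ) (al' : Λ → Λ) (f : C → C),
      Valid A' al' lab v (fun x => f (L x)) (fun x => f (R x)) ∧
      (∀ x, x ∈ A' ↔ x ∈ A ∧ ∀ j < m, x ≠ a j ∧ x ≠ b j) ∧
      ChainN (fun x => f (L x)) (fun x => f (R x)) (f c0) Q (f c1) := by
  induction m with
  | zero => exact fun A al L R c0 c1 h _ hc => ⟨A, al, id, h, by simp, by simpa using hc⟩
  | succ m ih =>
    intro A al L R c0 c1 h hA hc
    simp only [List.range_succ, List.map_append, List.map_cons, List.map_nil, List.reverse_append,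
      List.reverse_cons, List.reverse_nil, List.nil_append, List.append_assoc,
      List.cons_append] at hc
    obtain ⟨c, k1, k2, k3, k4⟩ := chainN_append.1 hc
    obtain ⟨al1, h1⟩ := splice h (hA m (by omega)).1 (hA m (by omega)).2 (hab m m) (hl m) k3.symm
      (Or.inl (hv m))
    have h2 := valid_congr h1 (v' := v) fun x _ => by rw [hv m, ren_self]
    obtain ⟨A', al', f, q1, q2, q3⟩ := ih _ al1 _ _ (ren (R (b m)) (L (a m)) c0)
      (ren (R (b m)) (L (a m)) c1) h2 (fun j hj => by
        have n1 : j ≠ m := by omega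
        simp only [mem_erase]
        exact ⟨⟨hab j m, ha.ne n1, (hA j (by omega)).1⟩,
          hb.ne n1, (hab m j).symm, (hA j (by omega)).2⟩)
      (chainN_append.2 ⟨_, chainN_map _ k1, by
        have := chainN_map (ren (R (b m)) (L (a m))) k4
        rw [ren_left] at this
        rw [← k2, ren_right]
        exact this⟩)
    refine ⟨A', al', fun c => f (ren (R (b m)) (L (a m)) c), q1, fun x => ?_, q3⟩
    rw [q2]
    simp only [mem_erase, Nat.lt_succ_iff_lt_or_eq]
    constructor
    · rintro ⟨⟨e1, e2, e3⟩, e4⟩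
      refine ⟨e3, fun j hj => ?_⟩
      rcases hj with hj | rfl
      · exact e4 j hj
      · exact ⟨e2, e1⟩
    · rintro ⟨e1, e2⟩
      exact ⟨⟨(e2 m (Or.inr rfl)).2, (e2 m (Or.inr rfl)).1, e1⟩, fun j hj => e2 j (Or.inl hj)⟩

/-- The letters. -/
abbrev Let (κ : Type) : Type := (κ × Fin 3) ⊕ (κ × ℕ × Bool)

/-- The letters of one conjugate. -/
def block {κ : Type} (m : κ → ℕ) (k : κ) : List (Let κ) :=
  (List.range (m k)).map (fun j => .inr (k, j, false)) ++
    ([.inl (k, 0), .inl (k, 1), .inl (k, 2)] ++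
      ((List.range (m k)).map (fun j => .inr (k, j, true))).reverse)

lemma mem_block {κ : Type} (m : κ → ℕ) (k : κ) (x : Let κ) :
    x ∈ block m k ↔ (∃ j, x = .inl (k, j)) ∨ ∃ j < m k, ∃ b, x = .inr (k, j, b) := by
  simp only [block, List.mem_append, List.mem_map, List.mem_range, List.mem_cons,
    List.not_mem_nil, or_false, List.mem_reverse]
  constructor
  · rintro (⟨j, hj, rfl⟩ | (rfl | rfl | rfl) | ⟨j, hj, rfl⟩)
    · exact Or.inr ⟨j, hj, _, rfl⟩
    · exact Or.inl ⟨_, rfl⟩
    · exact Or.inl ⟨_, rfl⟩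
    · exact Or.inl ⟨_, rfl⟩
    · exact Or.inr ⟨j, hj, _, rfl⟩
  · rintro (⟨j, rfl⟩ | ⟨j, hj, b, rfl⟩)
    · fin_cases j <;> simp
    · cases b
      · exact Or.inl ⟨j, hj, rfl⟩
      · exact Or.inr (Or.inr ⟨j, hj, rfl⟩)

lemma nodup_block {κ : Type} (m : κ → ℕ) (k : κ) : (block m k).Nodup := by
  have h : ∀ b : Bool, ((List.range (m k)).map
      (fun j => (.inr (k, j, b) : Let κ))).Nodup := fun b =>
    List.nodup_range.map fun i j e => by simpa using e
  simp only [block, List.nodup_append, List.nodup_reverse, h, true_and]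
  refine ⟨⟨by simp, ?_⟩, ?_⟩
  · intro x hx y hy
    simp only [List.mem_cons, List.not_mem_nil, or_false, List.mem_reverse, List.mem_map] at hx hy
    obtain ⟨j, -, rfl⟩ := hy
    rcases hx with rfl | rfl | rfl <;> simp
  · intro x hx y hy
    simp only [List.mem_cons, List.not_mem_nil, or_false, List.mem_reverse, List.mem_map,
      List.mem_append] at hx hy
    obtain ⟨j, -, rfl⟩ := hx
    rcases hy with (rfl | rfl | rfl) | ⟨i, -, rfl⟩ <;> simp

lemma process {κ T C : Type} [DecidableEq κ] [DecidableEq C] {lab : Let κ → T × Bool}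
    (hl : ∀ k j, lab (.inr (k, j, true)) = linv (lab (.inr (k, j, false)))) (m : κ → ℕ)
    (ks : List κ) : ks.Nodup → ∀ (A : Finset (Let κ)) (al : Let κ → Let κ) (v : Let κ → Option κ)
    (L R : Let κ → C) (c : C), Valid A al lab v L R → (∀ y, v (.inr y) = none) →
    (∀ k ∈ ks, ∀ x ∈ block m k, x ∈ A) → (∀ k ∈ ks, ∀ j, v (.inl (k, j)) = none) →
    (∀ k ∈ ks, ∀ x, v x ≠ some k) → ChainN L R c (ks.flatMap (block m)) c →
    ∃ (A' : Finset (Let κ)) (al' : Let κ → Let κ) (v' : Let κ → Option κ) (f : C → C),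
      Valid A' al' lab v' (fun x => f (L x)) (fun x => f (R x)) ∧
      (∀ x, x ∈ A' ↔ x ∈ A ∧ ∀ k ∈ ks, ∀ j < m k, ∀ b, x ≠ .inr (k, j, b)) ∧
      (∀ k j, v' (.inl (k, j)) = if k ∈ ks then some k else v (.inl (k, j))) ∧
      ∀ k ∈ ks, f (R (.inl (k, 0))) = f (L (.inl (k, 1))) ∧
        f (R (.inl (k, 1))) = f (L (.inl (k, 2))) ∧ f (R (.inl (k, 2))) = f (L (.inl (k, 0))) := by
  induction ks with
  | nil => exact fun _ A al v L R c h _ _ _ _ _ => ⟨A, al, v, id, h, by simp, by simp, by simp⟩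
  | cons k ks ih =>
    intro hN A al v L R c h v1 hA v2 v3 hc
    rw [List.nodup_cons] at hN
    rw [List.flatMap_cons, block, List.append_assoc, List.append_assoc] at hc
    obtain ⟨c1, k1, k2⟩ := chainN_append.1 hc
    obtain ⟨c2, k3, k4⟩ := chainN_append.1 k2
    have hD : ∀ x : Let κ, x ∈ ([.inl (k, 0), .inl (k, 1), .inl (k, 2)] : List (Let κ)) ↔
        ∃ j, x = .inl (k, j) := fun x => by
      simp only [List.mem_cons, List.not_mem_nil, or_false]
      constructor
      · rintro (rfl | rfl | rfl) <;> exact ⟨_, rfl⟩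
      · rintro ⟨j, rfl⟩
        fin_cases j <;> simp
    have h1 := split h (D := [.inl (k, 0), .inl (k, 1), .inl (k, 2)]) (by simp)
      (fun x hx => hA k List.mem_cons_self x ((mem_block m k x).2 (Or.inl ((hD x).1 hx))))
      (v0 := none) (v1 := some k)
      (fun x hx => by obtain ⟨j, rfl⟩ := (hD x).1 hx; exact v2 k List.mem_cons_self j)
      (fun x _ => v3 k List.mem_cons_self x) k3
    obtain ⟨A1, al1, f1, p1, p2, p3⟩ := unstem (fun j => (.inr (k, j, false) : Let κ))
      (fun j => .inr (k, j, true)) (fun i j e => by simpa using e) (fun i j e => by simpa using e)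
      (fun i j => by simp) (hl k) (fun j => by simp [v1]) (ks.flatMap (block m)) (m k) A al _ _
      (ren c2 c1 c) (ren c2 c1 c) h1
      (fun j hj => ⟨hA k List.mem_cons_self _ ((mem_block m k _).2 (Or.inr ⟨j, hj, _, rfl⟩)),
        hA k List.mem_cons_self _ ((mem_block m k _).2 (Or.inr ⟨j, hj, _, rfl⟩))⟩)
      (chainN_append.2 ⟨_, chainN_map _ k1, by
        have := chainN_map (ren c2 c1) k4
        rw [ren_left] at this
        rw [ren_right]
        exact this⟩)
    have hk : ∀ k' ∈ ks, k' ≠ k := fun k' hk' e => hN.1 (e ▸ hk')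
    obtain ⟨A2, al2, w, f2, q1, q2, q3, q4⟩ := ih hN.2 A1 al1 _ _ _ _ p1 (fun y => by simp [v1])
      (fun k' hk' x hx => (p2 x).2 ⟨hA k' (List.mem_cons_of_mem _ hk') x hx, fun j _ => by
        rcases (mem_block m k' x).1 hx with ⟨i, rfl⟩ | ⟨i, -, b, rfl⟩ <;> simp [hk k' hk']⟩)
      (fun k' hk' j => by simp [hk k' hk', v2 k' (List.mem_cons_of_mem _ hk') j])
      (fun k' hk' x => by
        split_ifs
        · simpa using (hk k' hk').symm
        · exact v3 k' (List.mem_cons_of_mem _ hk') x) p3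
    refine ⟨A2, al2, w, fun c => f2 (f1 (ren c2 c1 c)), q1, fun x => ?_, fun k' j => ?_,
      fun k' hk' => ?_⟩
    · rw [q2, p2]
      simp only [List.forall_mem_cons, Bool.forall_bool, and_assoc]
    · rw [q3]
      by_cases e1 : k' ∈ ks
      · simp [e1]
      · by_cases e2 : k' = k
        · subst e2
          rw [if_neg e1, if_pos ((hD _).2 ⟨j, rfl⟩), if_pos List.mem_cons_self]
        · simp [e1, e2]
    · rcases List.mem_cons.1 hk' with rfl | hk'
      · obtain ⟨e0, e1, e2, e3⟩ := k3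
        refine ⟨by rw [e1], by rw [e2], ?_⟩
        rw [e0, show R (.inl (k', 2)) = c2 from e3]
        simp only [ren_left, ren_right]
      · exact q4 k' hk'

lemma restrict {κ T C : Type} [DecidableEq κ] [Fintype κ] {A : Finset (Let κ)}
    {al : Let κ → Let κ} {lab : Let κ → T × Bool} {v : Let κ → Option κ} {L R : Let κ → C}
    (h : Valid A al lab v L R) (hA : ∀ x, x ∈ A ↔ ∃ p, x = .inl p)
    (hv : ∀ k j, v (.inl (k, j)) = some k) : ∃ al' : κ × Fin 3 → κ × Fin 3,
      Valid (univ ×ˢ (univ : Finset (Fin 3))) al' (fun p => lab (.inl p)) Prod.fst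
        (fun p => L (.inl p)) (fun p => R (.inl p)) := by
  have hm : ∀ p, (.inl p : Let κ) ∈ A := fun p => (hA _).2 ⟨p, rfl⟩
  choose al' hal using fun p => (hA _).1 (h.mem _ (hm p))
  refine ⟨al', fun p _ => by simp, fun p _ => ?_, fun p _ => ?_, fun p _ => ?_, fun z z1 z2 => ?_⟩
  · have := h.inv _ (hm p)
    rw [hal, hal] at this
    exact Sum.inl_injective this
  · rw [← hal, h.lab _ (hm p)]
  · rw [← hal, h.nm _ (hm p)]
  · obtain ⟨S, hS⟩ := h.pl (Sum.elim z 0) (fun x hx => by
      obtain ⟨p, rfl⟩ := (hA x).1 hx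
      rw [hal]; exact z1 p (by simp)) fun u => by
      have e : A = univ.map ⟨Sum.inl, Sum.inl_injective⟩ := by
        ext x; simp [hA, eq_comm]
      rw [e, filter_map, sum_map]
      cases u with
      | none => exact sum_eq_zero fun p hp => by simp [hv p.1 p.2] at hp
      | some u =>
        rw [← z2 u]
        refine sum_congr ?_ fun _ _ => rfl
        ext p
        simp [hv p.1 p.2]
    exact ⟨S, fun p _ => hS _ (hm p)⟩

lemma mk_flatMap {κ Λ T : Type} (lab : Λ → T × Bool) (B : κ → List Λ) (ks : List κ) :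
    FreeGroup.mk ((ks.flatMap B).map lab) = (ks.map fun k => FreeGroup.mk ((B k).map lab)).prod := by
  induction ks with
  | nil => rfl
  | cons k ks ih => rw [List.flatMap_cons, List.map_append, ← FreeGroup.mul_mk, ih]; rfl

lemma range_getD {α : Type} (w : List α) (d : α) :
    (List.range w.length).map (fun j => w.getD j d) = w := by
  refine List.ext_getElem (by simp) fun i h1 h2 => ?_
  simp [List.getElem?_eq_getElem h2]

end D1

open D1

theorem tp_of_list {W E Y : Type} (Γ : LG W E Y)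
    (cs : List (FreeGroup (Γ.G × (Y ⊕ W)) × ((Γ.G × E) × Bool)))
    (h : (cs.map fun c => c.1 * Γ.cw c.2 * c.1⁻¹).prod = 1) :
    ∃ (C : Type) (al : Fin cs.length × Fin 3 → Fin cs.length × Fin 3)
      (L R : Fin cs.length × Fin 3 → C), TP Γ univ (fun k => (cs.get k).2) al L R := by
  classical
  choose w hw using fun k : Fin cs.length => Quot.exists_rep (cs.get k).1
  let lab : Let (Fin cs.length) → (Γ.G × (Y ⊕ W)) × Bool :=
    Sum.elim (fun p => Γ.lt (cs.get p.1).2 p.2) fun y =>
      if y.2.2 then linv ((w y.1).getD y.2.1 (Γ.lt (cs.get y.1).2 0))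
      else (w y.1).getD y.2.1 (Γ.lt (cs.get y.1).2 0)
  let m : Fin cs.length → ℕ := fun k => (w k).length
  have hb : ∀ k, FreeGroup.mk ((block m k).map lab) =
      (cs.get k).1 * Γ.cw (cs.get k).2 * (cs.get k).1⁻¹ := fun k => by
    have e1 : ((List.range (m k)).map (fun j => (.inr (k, j, false) : Let _))).map lab = w k := by
      rw [List.map_map]; exact range_getD (w k) (Γ.lt (cs.get k).2 0)
    have e2 : (((List.range (m k)).map (fun j => (.inr (k, j, true) : Let _))).reverse).map lab =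
        FreeGroup.invRev (w k) := by
      rw [List.map_reverse, FreeGroup.invRev]
      congr 1
      conv_rhs => rw [← range_getD (w k) (Γ.lt (cs.get k).2 0)]
      rw [List.map_map, List.map_map]
      rfl
    rw [block, List.map_append, List.map_append, e1, e2, ← FreeGroup.mul_mk, ← FreeGroup.mul_mk,
      ← FreeGroup.inv_mk, mul_assoc, ← hw k]
    rfl
  have hN : ((List.finRange cs.length).flatMap (block m)).Nodup := by
    rw [List.nodup_flatMap]
    refine ⟨fun k _ => nodup_block m k, (List.nodup_finRange _).imp fun {k k'} hk => ?_⟩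
    intro x hx hx'
    rcases (mem_block m k x).1 hx with ⟨i, rfl⟩ | ⟨i, -, b, rfl⟩ <;>
      rcases (mem_block m k' _).1 hx' with ⟨i', e⟩ | ⟨i', -, b', e⟩ <;> simp [hk] at e
  obtain ⟨al, L, R, h1, h2⟩ := dyck lab (none : Option (Fin cs.length)) _ hN (by
    rw [mk_flatMap, ← h]
    congr 1
    simp only [hb]
    conv_rhs => rw [← List.map_get_finRange cs, List.map_map]
    rfl)
  obtain ⟨A', al', v', f, q1, q2, q3, q4⟩ := process (lab := lab) (fun k j => rfl) m _
    (List.nodup_finRange _) _ al _ L R none h1 (fun _ => rfl)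
    (fun k hk x hx => List.mem_toFinset.2 (List.mem_flatMap.2 ⟨k, hk, hx⟩)) (fun _ _ _ => rfl)
    (fun _ _ _ => by simp) h2
  obtain ⟨al2, h3⟩ := restrict q1 (fun x => by
    rw [q2, List.mem_toFinset, List.mem_flatMap]
    constructor
    · rintro ⟨⟨k, hk, hx⟩, e⟩
      rcases (mem_block m k x).1 hx with ⟨i, rfl⟩ | ⟨i, hi, b, rfl⟩
      · exact ⟨_, rfl⟩
      · exact absurd rfl (e k hk i hi b)
    · rintro ⟨p, rfl⟩
      exact ⟨⟨p.1, List.mem_finRange _, (mem_block m _ _).2 (Or.inl ⟨p.2, rfl⟩)⟩, by simp⟩)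
    (fun k j => by rw [q3, if_pos (List.mem_finRange _)])
  exact ⟨_, al2, _, _, h3, fun k _ => (q4 k (List.mem_finRange _)).1,
    fun k _ => (q4 k (List.mem_finRange _)).2.1, fun k _ => (q4 k (List.mem_finRange _)).2.2⟩

end Vale.Agent.P201
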