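import Vale.Agent.P201.PartD1a

/-! Reduction of a triangular picture to a reduced spherical diagram. -/

namespace Vale.Agent.P201

open Finset D1

namespace D1c

lemma valid_congr {Λ T V C : Type} [DecidableEq V] {A A' : Finset Λ} {al : Λ → Λ}
    {lab : Λ → T × Bool} {v v' : Λ → V} {L R : Λ → C} (h : Valid A al lab v L R) (hA : A' = A)
    (hv : ∀ x ∈ A', v' x = v x) : Valid A' al lab v' L R := by
  subst hA
  refine ⟨h.mem, h.inv, h.lab, h.nm, fun z z1 z2 => h.pl z z1 fun u => ?_⟩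
  rw [← z2 u]
  exact sum_congr (filter_congr fun x hx => by rw [hv x hx]) fun _ _ => rfl

lemma cancel {κ T C : Type} [DecidableEq κ] {I : Finset κ} {al : κ × Fin 3 → κ × Fin 3}
    {lab : κ × Fin 3 → T × Bool} {L R : κ × Fin 3 → C}
    (h : Valid (I ×ˢ (univ : Finset (Fin 3))) al lab Prod.fst L R) {k k' : κ} (hk : k ∈ I)
    (hk' : k' ∈ I) (hne : k ≠ k') {j0 j1 j2 i0 i1 i2 : Fin 3} (a01 : j1 ≠ j0) (a02 : j2 ≠ j0)
    (a12 : j2 ≠ j1) (b01 : i1 ≠ i0) (b02 : i2 ≠ i0) (b12 : i2 ≠ i1)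
    (ha : ∀ j, j = j0 ∨ j = j1 ∨ j = j2) (hb : ∀ j, j = i0 ∨ j = i1 ∨ j = i2)
    (r1 : R (k, j1) = L (k, j0)) (r2 : R (k, j2) = L (k, j1)) (s1 : R (k', i0) = L (k', i1))
    (s2 : R (k', i1) = L (k', i2)) (l0 : lab (k', i0) = linv (lab (k, j0)))
    (l1 : lab (k', i1) = linv (lab (k, j1))) (l2 : lab (k', i2) = linv (lab (k, j2)))
    (hal : al (k, j0) = (k', i0)) :
    ∃ (al' : κ × Fin 3 → κ × Fin 3) (φ : C → C),
      Valid (((I.erase k).erase k') ×ˢ (univ : Finset (Fin 3))) al' lab Prod.fst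
        (fun x => φ (L x)) (fun x => φ (R x)) := by
  classical
  have hne' : k' ≠ k := hne.symm
  obtain ⟨al1, h1⟩ := splice h (a := (k, j0)) (b := (k', i0)) (by simp [hk]) (by simp [hk'])
    (by simp [hne]) l0 (by rw [← hal, h.nm _ (by simp [hk])]) (Or.inr hal)
  obtain ⟨al2, h2⟩ := splice h1 (a := (k, j1)) (b := (k', i1)) (by simp [hk, hne, a01])
    (by simp [hk', hne', b01]) (by simp [hne]) l1 (by simp only [r1, ← s1, ren_left, ren_right])
    (Or.inl (by simp only [ren_left, ren_right]))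
  obtain ⟨al3, h3⟩ := splice h2 (a := (k, j2)) (b := (k', i2)) (by simp [hk, hne, a02, a12])
    (by simp [hk', hne', b02, b12]) (by simp [hne]) l2
    (by simp only [r2, ← s2, ren_left, ren_right]) (Or.inl (by simp only [ren_left, ren_right]))
  refine ⟨al3, fun c => ren _ _ (ren _ _ (ren _ _ c)), valid_congr h3 ?_ fun x hx => ?_⟩
  · ext ⟨x, j⟩
    simp only [mem_product, mem_erase, mem_univ, and_true, ne_eq, Prod.mk.injEq, not_and]
    constructor
    · rintro ⟨x1, x2, x3⟩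
      simp [x1, x2, x3]
    · rintro ⟨x1, x2, x3, x4, x5, x6, x7⟩
      refine ⟨fun e => ?_, fun e => ?_, x7⟩
      · rcases hb j with e' | e' | e'
        · exact x5 e e'
        · exact x3 e e'
        · exact x1 e e'
      · rcases ha j with e' | e' | e'
        · exact x6 e e'
        · exact x4 e e'
        · exact x2 e e'
  · simp only [mem_product, mem_erase] at hx
    simp only [ren_left, ren_right, ren_self]
    exact (if_neg hx.1.1).symm

variable {W E Y : Type} (Γ : LG W E Y)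

lemma lt0 (c : (Γ.G × E) × Bool) :
    Γ.lt c 0 = ((c.1.1, Sum.inr (if c.2 then Γ.src c.1.2 else Γ.tgt c.1.2)), true) := rfl

lemma lt1 (c : (Γ.G × E) × Bool) :
    Γ.lt c 1 = ((c.1.1 * Γ.gen (Sum.inr (Γ.src c.1.2)), Sum.inl (Γ.lb c.1.2)), c.2) := rfl

lemma lt2 (c : (Γ.G × E) × Bool) :
    Γ.lt c 2 = ((c.1.1, Sum.inr (if c.2 then Γ.tgt c.1.2 else Γ.src c.1.2)), false) := rfl

lemma fin3 : ∀ j : Fin 3, j = 0 ∨ j = 1 ∨ j = 2 := by decide

lemma mir (c : (Γ.G × E) × Bool) : Γ.lt (c.1, !c.2) 0 = linv (Γ.lt c 2) ∧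
    Γ.lt (c.1, !c.2) 1 = linv (Γ.lt c 1) ∧ Γ.lt (c.1, !c.2) 2 = linv (Γ.lt c 0) := by
  obtain ⟨f, _ | _⟩ := c <;> exact ⟨rfl, rfl, rfl⟩

lemma reduced {κ C : Type} [DecidableEq κ] {I : Finset κ} {cell : κ → (Γ.G × E) × Bool}
    {al : κ × Fin 3 → κ × Fin 3} {L R : κ × Fin 3 → C} (h : TP Γ I cell al L R)
    (hm : ∀ k ∈ I, ∀ k' ∈ I, cell k' = ((cell k).1, !(cell k).2) →
      al (k, 2) ≠ (k', 0) ∧ al (k, 1) ≠ (k', 1)) : Nonempty (LabPic Γ I) := by
  have mem : ∀ k ∈ I, ∀ j : Fin 3, (k, j) ∈ I ×ˢ (univ : Finset (Fin 3)) := fun k hk j => by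
    simp [hk]
  have m1 : ∀ k ∈ I, ∀ j, (al (k, j)).1 ∈ I := fun k hk j =>
    (mem_product.1 (h.val.mem _ (mem k hk j))).1
  have lb : ∀ k ∈ I, ∀ j, Γ.lt (cell (al (k, j)).1) (al (k, j)).2 = linv (Γ.lt (cell k) j) :=
    fun k hk j => h.val.lab _ (mem k hk j)
  have t0 : ∀ k ∈ I, al (k, 0) = ((al (k, 0)).1, 2) := fun k hk => by
    have := lb k hk 0
    rcases fin3 (al (k, 0)).2 with e | e | e
    · rw [e] at this; simp [lt0, linv] at this
    · rw [e] at this; simp [lt0, lt1, linv] at this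
    · exact Prod.ext rfl e
  have t1 : ∀ k ∈ I, al (k, 1) = ((al (k, 1)).1, 1) := fun k hk => by
    have := lb k hk 1
    rcases fin3 (al (k, 1)).2 with e | e | e
    · rw [e] at this; simp [lt0, lt1, linv] at this
    · exact Prod.ext rfl e
    · rw [e] at this; simp [lt2, lt1, linv] at this
  have t2 : ∀ k ∈ I, al (k, 2) = ((al (k, 2)).1, 0) := fun k hk => by
    have := lb k hk 2
    rcases fin3 (al (k, 2)).2 with e | e | e
    · exact Prod.ext rfl e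
    · rw [e] at this; simp [lt2, lt1, linv] at this
    · rw [e] at this; simp [lt2, linv] at this
  have iv : ∀ k ∈ I, ∀ j, al (al (k, j)) = (k, j) := fun k hk j => h.val.inv _ (mem k hk j)
  let nu : Equiv.Perm I :=
    ⟨fun k => ⟨(al (k.1, 2)).1, m1 _ k.2 _⟩, fun k => ⟨(al (k.1, 0)).1, m1 _ k.2 _⟩,
      fun k => Subtype.ext (by simp only; rw [← t2 _ k.2, iv _ k.2]),
      fun k => Subtype.ext (by simp only; rw [← t0 _ k.2, iv _ k.2])⟩
  have mm : ∀ k : I, (al ((al (k.1, 1)).1, 1)).1 = k.1 := fun k => by rw [← t1 _ k.2, iv _ k.2]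
  let mu : Equiv.Perm I :=
    ⟨fun k => ⟨(al (k.1, 1)).1, m1 _ k.2 _⟩, fun k => ⟨(al (k.1, 1)).1, m1 _ k.2 _⟩,
      fun k => Subtype.ext (mm k), fun k => Subtype.ext (mm k)⟩
  have u0 : ∀ k : I, al (k.1, 0) = ((nu⁻¹ k).1, 2) := fun k => t0 _ k.2
  have u1 : ∀ k : I, al (k.1, 1) = ((mu k).1, 1) := fun k => t1 _ k.2
  have u2 : ∀ k : I, al (k.1, 2) = ((nu k).1, 0) := fun k => t2 _ k.2
  have nn : ∀ k, nu⁻¹ (nu k) = k := fun k => nu.symm_apply_apply k
  have mumu : ∀ k, mu (mu k) = k := fun k => Subtype.ext (mm k)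
  have v1 : ∀ k : I, Γ.lt (cell (mu k).1) 1 = linv (Γ.lt (cell k.1) 1) := fun k => by
    have := lb _ k.2 1
    rwa [u1] at this
  have v2 : ∀ k : I, Γ.lt (cell (nu k).1) 0 = linv (Γ.lt (cell k.1) 2) := fun k => by
    have := lb _ k.2 2
    rwa [u2] at this
  simp only [lt0, lt1, lt2, linv, Prod.mk.injEq, Sum.inl.injEq, Sum.inr.injEq] at v1 v2
  refine ⟨⟨nu, mu, fun k => (cell k.1).1.2, fun k => (cell k.1).2, fun k => (v2 k).1.2, mumu,
    fun k => (v1 k).2, fun k => (v1 k).1.2, fun k hk => ?_, fun k hk => ?_, fun u hu => ?_⟩⟩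
  · exact (hm _ k.2 _ (nu k).2 (Prod.ext (Prod.ext (v2 k).1.1 hk.1) hk.2)).1 (u2 k)
  · have e := (v1 k).1.1
    rw [show (cell (mu k).1).1.2 = (cell k.1).1.2 from hk] at e
    exact (hm _ k.2 _ (mu k).2 (Prod.ext (Prod.ext (mul_right_cancel e) hk) (v1 k).2)).2 (u1 k)
  · let z : κ × Fin 3 → ZMod 2 := fun x => if hx : x.1 ∈ I then
      ![u (nu⁻¹ ⟨x.1, hx⟩), u ⟨x.1, hx⟩ + u (nu⁻¹ ⟨x.1, hx⟩), u ⟨x.1, hx⟩] x.2 else 0
    have w0 : ∀ k : I, z (k.1, 0) = u (nu⁻¹ k) := fun k => dif_pos k.2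
    have w1 : ∀ k : I, z (k.1, 1) = u k + u (nu⁻¹ k) := fun k => dif_pos k.2
    have w2 : ∀ k : I, z (k.1, 2) = u k := fun k => dif_pos k.2
    obtain ⟨S, hS⟩ := h.val.pl z (fun ⟨k, j⟩ ha => by
      have hk : k ∈ I := (mem_product.1 ha).1
      rcases fin3 j with rfl | rfl | rfl
      · rw [u0 ⟨k, hk⟩, w2, w0 ⟨k, hk⟩]
      · rw [u1 ⟨k, hk⟩, w1, w1 ⟨k, hk⟩, hu]
      · rw [u2 ⟨k, hk⟩, w0, w2 ⟨k, hk⟩, nn]) fun k0 => by
      rw [sum_filter, sum_product]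
      refine sum_eq_zero fun k hk => ?_
      by_cases e : k = k0
      · simp only [e, if_true]
        rw [← e, Fin.sum_univ_three, w0 ⟨k, hk⟩, w1 ⟨k, hk⟩, w2 ⟨k, hk⟩]
        generalize u ⟨k, hk⟩ = a
        generalize u (nu⁻¹ ⟨k, hk⟩) = b
        revert a b
        decide
      · simp [e]
    have nm : ∀ (k : I) j, L (al (k.1, j)) = R (k.1, j) := fun k j => h.val.nm _ (mem _ k.2 j)
    have e1 : ∀ k : I, u k + S (L (k.1, 0)) = S (L (k.1, 2)) := fun k => by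
      rw [← w2, hS _ (mem _ k.2 2), h.c2 _ k.2, add_assoc, z2, add_zero]
    refine ⟨fun k => S (L (k.1, 0)), fun k => ?_, fun k => ?_⟩
    · simp only
      rw [← u2, nm, h.c2 _ k.2]
    · simp only
      rw [e1, e1, ← h.c1 _ (mu (nu k)).2, ← nm, u1, mumu, ← h.c0 _ (nu k).2, ← nm, u0,
        nn]

end D1c

open D1c

theorem labpic_of_tp {W E Y κ C : Type} [DecidableEq κ] (Γ : LG W E Y) (I : Finset κ)
    (cell : κ → (Γ.G × E) × Bool) (al : κ × Fin 3 → κ × Fin 3) (L R : κ × Fin 3 → C)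
    (h : TP Γ I cell al L R) (hz : ∑ k ∈ I, Γ.ch (cell k) ≠ 0) :
    ∃ (J : Type) (_ : Fintype J) (_ : Nonempty J), Nonempty (LabPic Γ J) := by
  induction I using Finset.strongInduction generalizing al L R with
  | H I ih =>
  by_cases hm : ∀ k ∈ I, ∀ k' ∈ I, cell k' = ((cell k).1, !(cell k).2) →
      al (k, 2) ≠ (k', 0) ∧ al (k, 1) ≠ (k', 1)
  · obtain ⟨k, hk, _⟩ := exists_ne_zero_of_sum_ne_zero hz
    exact ⟨I, inferInstance, ⟨⟨k, hk⟩⟩, reduced Γ h hm⟩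
  · simp only [not_forall, not_and_or, not_not] at hm
    obtain ⟨k, hk, k', hk', hc, hm⟩ := hm
    have hne : k ≠ k' := fun e => by
      have := congrArg Prod.snd hc
      rw [← e] at this
      simp at this
    obtain ⟨m0, m1, m2⟩ := mir Γ (cell k)
    rw [← hc] at m0 m1 m2
    obtain ⟨al', φ, hv⟩ : ∃ (al' : κ × Fin 3 → κ × Fin 3) (φ : C → C),
        Valid (((I.erase k).erase k') ×ˢ (univ : Finset (Fin 3))) al'
          (fun a => Γ.lt (cell a.1) a.2) Prod.fst (fun x => φ (L x)) (fun x => φ (R x)) := by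
      rcases hm with hm | hm
      · exact cancel h.val hk hk' hne (j0 := 2) (j1 := 1) (j2 := 0) (i0 := 0) (i1 := 1) (i2 := 2)
          (by decide) (by decide) (by decide) (by decide) (by decide) (by decide) (by decide)
          (by decide) (h.c1 k hk) (h.c0 k hk) (h.c0 k' hk') (h.c1 k' hk') m0 m1 m2 hm
      · exact cancel h.val hk hk' hne (j0 := 1) (j1 := 0) (j2 := 2) (i0 := 1) (i1 := 2) (i2 := 0)
          (by decide) (by decide) (by decide) (by decide) (by decide) (by decide) (by decide)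
          (by decide) (h.c0 k hk) (h.c2 k hk) (h.c1 k' hk') (h.c2 k' hk') m1 m2 m0 hm
    have hs : ∀ x ∈ (I.erase k).erase k', x ∈ I := fun x hx => mem_of_mem_erase (mem_of_mem_erase hx)
    refine ih ((I.erase k).erase k') ((erase_subset _ _).trans_ssubset (erase_ssubset hk)) al' _ _
      ⟨hv, fun x hx => congrArg φ (h.c0 x (hs x hx)), fun x hx => congrArg φ (h.c1 x (hs x hx)),
        fun x hx => congrArg φ (h.c2 x (hs x hx))⟩ fun e => hz ?_
    rw [← add_sum_erase I _ hk, ← add_sum_erase (I.erase k) _ (mem_erase.2 ⟨hne.symm, hk'⟩), e, hc]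
    obtain ⟨f, _ | _⟩ := cell k <;> simp [LG.ch]

end Vale.Agent.P201
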