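import Vale.Agent.P201.Defs

/-! Identities among relations and exactness in degree one. -/

namespace Vale.Agent.P201

open Finset

namespace D2

variable {W E Y : Type} (Γ : LG W E Y)

theorem rel (e : E) :
    Γ.gen (Sum.inr (Γ.src e)) * Γ.gen (Sum.inl (Γ.lb e)) = Γ.gen (Sum.inr (Γ.tgt e)) := by
  rw [← mul_inv_eq_one]
  exact PresentedGroup.one_of_mem (rels := Γ.rels) ⟨e, rfl⟩

theorem cw_true (f : Γ.G × E) : Γ.cw (f, true) = FreeGroup.of (f.1, Sum.inr (Γ.src f.2)) *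
    FreeGroup.of (f.1 * Γ.gen (Sum.inr (Γ.src f.2)), Sum.inl (Γ.lb f.2)) *
    (FreeGroup.of (f.1, Sum.inr (Γ.tgt f.2)))⁻¹ := rfl

theorem cw_false (f : Γ.G × E) : Γ.cw (f, false) = (Γ.cw (f, true))⁻¹ := rfl

theorem cw_not (c : (Γ.G × E) × Bool) : Γ.cw (c.1, !c.2) = (Γ.cw c)⁻¹ := by
  obtain ⟨f, _ | _⟩ := c
  · exact (inv_inv _).symm
  · rfl

theorem ch_not (c : (Γ.G × E) × Bool) : Γ.ch (c.1, !c.2) = - Γ.ch c := by
  obtain ⟨f, _ | _⟩ := c <;> simp [LG.ch]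

/-- `w` is a product of conjugates of cells with total chain `z` -/
def Rep (w : FreeGroup (Γ.G × (Y ⊕ W))) (z : (Γ.G × E) →₀ ℤ) : Prop :=
  ∃ cs : List (FreeGroup (Γ.G × (Y ⊕ W)) × ((Γ.G × E) × Bool)),
    (cs.map fun c => c.1 * Γ.cw c.2 * c.1⁻¹).prod = w ∧ (cs.map fun c => Γ.ch c.2).sum = z

variable {Γ}

theorem Rep.one : Rep Γ 1 0 := ⟨[], rfl, rfl⟩

theorem Rep.cell (u : FreeGroup (Γ.G × (Y ⊕ W))) (c : (Γ.G × E) × Bool) :
    Rep Γ (u * Γ.cw c * u⁻¹) (Γ.ch c) := ⟨[(u, c)], by simp, by simp⟩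

theorem Rep.mul {w w' z z'} (h : Rep Γ w z) (h' : Rep Γ w' z') : Rep Γ (w * w') (z + z') := by
  obtain ⟨cs, rfl, rfl⟩ := h
  obtain ⟨cs', rfl, rfl⟩ := h'
  exact ⟨cs ++ cs', by simp, by simp⟩

theorem Rep.ind {P : FreeGroup (Γ.G × (Y ⊕ W)) → ((Γ.G × E) →₀ ℤ) → Prop} (h0 : P 1 0)
    (h1 : ∀ u c w z, P w z → P (u * Γ.cw c * u⁻¹ * w) (Γ.ch c + z)) {w z} (h : Rep Γ w z) :
    P w z := by
  obtain ⟨cs, rfl, rfl⟩ := h
  induction cs with
  | nil => exact h0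
  | cons c cs ih => exact h1 _ _ _ _ ih

theorem Rep.inv {w z} (h : Rep Γ w z) : Rep Γ w⁻¹ (-z) := by
  refine h.ind (P := fun w z => Rep Γ w⁻¹ (-z)) (by simpa using Rep.one) fun u c w z ih => ?_
  have := ih.mul (Rep.cell u (c.1, !c.2))
  rw [cw_not, ch_not] at this
  simpa [mul_assoc] using this

theorem Rep.conj {w z} (h : Rep Γ w z) (v : FreeGroup (Γ.G × (Y ⊕ W))) :
    Rep Γ (v * w * v⁻¹) z := by
  refine h.ind (P := fun w z => Rep Γ (v * w * v⁻¹) z) (by simpa using Rep.one)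
    fun u c w z ih => ?_
  simpa [mul_assoc] using (Rep.cell (v * u) c).mul ih

theorem exists_rep (z : (Γ.G × E) →₀ ℤ) : ∃ w, Rep Γ w z := by
  induction z using Finsupp.induction_linear with
  | zero => exact ⟨1, Rep.one⟩
  | add f g hf hg => exact let ⟨_, h⟩ := hf; let ⟨_, h'⟩ := hg; ⟨_, h.mul h'⟩
  | single f n =>
    induction n using Int.induction_on with
    | zero => exact ⟨1, by simpa using Rep.one⟩
    | succ n ih =>
      obtain ⟨w, h⟩ := ih
      exact ⟨_, by simpa [LG.ch] using h.mul (Rep.cell 1 (f, true))⟩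
    | pred n ih =>
      obtain ⟨w, h⟩ := ih
      exact ⟨_, by simpa [LG.ch, sub_eq_add_neg] using h.mul (Rep.cell 1 (f, false))⟩

variable (Γ)

/-- the normal closure of the cells -/
def N : Subgroup (FreeGroup (Γ.G × (Y ⊕ W))) where
  carrier := {w | ∃ z, Rep Γ w z}
  one_mem' := ⟨0, Rep.one⟩
  mul_mem' := fun ⟨_, h⟩ ⟨_, h'⟩ => ⟨_, h.mul h'⟩
  inv_mem' := fun ⟨_, h⟩ => ⟨_, h.inv⟩

instance : (N Γ).Normal := ⟨fun _ ⟨_, h⟩ v => ⟨_, h.conj v⟩⟩

/-- products with trivial chain -/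
def N0 : Subgroup (FreeGroup (Γ.G × (Y ⊕ W))) where
  carrier := {w | Rep Γ w 0}
  one_mem' := Rep.one
  mul_mem' := fun h h' => by simpa using Rep.mul h h'
  inv_mem' := fun h => by simpa using Rep.inv h

instance : (N0 Γ).Normal := ⟨fun _ h v => Rep.conj h v⟩

/-- right translation of functions -/
def tr (G Q : Type) [Group G] [Group Q] : G →* MulAut (G → Q) where
  toFun a :=
    { toFun := fun f g => f (g * a)
      invFun := fun f g => f (g * a⁻¹)
      left_inv := fun f => by simp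
      right_inv := fun f => by simp
      map_mul' := fun _ _ => rfl }
  map_one' := by ext; simp
  map_mul' := fun a b => by ext; simp [mul_assoc]

theorem exists_path : ∃ p : Γ.G → FreeGroup (Γ.G × (Y ⊕ W)), ∀ x : Γ.G × (Y ⊕ W),
    p x.1 * FreeGroup.of x * (p (x.1 * Γ.gen x.2))⁻¹ ∈ N Γ := by
  let Q := FreeGroup (Γ.G × (Y ⊕ W)) ⧸ N Γ
  let f : Y ⊕ W → (Γ.G → Q) ⋊[tr Γ.G Q] Γ.G := fun y =>
    ⟨fun g => QuotientGroup.mk (FreeGroup.of (g, y)), Γ.gen y⟩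
  have hf : ∀ r ∈ Γ.rels, FreeGroup.lift f r = 1 := by
    rintro _ ⟨e, rfl⟩
    simp only [map_mul, map_inv, FreeGroup.lift_apply_of, mul_inv_eq_one]
    refine SemidirectProduct.ext (funext fun g => ?_) (rel Γ e)
    change (QuotientGroup.mk _ * QuotientGroup.mk _ : Q) = QuotientGroup.mk _
    rw [← mul_inv_eq_one, ← QuotientGroup.mk_mul, ← QuotientGroup.mk_inv, ← QuotientGroup.mk_mul,
      QuotientGroup.eq_one_iff]
    exact ⟨_, by simpa [cw_true] using Rep.cell (Γ := Γ) 1 ((g, e), true)⟩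
  let Ψ := PresentedGroup.toGroup hf
  have h1 : ∀ g, (Ψ g).right = g := fun g =>
    DFunLike.congr_fun (PresentedGroup.ext (φ := SemidirectProduct.rightHom.comp Ψ)
      (ψ := MonoidHom.id _) fun y => by simp [Ψ, f, LG.gen]) g
  refine ⟨fun g => ((Ψ g).left 1).out, fun x => ?_⟩
  rw [← QuotientGroup.eq_one_iff, QuotientGroup.mk_mul, QuotientGroup.mk_mul, QuotientGroup.mk_inv,
    QuotientGroup.out_eq', QuotientGroup.out_eq', mul_inv_eq_one, map_mul,
    SemidirectProduct.mul_left, h1]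
  have : Ψ (Γ.gen x.2) = f x.2 := PresentedGroup.toGroup.of hf
  rw [this]
  simp [tr, f]

end D2

open D2

theorem hurewicz {W E Y : Type} (Γ : LG W E Y) (z : (Γ.G × E) →₀ ℤ) (hz : Γ.bd2 ℤ z = 0) :
    ∃ cs : List (FreeGroup (Γ.G × (Y ⊕ W)) × ((Γ.G × E) × Bool)),
      (cs.map fun c => c.1 * Γ.cw c.2 * c.1⁻¹).prod = 1 ∧ (cs.map fun c => Γ.ch c.2).sum = z := by
  obtain ⟨p, hp⟩ := exists_path Γ
  let K := FreeGroup (Γ.G × (Y ⊕ W)) ⧸ N0 Γ
  have cj : ∀ w ∈ N Γ, ∀ u, (QuotientGroup.mk (u * w * u⁻¹) : K) = QuotientGroup.mk w := by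
    rintro w ⟨z, h⟩ u
    rw [QuotientGroup.eq]
    have := (h.conj u).inv.mul h
    rw [neg_add_cancel] at this
    exact this
  have cen : ∀ w ∈ N Γ, (QuotientGroup.mk w : K) ∈ Subgroup.center K := fun w hw =>
    Subgroup.mem_center_iff.2 fun g => by
      induction g using QuotientGroup.induction_on with
      | H u => rw [← QuotientGroup.mk_mul, ← cj w hw u, ← QuotientGroup.mk_mul]; simp
  let _ : CommGroup (Subgroup.center K) :=
    { (inferInstance : Group (Subgroup.center K)) with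
      mul_comm := fun a b => Subtype.ext (Subgroup.mem_center_iff.1 b.2 a) }
  let θ : ((Γ.G × (Y ⊕ W)) →₀ ℤ) →ₗ[ℤ] Additive (Subgroup.center K) :=
    Finsupp.linearCombination ℤ fun x =>
      Additive.ofMul (⟨_, cen _ (hp x)⟩ : Subgroup.center K)
  have hc : ∀ c, Γ.cw c ∈ N Γ := fun c => ⟨_, by simpa using Rep.cell (Γ := Γ) 1 c⟩
  have k1 : ∀ f, ((θ (Γ.bd2 ℤ (Γ.ch (f, true)))).toMul : K) = QuotientGroup.mk (Γ.cw (f, true)) := by
    intro f
    rw [← cj _ (hc _) (p f.1)]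
    simp only [θ, LG.ch, LG.bd2, if_true, Finsupp.linearCombination_single, one_smul, map_sub,
      map_add, toMul_sub, toMul_add, toMul_ofMul, div_eq_mul_inv, Subgroup.coe_mul,
      Subgroup.coe_inv, QuotientGroup.mk_inv, QuotientGroup.mk_mul, cw_true, mul_assoc f.1, rel]
    group
  have k2 : ∀ c, ((θ (Γ.bd2 ℤ (Γ.ch c))).toMul : K) = QuotientGroup.mk (Γ.cw c) := by
    rintro ⟨f, _ | _⟩
    · rw [show Γ.ch (f, false) = - Γ.ch (f, true) from ch_not Γ (f, true), map_neg, map_neg,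
        toMul_neg, Subgroup.coe_inv, k1, cw_false, QuotientGroup.mk_inv]
    · exact k1 f
  obtain ⟨w, hw⟩ := exists_rep z
  have k3 : ((θ (Γ.bd2 ℤ z)).toMul : K) = QuotientGroup.mk w :=
    hw.ind (P := fun w z => ((θ (Γ.bd2 ℤ z)).toMul : K) = QuotientGroup.mk w) (by simp)
      fun u c w z ih => by
        rw [map_add, map_add, toMul_add, Subgroup.coe_mul, ih, k2, QuotientGroup.mk_mul,
          cj _ (hc c)]
  rw [hz, map_zero] at k3
  have k4 : Rep Γ w 0 := (QuotientGroup.eq_one_iff w).1 k3.symm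
  have := k4.inv.mul hw
  rw [inv_mul_cancel, neg_zero, zero_add] at this
  exact this

theorem exact1 {W E Y : Type} (Γ : LG W E Y) (y : (Γ.G × (Y ⊕ W)) →₀ ℤ) (hy : Γ.bd1 ℤ y = 0) :
    ∃ z, Γ.bd2 ℤ z = y := by
  obtain ⟨p, hp⟩ := exists_path Γ
  let ab : FreeGroup (Γ.G × (Y ⊕ W)) →* Multiplicative ((Γ.G × (Y ⊕ W)) →₀ ℤ) :=
    FreeGroup.lift fun x => Multiplicative.ofAdd (Finsupp.single x 1)
  have k1 : ∀ f, (ab (Γ.cw (f, true))).toAdd = Γ.bd2 ℤ (Γ.ch (f, true)) := fun f => by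
    simp [ab, cw_true, LG.ch, LG.bd2, sub_eq_add_neg]
  have k2 : ∀ c, (ab (Γ.cw c)).toAdd = Γ.bd2 ℤ (Γ.ch c) := by
    rintro ⟨f, _ | _⟩
    · rw [show Γ.ch (f, false) = - Γ.ch (f, true) from ch_not Γ (f, true), map_neg, cw_false,
        map_inv, toAdd_inv, k1]
    · exact k1 f
  have k3 : ∀ w z, Rep Γ w z → (ab w).toAdd = Γ.bd2 ℤ z := fun w z h =>
    h.ind (P := fun w z => (ab w).toAdd = Γ.bd2 ℤ z) (by simp) fun u c w z ih => by
      rw [map_mul ab, map_mul ab, map_mul ab, map_inv ab, mul_inv_cancel_comm, toAdd_mul, ih, k2,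
        map_add]
  let F : (Γ.G →₀ ℤ) →ₗ[ℤ] ((Γ.G × (Y ⊕ W)) →₀ ℤ) :=
    Finsupp.linearCombination ℤ fun g => (ab (p g)).toAdd
  have k4 : ∀ y, y - F (Γ.bd1 ℤ y) ∈ LinearMap.range (Γ.bd2 ℤ) := fun y => by
    induction y using Finsupp.induction_linear with
    | zero => simp
    | add f g hf hg => simpa [add_sub_add_comm] using add_mem hf hg
    | single x n =>
      obtain ⟨z, hz⟩ := hp x
      refine ⟨n • z, ?_⟩
      rw [map_smul, ← k3 _ _ hz]
      simp only [F, ab, LG.bd1, map_mul, map_inv, toAdd_mul, toAdd_inv, FreeGroup.lift_apply_of,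
        toAdd_ofAdd, Finsupp.linearCombination_single, map_sub, smul_add,
        smul_sub, smul_neg, Finsupp.smul_single, smul_eq_mul, mul_one]
      abel
  simpa [hy] using k4 y

end Vale.Agent.P201
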