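import Vale.Agent.P201.Defs

/-! Torsion freeness and injectivity modulo two from exactness of the cellular chain complex. -/

namespace Vale.Agent.P201

open Finset

theorem gen_rel {W E Y : Type} (Γ : LG W E Y) (e : E) :
    Γ.gen (Sum.inr (Γ.src e)) * Γ.gen (Sum.inl (Γ.lb e)) = Γ.gen (Sum.inr (Γ.tgt e)) := by
  rw [← mul_inv_eq_one]
  exact PresentedGroup.one_of_mem (rels := Γ.rels) ⟨e, rfl⟩

theorem bd1_bd2 {W E Y : Type} (Γ : LG W E Y) (R : Type) [CommRing R] (z : (Γ.G × E) →₀ R) :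
    Γ.bd1 R (Γ.bd2 R z) = 0 := by
  induction z using Finsupp.induction_linear with
  | zero => simp
  | add f g hf hg => rw [map_add, map_add, hf, hg, add_zero]
  | single x c =>
    simp only [LG.bd1, LG.bd2, Finsupp.linearCombination_single, map_smul, map_sub, map_add,
      one_smul, mul_assoc, gen_rel]
    rw [show ∀ a b c : Γ.G →₀ R, a - b + (c - a) - (c - b) = 0 from fun a b c => by abel,
      smul_zero]

namespace D2b

/-- The shift of chains along a permutation. -/
noncomputable def sh {X : Type} (σ : Equiv.Perm X) : Module.End ℤ (X →₀ ℤ) :=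
  Finsupp.lmapDomain ℤ ℤ σ

lemma sh_single {X : Type} (σ : Equiv.Perm X) (x : X) (c : ℤ) :
    sh σ (Finsupp.single x c) = Finsupp.single (σ x) c := by
  simp [sh]

lemma sh_pow {X : Type} (σ : Equiv.Perm X) (j : ℕ) (x : X) (c : ℤ) :
    (sh σ ^ j) (Finsupp.single x c) = Finsupp.single ((σ ^ j) x) c := by
  induction j with
  | zero => simp
  | succ j ih => rw [pow_succ', pow_succ', Module.End.mul_apply, ih, sh_single]; rfl

lemma sh_pow_one {X : Type} {σ : Equiv.Perm X} {n : ℕ} (h : σ ^ n = 1) : sh σ ^ n = 1 := by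
  refine Finsupp.lhom_ext fun x c => ?_
  rw [sh_pow, h]; rfl

/-- The norm element. -/
noncomputable def nr {X : Type} (σ : Equiv.Perm X) (n : ℕ) : Module.End ℤ (X →₀ ℤ) :=
  ∑ j ∈ range n, sh σ ^ j

lemma nr_sh {X : Type} {σ : Equiv.Perm X} {n : ℕ} (h : σ ^ n = 1) (f : X →₀ ℤ) :
    nr σ n (sh σ f - f) = 0 := by
  have := geom_sum_mul (sh σ) n
  rw [sh_pow_one h, sub_self] at this
  exact LinearMap.congr_fun this f

lemma sh_nr {X : Type} {σ : Equiv.Perm X} {n : ℕ} (h : σ ^ n = 1) (f : X →₀ ℤ) :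
    sh σ (nr σ n f) - nr σ n f = 0 := by
  have := mul_geom_sum (sh σ) n
  rw [sh_pow_one h, sub_self] at this
  exact LinearMap.congr_fun this f

lemma nr_comm {X X' : Type} {σ : Equiv.Perm X} {σ' : Equiv.Perm X'}
    (φ : (X →₀ ℤ) →ₗ[ℤ] (X' →₀ ℤ)) (h : ∀ f, φ (sh σ f) = sh σ' (φ f)) (n : ℕ) (f : X →₀ ℤ) :
    φ (nr σ n f) = nr σ' n (φ f) := by
  simp only [nr, LinearMap.sum_apply, map_sum]
  refine sum_congr rfl fun j hj => ?_
  clear hj
  induction j with
  | zero => simp
  | succ j ih => rw [pow_succ', pow_succ', Module.End.mul_apply, Module.End.mul_apply, h, ih]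

lemma reps {X : Type} {σ : Equiv.Perm X} {n : ℕ} (hn : 0 < n) (h : σ ^ n = 1) :
    ∃ r : X → X, (∀ x, r (σ x) = r x) ∧ ∀ x, ∃ j < n, (σ ^ j) x = r x := by
  refine ⟨fun x => (Quotient.mk (Equiv.Perm.SameCycle.setoid σ) x).out, fun x => ?_, fun x => ?_⟩
  · exact congrArg Quotient.out (Quotient.sound (s := Equiv.Perm.SameCycle.setoid σ)
      (Equiv.Perm.sameCycle_apply_left.2 (Equiv.Perm.SameCycle.refl σ x)))
  · obtain ⟨i, hi⟩ : σ.SameCycle x (Quotient.mk (Equiv.Perm.SameCycle.setoid σ) x).out :=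
      Equiv.Perm.SameCycle.symm (Quotient.mk_out (s := Equiv.Perm.SameCycle.setoid σ) x)
    have h0 : (0 : ℤ) ≤ i % n := Int.emod_nonneg _ (by omega)
    have h1 : i % n < n := Int.emod_lt_of_pos _ (by omega)
    refine ⟨(i % n).toNat, by omega, ?_⟩
    refine Eq.trans ?_ hi
    rw [← zpow_natCast, Int.toNat_of_nonneg h0]
    conv_rhs => rw [← Int.emod_add_mul_ediv i n, zpow_add, zpow_mul, zpow_natCast, h, one_zpow,
      mul_one]

lemma free {X : Type} {σ : Equiv.Perm X} {n : ℕ} (hn : 0 < n) (h : σ ^ n = 1)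
    (hf : ∀ x j j', j < n → j' < n → (σ ^ j) x = (σ ^ j') x → j = j') :
    (∀ f, sh σ f - f = 0 → ∃ f0, f = nr σ n f0) ∧
      ∀ f, nr σ n f = 0 → ∃ f0, f = sh σ f0 - f0 := by
  classical
  obtain ⟨r, r1, r2⟩ := reps hn h
  have r3 : ∀ (j : ℕ) x, r ((σ ^ j) x) = r x := fun j x => by
    induction j with
    | zero => rfl
    | succ j ih => rw [pow_succ', Equiv.Perm.mul_apply, r1, ih]
  have r4 : ∀ x, r (r x) = r x := fun x => by
    obtain ⟨j, _, e⟩ := r2 x
    rw [← e, r3, e]
  have k1 : ∀ f : X →₀ ℤ, (nr σ n f).filter (fun x => r x = x) = f.mapDomain r := fun f => by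
    induction f using Finsupp.induction_linear with
    | zero => rw [map_zero, Finsupp.filter_zero, Finsupp.mapDomain_zero]
    | add f g hf hg => rw [map_add, Finsupp.filter_add, hf, hg, Finsupp.mapDomain_add]
    | single x c =>
      obtain ⟨j, hj, e⟩ := r2 x
      simp only [nr, LinearMap.sum_apply, sh_pow, Finsupp.filter_sum, Finsupp.mapDomain_single]
      rw [sum_eq_single j, e, Finsupp.filter_single_of_pos (fun x => r x = x) (r4 x)]
      · intro j' hj' hne
        refine Finsupp.filter_single_of_neg (fun x => r x = x) fun e' => hne (hf x _ _ (mem_range.1 hj') hj ?_)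
        rw [← e', r3, e]
      · exact fun h' => absurd (mem_range.2 hj) h'
  have k2 : ∀ f : X →₀ ℤ, sh σ f - f = 0 → f.filter (fun x => r x = x) = 0 → f = 0 := by
    intro f h1 h2
    have h3 : ∀ x, f (σ x) = f x := fun x => by
      conv_lhs => rw [← sub_eq_zero.1 h1]
      exact Finsupp.mapDomain_apply σ.injective f x
    have h4 : ∀ (j : ℕ) x, f ((σ ^ j) x) = f x := fun j x => by
      induction j with
      | zero => rfl
      | succ j ih => rw [pow_succ', Equiv.Perm.mul_apply, h3, ih]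
    ext x
    obtain ⟨j, _, e⟩ := r2 x
    have := DFunLike.congr_fun h2 (r x)
    rw [Finsupp.filter_apply_pos (fun x => r x = x) _ (r4 x), ← e, h4] at this
    exact this
  have k3 : ∀ f : X →₀ ℤ, (f.filter fun x => r x = x).mapDomain r = f.filter fun x => r x = x := by
    intro f
    conv_rhs => rw [← Finsupp.mapDomain_id (v := f.filter fun x => r x = x)]
    refine Finsupp.mapDomain_congr fun x hx => ?_
    rw [Finsupp.support_filter, mem_filter] at hx
    exact hx.2
  have k4 : ∀ f : X →₀ ℤ, ∃ f0, f.mapDomain r - f = sh σ f0 - f0 := fun f => by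
    induction f using Finsupp.induction_linear with
    | zero => exact ⟨0, by simp⟩
    | add f g hf hg =>
      obtain ⟨f0, hf⟩ := hf
      obtain ⟨g0, hg⟩ := hg
      exact ⟨f0 + g0, by rw [Finsupp.mapDomain_add, map_add, add_sub_add_comm, hf, hg]; abel⟩
    | single x c =>
      obtain ⟨j, _, e⟩ := r2 x
      refine ⟨nr σ j (Finsupp.single x c), ?_⟩
      have := LinearMap.congr_fun (mul_geom_sum (sh σ) j) (Finsupp.single x c)
      rw [Finsupp.mapDomain_single, ← e, ← sh_pow]
      exact this.symm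
  refine ⟨fun f hf => ⟨f.filter fun x => r x = x, ?_⟩, fun f hf => ?_⟩
  · rw [← sub_eq_zero]
    refine k2 _ ?_ ?_
    · rw [map_sub, sub_sub_sub_comm, hf, sh_nr h, sub_self]
    · rw [Finsupp.filter_sub, k1, k3, sub_self]
  · obtain ⟨f0, e⟩ := k4 f
    rw [← k1, hf, Finsupp.filter_zero, zero_sub] at e
    exact ⟨-f0, by rw [map_neg, neg_sub_neg, ← neg_sub, ← e, neg_neg]⟩

/-- Left multiplication in the first coordinate. -/
def lm {G : Type} [Group G] (J : Type) (g : G) : Equiv.Perm (G × J) :=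
  Equiv.prodCongr (Equiv.mulLeft g) (Equiv.refl J)

lemma lm_pow {G : Type} [Group G] (J : Type) (g : G) (j : ℕ) (x : G × J) :
    (lm J g ^ j) x = (g ^ j * x.1, x.2) := by
  induction j with
  | zero => simp
  | succ j ih => rw [pow_succ', Equiv.Perm.mul_apply, ih, pow_succ', mul_assoc]; rfl

lemma ml_pow {G : Type} [Group G] (g : G) (j : ℕ) (x : G) :
    (Equiv.mulLeft g ^ j) x = g ^ j * x := by
  induction j with
  | zero => simp
  | succ j ih => rw [pow_succ', Equiv.Perm.mul_apply, ih, pow_succ', mul_assoc]; rfl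

lemma exact0 {W E Y : Type} (Γ : LG W E Y) (g h : Γ.G) :
    Finsupp.single (h * g) (1 : ℤ) - Finsupp.single h 1 ∈ LinearMap.range (Γ.bd1 ℤ) := by
  let H : Subgroup Γ.G :=
    { carrier := {g | ∀ h, Finsupp.single (h * g) (1 : ℤ) - Finsupp.single h 1 ∈
        LinearMap.range (Γ.bd1 ℤ)}
      one_mem' := fun h => by simp
      mul_mem' := fun {a b} ha hb h => by
        have := add_mem (hb (h * a)) (ha h)
        rwa [sub_add_sub_cancel, mul_assoc] at this
      inv_mem' := fun {a} ha h => by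
        have := neg_mem (ha (h * a⁻¹))
        rwa [neg_sub, inv_mul_cancel_right] at this }
  refine PresentedGroup.generated_by Γ.rels H (fun y h => ⟨Finsupp.single (h, y) 1, ?_⟩) g h
  simp [LG.bd1, LG.gen]

end D2b

open D2b

theorem tate {W E Y : Type} (Γ : LG W E Y) (h2 : Function.Injective (Γ.bd2 ℤ))
    (h1 : ∀ y, Γ.bd1 ℤ y = 0 → ∃ z, Γ.bd2 ℤ z = y) (g : Γ.G) (hg : IsOfFinOrder g) : g = 1 := by
  have hn : 0 < orderOf g := hg.orderOf_pos
  have hp : ∀ j j', j < orderOf g → j' < orderOf g → g ^ j = g ^ j' → j = j' :=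
    fun j j' a b e => pow_injOn_Iio_orderOf a b e
  have p0 : Equiv.mulLeft g ^ orderOf g = 1 := Equiv.ext fun x => by
    rw [ml_pow, pow_orderOf_eq_one, one_mul]; rfl
  have p1 : ∀ J : Type, lm J g ^ orderOf g = 1 := fun J => Equiv.ext fun x => by
    rw [lm_pow, pow_orderOf_eq_one, one_mul]; rfl
  have f0 := free hn p0 fun x j j' a b e => hp j j' a b (by
    rw [ml_pow, ml_pow] at e; exact mul_right_cancel e)
  have f1 := fun J : Type => free hn (p1 J) fun x j j' a b e => hp j j' a b (by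
    rw [lm_pow, lm_pow] at e; exact mul_right_cancel (congrArg Prod.fst e))
  have e1 : ∀ f, Γ.bd1 ℤ (sh (lm _ g) f) = sh (Equiv.mulLeft g) (Γ.bd1 ℤ f) := fun f => by
    induction f using Finsupp.induction_linear with
    | zero => simp
    | add f f' hf hf' => simp only [map_add, hf, hf']
    | single x c =>
      simp only [sh_single, LG.bd1, Finsupp.linearCombination_single, map_smul, map_sub]
      simp [lm, mul_assoc]
  have e2 : ∀ f, Γ.bd2 ℤ (sh (lm _ g) f) = sh (lm _ g) (Γ.bd2 ℤ f) := fun f => by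
    induction f using Finsupp.induction_linear with
    | zero => simp
    | add f f' hf hf' => simp only [map_add, hf, hf']
    | single x c =>
      simp only [sh_single, LG.bd2, Finsupp.linearCombination_single, map_smul, map_sub, map_add]
      simp [lm, mul_assoc]
  obtain ⟨c1, hc1⟩ := exact0 Γ g 1
  have hc0 : Γ.bd1 ℤ c1 = sh (Equiv.mulLeft g) (Finsupp.single 1 1) - Finsupp.single 1 1 := by
    rw [hc1, sh_single]; simp
  obtain ⟨c2, hc2⟩ := h1 (nr (lm _ g) (orderOf g) c1) (by rw [nr_comm _ e1, hc0, nr_sh p0])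
  obtain ⟨c2', rfl⟩ := (f1 E).1 c2 (h2 (by rw [map_sub, e2, hc2, sh_nr (p1 _), map_zero]))
  obtain ⟨c1', hc1'⟩ := (f1 _).2 (c1 - Γ.bd2 ℤ c2') (by rw [map_sub, ← hc2, nr_comm _ e2, sub_self])
  have h3 := congrArg (Γ.bd1 ℤ) hc1'
  rw [map_sub, bd1_bd2, sub_zero, hc0, map_sub, e1] at h3
  obtain ⟨c0', hc0'⟩ := f0.1 (Finsupp.single 1 1 - Γ.bd1 ℤ c1')
    (by rw [map_sub, sub_sub_sub_comm, h3, sub_self])
  let ε : (Γ.G →₀ ℤ) →ₗ[ℤ] ℤ := Finsupp.linearCombination ℤ fun _ => 1
  have a1 : ∀ f, ε (Γ.bd1 ℤ f) = 0 := fun f => by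
    induction f using Finsupp.induction_linear with
    | zero => simp
    | add f f' hf hf' => simp only [map_add, hf, hf', add_zero]
    | single x c => simp [ε, LG.bd1]
  have a2 : ∀ f, ε (nr (Equiv.mulLeft g) (orderOf g) f) = orderOf g * ε f := fun f => by
    induction f using Finsupp.induction_linear with
    | zero => simp
    | add f f' hf hf' => simp only [map_add, hf, hf', mul_add]
    | single x c => simp [ε, nr, sh_pow]
  have h4 := congrArg ε hc0'
  rw [map_sub, a1, a2, sub_zero] at h4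
  have h5 : (orderOf g : ℤ) ∣ 1 := ⟨ε c0', by rw [← h4]; simp [ε]⟩
  exact orderOf_eq_one_iff.1 (by exact_mod_cast Int.eq_one_of_dvd_one (by omega) h5)

theorem inj2 {W E Y : Type} (Γ : LG W E Y) (h2 : Function.Injective (Γ.bd2 ℤ))
    (h1 : ∀ y, Γ.bd1 ℤ y = 0 → ∃ z, Γ.bd2 ℤ z = y) : Function.Injective (Γ.bd2 (ZMod 2)) := by
  let π : ∀ X : Type, (X →₀ ℤ) →+ (X →₀ ZMod 2) := fun X =>
    Finsupp.mapRange.addMonoidHom (Int.castAddHom (ZMod 2))
  have p1 : ∀ (X : Type) (f : X →₀ ℤ) x, π X f x = (f x : ZMod 2) := fun X f x => by simp [π]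
  have p2 : ∀ f, π _ (Γ.bd2 ℤ f) = Γ.bd2 (ZMod 2) (π _ f) := fun f => by
    induction f using Finsupp.induction_linear with
    | zero => simp
    | add f f' hf hf' => simp only [map_add, hf, hf']
    | single x c =>
      have p3 : ∀ (X : Type) (y : X) (c : ℤ), π X (Finsupp.single y c) =
          Finsupp.single y (c : ZMod 2) := fun X y c => by simp [π]
      simp only [LG.bd2, Finsupp.linearCombination_single, smul_sub, smul_add, map_sub, map_add,
        Finsupp.smul_single, smul_eq_mul, mul_one, p3]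
  rw [injective_iff_map_eq_zero]
  intro z hz
  obtain ⟨w, rfl⟩ : ∃ w, π _ w = z :=
    ⟨z.mapRange (fun c => (c.val : ℤ)) (by simp), by ext x; simp [p1]⟩
  rw [← p2] at hz
  have e : Γ.bd2 ℤ w = (2 : ℤ) • (Γ.bd2 ℤ w).mapRange (fun c => c / 2) (by simp) := by
    ext x
    have := DFunLike.congr_fun hz x
    rw [p1, Finsupp.zero_apply, ZMod.intCast_zmod_eq_zero_iff_dvd] at this
    simp only [Finsupp.smul_apply, Finsupp.mapRange_apply, smul_eq_mul]
    omega
  obtain ⟨z', hz'⟩ := h1 ((Γ.bd2 ℤ w).mapRange (fun c => c / 2) (by simp)) (by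
    have := bd1_bd2 Γ ℤ w
    rw [e, map_smul] at this
    exact (smul_eq_zero.1 this).resolve_left (by norm_num))
  rw [← hz', ← map_smul] at e
  rw [h2 e]
  ext x
  rw [p1, Finsupp.zero_apply, ZMod.intCast_zmod_eq_zero_iff_dvd]
  simp

end Vale.Agent.P201
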