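import Vale.Agent.P201.D3a

/-! Part D3 of P201: sparsity of minors of planar maps. -/

namespace Vale.Agent.P201

open Finset

namespace D3

variable {D V Cl : Type} [Fintype D] [Fintype V] [DecidableEq D] [DecidableEq V] [DecidableEq Cl]

lemma dbl {α : Type} (x : α → ZMod 2) : x + x = 0 := by
  ext a; exact CharTwo.add_self_eq_zero _

/-- Indicator of an edge. -/
def ed (ι : D → D) (d : D) : D → ZMod 2 := Pi.single d 1 + Pi.single (ι d) 1

omit [Fintype D] in
lemma ed_symm {ι : D → D} (hι : ∀ d, ι (ι d) = d) (d x : D) : ed ι d (ι x) = ed ι d x := by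
  have e1 : ι x = d ↔ x = ι d := ⟨fun h => by rw [← h, hι], fun h => by rw [h, hι]⟩
  have e2 : ι x = ι d ↔ x = d := ⟨fun h => by rw [← hι x, h, hι], fun h => by rw [h]⟩
  simp only [ed, Pi.add_apply, Pi.single_apply, e1, e2, add_comm]

/-- Sums over the fibres of a map. -/
def push {α β : Type} [Fintype α] [DecidableEq β] (v : α → β) :
    (α → ZMod 2) →ₗ[ZMod 2] (β → ZMod 2) where
  toFun z x := ∑ d ∈ univ.filter (fun d => v d = x), z d
  map_add' _ _ := by ext x; simp [sum_add_distrib]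
  map_smul' _ _ := by ext x; simp [mul_sum]

lemma push_single {α β : Type} [Fintype α] [DecidableEq α] [DecidableEq β] (v : α → β) (d : α) :
    push v (Pi.single d 1) = Pi.single (v d) 1 := by
  ext x
  simp [push, Pi.single_apply, eq_comm]

lemma push_comp {α β γ : Type} [Fintype α] [Fintype β] [DecidableEq α] [DecidableEq β]
    [DecidableEq γ] (v : α → β) (c : β → γ) (z : α → ZMod 2) :
    push c (push v z) = push (fun d => c (v d)) z := by
  have : push c ∘ₗ push v = push (fun d => c (v d)) :=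
    LinearMap.pi_ext' fun d => LinearMap.ext_ring (by simp [push_single])
  exact LinearMap.congr_fun this z

lemma push_ed (ι : D → D) {β : Type} [DecidableEq β] (v : D → β) (d : D) :
    push v (ed ι d) = Pi.single (v d) 1 + Pi.single (v (ι d)) 1 := by
  rw [ed, map_add, push_single, push_single]

/-- Symmetric functions supported inside the clusters. -/
def Intra (ι : D → D) (c : D → Cl) : Submodule (ZMod 2) (D → ZMod 2) where
  carrier := {w | (∀ d, w (ι d) = w d) ∧ ∀ d, c d ≠ c (ι d) → w d = 0}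
  add_mem' hf hg := ⟨fun d => by simp only [Pi.add_apply, hf.1 d, hg.1 d],
    fun d h => by simp only [Pi.add_apply, hf.2 d h, hg.2 d h, add_zero]⟩
  zero_mem' := ⟨fun _ => rfl, fun _ _ => rfl⟩
  smul_mem' c f hf := ⟨fun d => by simp only [Pi.smul_apply, hf.1 d],
    fun d h => by simp only [Pi.smul_apply, hf.2 d h, smul_zero]⟩

lemma push_intra {ι : D → D} (hι : ∀ d, ι (ι d) = d) (h0 : ∀ d, ι d ≠ d) {c : D → Cl}
    {w : D → ZMod 2} (hw : w ∈ Intra ι c) : push c w = 0 := by
  ext x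
  change ∑ d ∈ univ.filter (fun d => c d = x), w d = 0
  rw [← sum_filter_add_sum_filter_not _ (fun d => c d = c (ι d)),
    sum_eq_zero (s := filter (fun d => ¬ c d = c (ι d)) _) fun d hd => hw.2 d (mem_filter.1 hd).2,
    add_zero]
  refine sum_involution (fun d _ => ι d) (fun d _ => ?_) (fun d _ _ => h0 d) (fun d hd => ?_)
    fun d _ => hι d
  · rw [hw.1, CharTwo.add_self_eq_zero]
  · simp only [mem_filter, mem_univ, true_and] at hd ⊢
    exact ⟨hd.2 ▸ hd.1, by rw [hι, hd.2]⟩

lemma lift {ι : D → D} (hι : ∀ d, ι (ι d) = d) (v : D → V) (cl : V → Cl)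
    (hc : ∀ k k', cl k = cl k' →
      Relation.EqvGen (fun a b => cl a = cl b ∧ ∃ d, v d = a ∧ v (ι d) = b) k k')
    (g : V → ZMod 2) (hg : push cl g = 0) :
    ∃ w ∈ Intra ι (fun d => cl (v d)), push v w = g := by
  have key : ∀ x y, cl x = cl y → (Pi.single x 1 + Pi.single y 1 : V → ZMod 2) ∈
      (Intra ι fun d => cl (v d)).map (push v) := by
    intro x y h
    have := hc x y h
    clear h
    induction this with
    | rel a b h =>
      obtain ⟨h1, d, rfl, rfl⟩ := h
      refine ⟨ed ι d, ⟨ed_symm hι d, fun x hx => ?_⟩, push_ed ι v d⟩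
      have e1 : x ≠ d := by rintro rfl; exact hx h1
      have e2 : x ≠ ι d := by rintro rfl; exact hx (by rw [hι]; exact h1.symm)
      simp [ed, e1, e2]
    | refl a => rw [dbl]; exact zero_mem _
    | symm a b _ ih => rwa [add_comm]
    | trans a b c _ _ i1 i2 =>
      have := add_mem i1 i2
      rwa [add_assoc, ← add_assoc (Pi.single b 1), dbl, zero_add] at this
  rcases isEmpty_or_nonempty V with hV | hV
  · exact ⟨0, zero_mem _, Subsingleton.elim _ _⟩
  let ρ : Cl → V := Function.invFun cl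
  have hρ : ∀ x, cl x = cl (ρ (cl x)) := fun x => (Function.invFun_eq ⟨x, rfl⟩).symm
  have e0 : ∑ x, g x • (Pi.single (ρ (cl x)) 1 : V → ZMod 2) = 0 := by
    rw [← sum_fiberwise_of_maps_to (s := univ) (t := univ.image cl) (g := cl)
      fun x _ => mem_image_of_mem _ (mem_univ x)]
    refine sum_eq_zero fun c _ => ?_
    rw [sum_congr rfl (g := fun x => g x • (Pi.single (ρ c) 1 : V → ZMod 2))
      fun x hx => by rw [(mem_filter.1 hx).2], ← sum_smul]
    have : ∑ x ∈ univ.filter (fun x => cl x = c), g x = 0 := congrFun hg c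
    rw [this, zero_smul]
  have e1 : g = ∑ x, g x • (Pi.single x 1 + Pi.single (ρ (cl x)) 1 : V → ZMod 2) := by
    simp only [smul_add, sum_add_distrib, e0, add_zero]
    exact pi_eq_sum_univ' g
  have : g ∈ (Intra ι fun d => cl (v d)).map (push v) := by
    rw [e1]
    exact Submodule.sum_mem _ fun x _ => Submodule.smul_mem _ _ (key _ _ (hρ x))
  exact this

lemma three [LinearOrder Cl] (E : Finset (Cl × Cl)) (hE : ∀ e ∈ E, e.1 < e.2) (y : E → ZMod 2)
    (hy : ∑ e, y e • (Pi.single e.1.1 1 + Pi.single e.1.2 1 : Cl → ZMod 2) = 0) (h0 : y ≠ 0) :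
    3 ≤ (univ.filter fun e => y e ≠ 0).card := by
  obtain ⟨e, he⟩ := Function.ne_iff.1 h0
  have he' : y e ≠ 0 := he
  have lt := hE e e.2
  have other : ∀ c, (c = e.1.1 ∨ c = e.1.2) →
      ∃ e' : E, e' ≠ e ∧ y e' ≠ 0 ∧ (c = e'.1.1 ∨ c = e'.1.2) := by
    intro c hc
    by_contra hne
    push Not at hne
    have := congrFun hy c
    rw [Finset.sum_apply, sum_eq_single e (fun e' _ h => by
      by_cases h1 : y e' = 0
      · simp [h1]
      · obtain ⟨a, b⟩ := hne e' h h1
        simp [a, b]) (by simp)] at this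
    rcases hc with rfl | rfl
    · simp [lt.ne, he'] at this
    · simp [lt.ne', he'] at this
  obtain ⟨e1, a1, a2, a3⟩ := other _ (Or.inl rfl)
  obtain ⟨e2, b1, b2, b3⟩ := other _ (Or.inr rfl)
  have h12 : e1 ≠ e2 := by
    rintro rfl
    have lt' := hE e1 e1.2
    rcases a3 with a3 | a3 <;> rcases b3 with b3 | b3
    · exact lt.ne (a3.trans b3.symm)
    · exact a1 (Subtype.ext (Prod.ext a3.symm b3.symm))
    · rw [a3, b3] at lt; exact lt_asymm lt lt'
    · exact lt.ne (a3.trans b3.symm)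
  exact two_lt_card_iff.2 ⟨e, e1, e2, by simpa using he', by simpa using a2, by simpa using b2,
    a1.symm, b1.symm, h12⟩

theorem abs_sparse {Fc : Type} {ι : D → D} (hι : ∀ d, ι (ι d) = d) (h0 : ∀ d, ι d ≠ d)
    (v : D → V) (f : D → Fc)
    (H1 : ∀ S : Fc → ZMod 2, push v (fun d => S (f d) + S (f (ι d))) = 0)
    (H2 : ∀ z : D → ZMod 2, (∀ d, z (ι d) = z d) → push v z = 0 →
      ∃ S : Fc → ZMod 2, ∀ d, z d = S (f d) + S (f (ι d))) :
    Sparse fun a b => ∃ d, v d = a ∧ v (ι d) = b := by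
  intro Cl _ cl hc P hsw hP
  classical
  letI : LinearOrder Cl := linearOrderOfSTO WellOrderingRel
  set E := P.filter fun e => e.1 < e.2 with hEd
  have hE : ∀ e ∈ E, e.1 < e.2 := fun e he => (mem_filter.1 he).2
  have hEP : P.card = 2 * E.card := by
    rw [← card_filter_add_card_filter_not (s := P) fun e => e.1 < e.2, two_mul]
    congr 1
    refine card_nbij' Prod.swap Prod.swap (fun e he => ?_) (fun e he => ?_) (fun _ _ => rfl)
      fun _ _ => rfl
    · obtain ⟨a, b⟩ := mem_filter.1 (mem_coe.1 he)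
      exact mem_coe.2 (mem_filter.2 ⟨hsw e a, lt_of_le_of_ne (not_lt.1 b) (hP e a).1.symm⟩)
    · obtain ⟨a, b⟩ := mem_filter.1 (mem_coe.1 he)
      exact mem_coe.2 (mem_filter.2 ⟨hsw e a, not_lt.2 b.le⟩)
  have hr : ∀ e : E, ∃ d, cl (v d) = e.1.1 ∧ cl (v (ι d)) = e.1.2 := fun e => by
    obtain ⟨-, a, b, h1, h2, ⟨d, rfl, rfl⟩ | ⟨d, rfl, rfl⟩⟩ := hP e (mem_filter.1 e.2).1
    · exact ⟨d, h1, h2⟩
    · exact ⟨ι d, h1, by rw [hι]; exact h2⟩
  choose r r1 r2 using hr
  let Z : (E → ZMod 2) →ₗ[ZMod 2] (D → ZMod 2) := Fintype.linearCombination _ fun e => ed ι (r e)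
  have hZ : ∀ y, Z y = ∑ e, y e • ed ι (r e) := fun y => rfl
  have Zs : ∀ y d, Z y (ι d) = Z y d := fun y d => by
    simp only [hZ, Finset.sum_apply, Pi.smul_apply, ed_symm hι]
  have Zr : ∀ y e, Z y (r e) = y e := fun y e => by
    have n1 : ∀ e', r e ≠ ι (r e') := fun e' h => by
      have a := hE e e.2
      have b := hE e' e'.2
      rw [← r1, ← r2, h, hι] at a
      rw [← r1, ← r2] at b
      exact lt_asymm a b
    rw [hZ, Finset.sum_apply, sum_eq_single e (fun e' _ h => by
      have : r e ≠ r e' := fun h' => h (Subtype.ext (Prod.ext (by rw [← r1, ← r1, h'])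
        (by rw [← r2, ← r2, h'])))
      simp [ed, this, n1]) (by simp)]
    simp [ed, n1]
  have Z0 : ∀ y d, (∀ e, d ≠ r e ∧ d ≠ ι (r e)) → Z y d = 0 := fun y d h => by
    rw [hZ, Finset.sum_apply]
    exact sum_eq_zero fun e _ => by simp [ed, h e]
  let Bd : (E → ZMod 2) →ₗ[ZMod 2] (Cl → ZMod 2) := push (fun d => cl (v d)) ∘ₗ Z
  have hB : ∀ y, Bd y = ∑ e, y e • (Pi.single e.1.1 1 + Pi.single e.1.2 1 : Cl → ZMod 2) :=
    fun y => by
      change push _ (Z y) = _
      simp only [hZ, map_sum, map_smul, push_ed, r1, r2]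
  let q : Fc → Quot fun a b => ∃ d, cl (v d) ≠ cl (v (ι d)) ∧ (∀ e, d ≠ r e ∧ d ≠ ι (r e)) ∧
      a = f d ∧ b = f (ι d) := Quot.mk _
  let χ := fun Q (e : E) => (Pi.single Q 1 : _ → ZMod 2) (q (f (r e))) +
    (Pi.single Q 1 : _ → ZMod 2) (q (f (ι (r e))))
  have hχ : ∀ Q, Bd (χ Q) = 0 := fun Q => by
    let zQ : D → ZMod 2 := fun d => (Pi.single Q 1 : _ → ZMod 2) (q (f d)) +
      (Pi.single Q 1 : _ → ZMod 2) (q (f (ι d)))
    have s1 : ∀ d, zQ (ι d) = zQ d := fun d => by simp only [zQ, hι, add_comm]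
    have w1 : zQ + Z (χ Q) ∈ Intra ι fun d => cl (v d) := by
      refine ⟨fun d => by simp only [Pi.add_apply, s1, Zs], fun d hd => ?_⟩
      by_cases h : ∀ e, d ≠ r e ∧ d ≠ ι (r e)
      · have : q (f d) = q (f (ι d)) := Quot.sound ⟨d, hd, h, rfl, rfl⟩
        simp only [Pi.add_apply, Z0 _ d h, zQ, this, CharTwo.add_self_eq_zero]
      · obtain ⟨e, he⟩ := not_forall.1 h
        rcases not_and_or.1 he with he | he <;> rw [not_not.1 he]
        · rw [Pi.add_apply, Zr]; exact CharTwo.add_self_eq_zero _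
        · rw [Pi.add_apply, Zs, s1, Zr]; exact CharTwo.add_self_eq_zero _
    have p1 := push_intra hι h0 w1
    have p2 : push (fun d => cl (v d)) zQ = 0 := by
      rw [← push_comp, H1 fun a => (Pi.single Q 1 : _ → ZMod 2) (q a), map_zero]
    rwa [map_add, p2, zero_add] at p1
  let Fs := univ.image (fun e : E => q (f (r e))) ∪ univ.image fun e : E => q (f (ι (r e)))
  let N := Fs.filter fun Q => χ Q ≠ 0
  have k1 : LinearMap.ker Bd ≤ Submodule.span (ZMod 2) (N.image χ : Set (E → ZMod 2)) := by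
    intro y hy
    obtain ⟨w, w1, w2⟩ := lift hι v cl hc (push v (Z y)) (by rw [push_comp]; exact hy)
    obtain ⟨S, hS⟩ := H2 (Z y + w) (fun d => by simp only [Pi.add_apply, Zs, w1.1])
      (by rw [map_add, w2]; exact dbl _)
    let S' := Quot.lift S (fun a b (h : ∃ d, cl (v d) ≠ cl (v (ι d)) ∧
        (∀ e, d ≠ r e ∧ d ≠ ι (r e)) ∧ a = f d ∧ b = f (ι d)) => by
      obtain ⟨d, d1, d2, rfl, rfl⟩ := h
      have := hS d
      rw [Pi.add_apply, Z0 _ d d2, w1.2 d d1, add_zero] at this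
      exact CharTwo.add_eq_zero.1 this.symm)
    have e1 : y = ∑ Q ∈ Fs, S' Q • χ Q := by
      ext e
      have a := hS (r e)
      rw [Pi.add_apply, Zr, w1.2 _ (fun h => (hE e e.2).ne (((r1 e).symm.trans h).trans (r2 e))), add_zero] at a
      have m1 : q (f (r e)) ∈ Fs := mem_union_left _ (mem_image_of_mem _ (mem_univ e))
      have m2 : q (f (ι (r e))) ∈ Fs := mem_union_right _ (mem_image_of_mem _ (mem_univ e))
      simp only [Finset.sum_apply, Pi.smul_apply, χ, smul_eq_mul, mul_add, sum_add_distrib,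
        Pi.single_apply, mul_ite, mul_one, mul_zero, sum_ite_eq, m1, m2, if_true]
      exact a
    rw [e1]
    refine Submodule.sum_mem _ fun Q hQ => ?_
    by_cases h : χ Q = 0
    · rw [h, smul_zero]; exact zero_mem _
    · exact Submodule.smul_mem _ _ (Submodule.subset_span
        (mem_coe.2 (mem_image_of_mem _ (mem_filter.2 ⟨hQ, h⟩))))
  have k2 : Module.finrank (ZMod 2) (LinearMap.ker Bd) ≤ N.card :=
    (Submodule.finrank_mono k1).trans ((finrank_span_finset_le_card _).trans card_image_le)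
  have k3 : LinearMap.range Bd ≤ Submodule.span (ZMod 2)
      ((P.image Prod.fst).image (fun c => (Pi.single c 1 : Cl → ZMod 2)) : Set (Cl → ZMod 2)) := by
    rintro _ ⟨y, rfl⟩
    rw [hB]
    refine Submodule.sum_mem _ fun e _ => Submodule.smul_mem _ _ (add_mem ?_ ?_)
    · exact Submodule.subset_span (mem_coe.2 (mem_image_of_mem _
        (mem_image_of_mem _ (mem_filter.1 e.2).1)))
    · exact Submodule.subset_span (mem_coe.2 (mem_image_of_mem _
        (mem_image.2 ⟨_, hsw _ (mem_filter.1 e.2).1, rfl⟩)))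
  have k4 : Module.finrank (ZMod 2) (LinearMap.range Bd) ≤ (P.image Prod.fst).card :=
    (Submodule.finrank_mono k3).trans ((finrank_span_finset_le_card _).trans card_image_le)
  have k5 := LinearMap.finrank_range_add_finrank_ker Bd
  rw [Module.finrank_fintype_fun_eq_card, Fintype.card_coe] at k5
  have k6 : N.card * 3 ≤ (univ : Finset E).card * 2 := by
    refine card_mul_le_card_mul (fun Q e => χ Q e ≠ 0) (fun Q hQ => ?_) fun e _ => ?_
    · exact three E hE (χ Q) (by rw [← hB]; exact hχ Q) (mem_filter.1 hQ).2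
    · refine (card_le_card (t := {q (f (r e)), q (f (ι (r e)))}) fun Q hQ => ?_).trans card_le_two
      have := (mem_filter.1 hQ).2
      by_contra hn
      simp only [mem_insert, mem_singleton, not_or] at hn
      exact this (by simp only [χ, Pi.single_apply, if_neg (Ne.symm hn.1), if_neg (Ne.symm hn.2),
        add_zero])
  rw [card_univ, Fintype.card_coe] at k6
  omega

end D3

theorem sparse {I : Type} [Fintype I] (nu mu : Equiv.Perm I)
    (h1 : ∀ k, mu (mu k) = k) (h2 : ∀ k, mu k ≠ k) (hp : Planar nu mu) :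
    Sparse fun a b => b = nu a ∨ b = mu a := by
  classical
  let ι : I ⊕ I ⊕ I → I ⊕ I ⊕ I := Sum.elim (fun k => .inr (.inl (nu k)))
    (Sum.elim (fun k => .inl (nu⁻¹ k)) fun k => .inr (.inr (mu k)))
  let v : I ⊕ I ⊕ I → I := Sum.elim id (Sum.elim id id)
  let qL : I → Quot fun a b => b = nu a := Quot.mk _
  let qO : I → Quot fun a b => b = mu (nu a) := Quot.mk _
  let f : I ⊕ I ⊕ I → (Quot fun a b => b = nu a) ⊕ (Quot fun a b => b = mu (nu a)) :=
    Sum.elim (fun k => .inl (qL k)) (Sum.elim (fun k => .inr (qO (nu⁻¹ k))) fun k => .inr (qO k))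
  have i1 : ∀ k, nu⁻¹ (nu k) = k := fun k => by simp
  have i2 : ∀ k, nu (nu⁻¹ k) = k := fun k => by simp
  have eL : ∀ k, qL (nu⁻¹ k) = qL k := fun k => Quot.sound (by simp)
  have eO : ∀ k, qO (mu k) = qO (nu⁻¹ k) := fun k => (Quot.sound (by simp)).symm
  have hpush : ∀ (z : I ⊕ I ⊕ I → ZMod 2) k,
      D3.push v z k = z (.inl k) + z (.inr (.inl k)) + z (.inr (.inr k)) := fun z k => by
    change ∑ d ∈ univ.filter (fun d => v d = k), z d = _
    rw [sum_filter, Fintype.sum_sum_type, Fintype.sum_sum_type, add_assoc]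
    congr 1
    · exact (sum_eq_single k (fun a _ h => if_neg h) (by simp)).trans (if_pos rfl)
    · congr 1 <;> exact (sum_eq_single k (fun a _ h => if_neg h) (by simp)).trans (if_pos rfl)
  have key := D3.abs_sparse (ι := ι) (by rintro (k | k | k) <;> simp [ι, h1])
    (by rintro (k | k | k) <;> simp [ι, h2]) v f
    (fun S => by
      ext k
      rw [hpush]
      simp only [ι, f, Sum.elim_inl, Sum.elim_inr, i1, eL, eO,
        Pi.zero_apply]
      generalize S (.inl (qL k)) = a, S (.inr (qO k)) = b, S (.inr (qO (nu⁻¹ k))) = c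
      revert a b c
      decide)
    (fun z hz h0 => by
      have z1 : ∀ k, z (.inr (.inl k)) = z (.inl (nu⁻¹ k)) := fun k => (hz (.inr (.inl k))).symm
      have z2 : ∀ k, z (.inr (.inr k)) = z (.inl k) + z (.inl (nu⁻¹ k)) := fun k => by
        have := congrFun h0 k
        rw [hpush, z1] at this
        exact (CharTwo.add_eq_zero.1 this).symm
      obtain ⟨ka, k1, k2⟩ := hp (fun k => z (.inl k)) fun k => by
        rw [← z2, ← z2]; exact hz (.inr (.inr k))
      refine ⟨Sum.elim (Quot.lift ka (by rintro a b rfl; exact (k1 a).symm))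
        (Quot.lift (fun k => z (.inl k) + ka k) (by rintro a b rfl; exact (k2 a).symm)), ?_⟩
      have k3 : ∀ k, ka (nu⁻¹ k) = ka k := fun k => by rw [← k1, i2]
      rintro (k | k | k) <;>
        simp only [ι, f, Sum.elim_inl, Sum.elim_inr, i1, eO, z1, z2]
      · change _ = ka k + (z (.inl k) + ka k)
        rw [add_left_comm, CharTwo.add_self_eq_zero, add_zero]
      · change _ = z (.inl (nu⁻¹ k)) + ka (nu⁻¹ k) + ka (nu⁻¹ k)
        rw [add_assoc, CharTwo.add_self_eq_zero, add_zero]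
      · change _ = z (.inl k) + ka k + (z (.inl (nu⁻¹ k)) + ka (nu⁻¹ k))
        rw [k3, add_add_add_comm, CharTwo.add_self_eq_zero, add_zero])
  have mono : ∀ a b, (b = nu a ∨ b = mu a) → ∃ d, v d = a ∧ v (ι d) = b := by
    rintro a b (rfl | rfl)
    · exact ⟨.inl a, rfl, rfl⟩
    · exact ⟨.inr (.inr a), rfl, rfl⟩
  intro Cl _ cl hc P hsw hP
  refine key Cl cl (fun k k' h => (hc k k' h).mono fun a b h => ⟨h.1, mono a b h.2⟩) P hsw
    fun p hp => ⟨(hP p hp).1, ?_⟩
  obtain ⟨a, b, a1, a2, a3⟩ := (hP p hp).2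
  exact ⟨a, b, a1, a2, a3.imp (mono a b) (mono b a)⟩

end Vale.Agent.P201
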