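import Vale.Agent.P201.PartD3

/-! Part D3p of P201: from labelled pictures to passages. -/

namespace Vale.Agent.P201

open Finset

namespace D3p

variable {H V Lb : Type} {X : Sys H V Lb} {M : H → H} {hM : X.IsMatch M} {I : Type}
  (P : LabPic (X.lg M hM) I)

/-- Out darts. -/
def IsOut (k : I) : Prop := ∃ h, P.e k = Sum.inr h ∧ P.sg k = true

/-- In darts. -/
def IsIn (k : I) : Prop := ∃ h, P.e k = Sum.inr h ∧ P.sg k = false

/-- Head of a dart. -/
def hd (k : I) : (V × ℤ) ⊕ Sym2 H :=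
  if P.sg k then (X.lg M hM).tgt (P.e k) else (X.lg M hM).src (P.e k)

/-- Tail of a dart. -/
def tl (k : I) : (V × ℤ) ⊕ Sym2 H :=
  if P.sg k then (X.lg M hM).src (P.e k) else (X.lg M hM).tgt (P.e k)

lemma tl_nu (k : I) : tl P (P.nu k) = hd P k := P.hnu k

/-- Direction. -/
def dir (b : Bool) : ℤ := if b then 1 else -1

lemma after_out {k : I} {h : H} (he : P.e k = Sum.inr h) (hs : P.sg k = true) :
    P.e (P.nu k) = Sum.inr (M h) ∧ P.sg (P.nu k) = false := by
  have h1 := tl_nu P k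
  have h2 := P.red1 k
  simp only [tl, hd, he, hs] at h1 h2
  rcases h3 : P.e (P.nu k) with x | h' <;> rcases h4 : P.sg (P.nu k) with _ | _ <;>
    simp [h3, h4, Sys.lg] at h1 h2 ⊢
  rcases h1 with h1 | h1
  · exact absurd h1.1 h2
  · exact h1.1

lemma before_in {k : I} (h : IsIn P (P.nu k)) : IsOut P k := by
  obtain ⟨h, he, hs⟩ := h
  have h1 := tl_nu P k
  simp only [tl, hd, he, hs] at h1
  rcases h3 : P.e k with x | h' <;> rcases h4 : P.sg k with _ | _ <;>
    simp [h3, h4, Sys.lg] at h1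
  exact ⟨h', h3, h4⟩

lemma hd_of_not_out {k : I} (h : ¬ IsOut P k) : ∃ x, hd P k = Sum.inl x := by
  rcases h3 : P.e k with x | h' <;> rcases h4 : P.sg k with _ | _ <;> simp [hd, h3, h4, Sys.lg]
  exact h ⟨h', h3, h4⟩

lemma step {k : I} {v : V} {p : ℤ} (h1 : hd P k = Sum.inl (v, p)) (h2 : ¬ IsOut P (P.nu k)) :
    (∃ x, P.e (P.nu k) = Sum.inl x) ∧ hd P (P.nu k) = Sum.inl (v, p + dir (P.sg (P.nu k))) := by
  rw [← tl_nu] at h1
  rcases h3 : P.e (P.nu k) with ⟨v', p'⟩ | h' <;> rcases h4 : P.sg (P.nu k) with _ | _ <;>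
    simp [tl, hd, h3, h4, Sys.lg, dir] at h1 ⊢
  · exact ⟨h1.1, by omega⟩
  · exact h1
  · exact h2 ⟨h', h3, h4⟩

lemma same_dir {k : I} {x y : V × ℤ} (h1 : P.e k = Sum.inl x) (h2 : P.e (P.nu k) = Sum.inl y) :
    P.sg (P.nu k) = P.sg k := by
  have h3 := tl_nu P k
  have h4 := P.red1 k
  obtain ⟨v, p⟩ := x
  obtain ⟨v', p'⟩ := y
  rcases h5 : P.sg k with _ | _ <;> rcases h6 : P.sg (P.nu k) with _ | _ <;>
    simp [tl, hd, h1, h2, h5, h6, Sys.lg] at h3 h4 ⊢
  · exact h4 h3.1 h3.2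
  · exact h4 h3.1 h3.2

lemma pow_succ_apply (j : ℕ) (k : I) : (P.nu ^ (j + 1)) k = P.nu ((P.nu ^ j) k) := by
  rw [pow_succ', Equiv.Perm.mul_apply]

lemma pow_add_apply (i j : ℕ) (k : I) : (P.nu ^ (i + j)) k = (P.nu ^ i) ((P.nu ^ j) k) := by
  rw [pow_add, Equiv.Perm.mul_apply]

lemma run {k : I} {v : V} {p : ℤ} (h1 : hd P k = Sum.inl (v, p)) (j : ℕ)
    (h2 : ∀ i, 1 ≤ i → i ≤ j → ¬ IsOut P ((P.nu ^ i) k)) :
    hd P ((P.nu ^ j) k) = Sum.inl (v, p + dir (P.sg (P.nu k)) * j) ∧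
      (1 ≤ j → (∃ x, P.e ((P.nu ^ j) k) = Sum.inl x) ∧ P.sg ((P.nu ^ j) k) = P.sg (P.nu k)) := by
  induction j with
  | zero => simpa using h1
  | succ j ih =>
    obtain ⟨a1, a2⟩ := ih fun i h h' => h2 i h (by omega)
    have a3 := h2 (j + 1) (by omega) le_rfl
    rw [pow_succ_apply] at a3 ⊢
    obtain ⟨⟨y, b1⟩, b2⟩ := step P a1 a3
    have b3 : P.sg (P.nu ((P.nu ^ j) k)) = P.sg (P.nu k) := by
      rcases Nat.eq_zero_or_pos j with rfl | hj
      · simp
      · obtain ⟨⟨x, c1⟩, c2⟩ := a2 hj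
        rw [same_dir P c1 b1, c2]
    refine ⟨?_, fun _ => ⟨⟨y, b1⟩, b3⟩⟩
    rw [b2, b3]
    push_cast
    ring_nf

lemma dir_ne (b : Bool) : dir b ≠ 0 := by cases b <;> simp [dir]

lemma exists_out [Fintype I] (k : I) : ∃ j : ℕ, IsOut P ((P.nu ^ j) k) := by
  by_contra hc
  push Not at hc
  obtain ⟨⟨v, p⟩, h1⟩ := hd_of_not_out P (k := k) (by simpa using hc 0)
  have h2 := (run P h1 (orderOf P.nu) fun i _ _ => hc i).1
  rw [pow_orderOf_eq_one, Equiv.Perm.one_apply, h1] at h2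
  have h3 := orderOf_pos P.nu
  simp only [Sum.inl.injEq, Prod.mk.injEq, true_and, left_eq_add, mul_eq_zero] at h2
  rcases h2 with h2 | h2
  · exact dir_ne _ h2
  · omega

variable [Fintype I]

open Classical in
/-- Number of steps to the first out dart. -/
noncomputable def nn (k : I) : ℕ := Nat.find (exists_out P k)

/-- First out dart. -/
noncomputable def fo (k : I) : I := (P.nu ^ nn P k) k

open Classical in
lemma fo_out (k : I) : IsOut P (fo P k) := Nat.find_spec (exists_out P k)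

open Classical in
lemma nn_min {k : I} {j : ℕ} (h : j < nn P k) : ¬ IsOut P ((P.nu ^ j) k) :=
  Nat.find_min (exists_out P k) h

open Classical in
lemma nn_eq {k : I} {n : ℕ} (h1 : IsOut P ((P.nu ^ n) k))
    (h2 : ∀ j < n, ¬ IsOut P ((P.nu ^ j) k)) : nn P k = n :=
  (Nat.find_eq_iff (exists_out P k)).2 ⟨h1, h2⟩

lemma fo_of_out {k : I} (h : IsOut P k) : fo P k = k := by
  rw [fo, nn_eq P (n := 0) (by simpa using h) (by simp)]; simp

lemma fo_pow {k : I} {j : ℕ} (h : j ≤ nn P k) : fo P ((P.nu ^ j) k) = fo P k := by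
  have : nn P ((P.nu ^ j) k) = nn P k - j := by
    refine nn_eq P ?_ fun i hi => ?_
    · rw [← pow_add_apply, Nat.sub_add_cancel h]; exact fo_out P k
    · rw [← pow_add_apply]; exact nn_min P (by omega)
  rw [fo, this, ← pow_add_apply, Nat.sub_add_cancel h, fo]

lemma of_fo_eq {k o : I} (ho : IsIn P o) (h : fo P k = fo P o) :
    ∃ i ≤ nn P o, nn P k + i = nn P o ∧ (P.nu ^ i) o = k := by
  rcases le_or_gt (nn P k) (nn P o) with h1 | h1
  · refine ⟨nn P o - nn P k, by omega, by omega, (P.nu ^ nn P k).injective ?_⟩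
    rw [← pow_add_apply, Nat.add_sub_cancel' h1]
    exact h.symm
  · exfalso
    obtain ⟨d, hd⟩ : ∃ d, nn P k = nn P o + (d + 1) := ⟨nn P k - nn P o - 1, by omega⟩
    rw [fo, fo, hd, pow_add_apply, (P.nu ^ nn P o).injective.eq_iff, pow_succ_apply] at h
    exact nn_min P (j := d) (by omega) (before_in P (h ▸ ho))

lemma in_nu_fo (k : I) : IsIn P (P.nu (fo P k)) := by
  obtain ⟨h, h1, h2⟩ := fo_out P k
  exact ⟨_, after_out P h1 h2⟩

omit [Fintype I] in
lemma not_out_of_in {k : I} (h : IsIn P k) : ¬ IsOut P k := by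
  rintro ⟨_, -, h2⟩
  obtain ⟨_, -, h3⟩ := h
  rw [h2] at h3
  exact absurd h3 (by simp)

lemma nn_pos {o : I} (ho : IsIn P o) : 0 < nn P o := by
  rcases Nat.eq_zero_or_pos (nn P o) with h | h
  · have := fo_out P o
    rw [fo, h] at this
    exact absurd (by simpa using this) (not_out_of_in P ho)
  · exact h

lemma fo_inj {o o' : I} (ho : IsIn P o) (ho' : IsIn P o') (h : fo P o = fo P o') : o = o' := by
  obtain ⟨i, -, a, b⟩ := of_fo_eq P ho' h
  obtain ⟨i', -, a', -⟩ := of_fo_eq P ho h.symm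
  have : i = 0 := by omega
  rw [this] at b
  simpa using b.symm

omit [Fintype I] in
lemma mu_inr {k : I} {h : H} (he : P.e k = Sum.inr h) :
    ∃ h', P.e (P.mu k) = Sum.inr h' ∧ X.lab h' = X.lab h := by
  have := P.lbmu k
  rcases h3 : P.e (P.mu k) with x | h' <;> simp [h3, he, Sys.lg] at this
  exact ⟨h', rfl, this⟩

omit [Fintype I] in
lemma mu_inl {k : I} {x : V × ℤ} (he : P.e k = Sum.inl x) : ¬ IsOut P (P.mu k) := by
  rintro ⟨h, h1, -⟩
  have := P.lbmu k
  simp [h1, he, Sys.lg] at this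

omit [Fintype I] in
lemma out_mu {k : I} (h : IsIn P k) : IsOut P (P.mu k) := by
  obtain ⟨h, h1, h2⟩ := h
  obtain ⟨h', h3, -⟩ := mu_inr P h1
  exact ⟨h', h3, by rw [P.sgmu, h2]; rfl⟩

omit [Fintype I] in
lemma in_mu {k : I} (h : IsOut P k) : IsIn P (P.mu k) := by
  obtain ⟨h, h1, h2⟩ := h
  obtain ⟨h', h3, -⟩ := mu_inr P h1
  exact ⟨h', h3, by rw [P.sgmu, h2]; rfl⟩

lemma passage {o : I} {h h' : H} (h1 : P.e o = Sum.inr h) (h2 : P.sg o = false)
    (h3 : P.e (fo P o) = Sum.inr h') :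
    X.vtx h = X.vtx h' ∧ X.pos h' - X.pos h = dir (P.sg (P.nu o)) * ((nn P o - 1 : ℕ) : ℤ) ∧
      ∀ j, 1 ≤ j → j < nn P o →
        (∃ x, P.e ((P.nu ^ j) o) = Sum.inl x) ∧ P.sg ((P.nu ^ j) o) = P.sg (P.nu o) := by
  have h4 : hd P o = Sum.inl (X.vtx h, X.pos h) := by simp [hd, h1, h2, Sys.lg]
  have h5 := nn_pos P ⟨h, h1, h2⟩
  have h6 := (run P h4 (nn P o - 1) fun i _ hi => nn_min P (by omega)).1
  rw [← tl_nu, ← pow_succ_apply, Nat.sub_add_cancel h5] at h6
  obtain ⟨_, -, h7⟩ := fo_out P o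
  change tl P (fo P o) = _ at h6
  simp only [tl, h7, h3, Sys.lg, if_true, Sum.elim_inr, Sum.inl.injEq, Prod.mk.injEq] at h6
  exact ⟨h6.1.symm, by rw [h6.2]; ring,
    fun j a b => (run P h4 j fun i _ hi => nn_min P (by omega)).2 a⟩

/-- Passages. -/
abbrev O : Type := {k : I // IsIn P k}

/-- Next passage. -/
noncomputable def nx : Equiv.Perm (O P) :=
  Equiv.ofBijective (fun o => ⟨P.nu (fo P o.1), in_nu_fo P _⟩)
    (Finite.injective_iff_bijective.1 fun o o' h =>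
      Subtype.ext (fo_inj P o.2 o'.2 (P.nu.injective (congrArg Subtype.val h))))

lemma nx_val (o : O P) : (nx P o).1 = P.nu (fo P o.1) := rfl

/-- The passage of a dart. -/
noncomputable def pas (k : I) : O P := (nx P).symm ⟨P.nu (fo P k), in_nu_fo P _⟩

lemma fo_pas (k : I) : fo P (pas P k).1 = fo P k := by
  apply P.nu.injective
  rw [← nx_val, pas, Equiv.apply_symm_apply]

lemma pas_eq {k : I} {o : O P} (h : fo P k = fo P o.1) : pas P k = o :=
  Subtype.ext (fo_inj P (pas P k).2 o.2 ((fo_pas P k).trans h))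

/-- Partner passage. -/
noncomputable def pt : Equiv.Perm (O P) :=
  Equiv.ofBijective (fun o => pas P (P.mu o.1))
    (Finite.injective_iff_bijective.1 fun o o' h => by
      have h1 := congrArg (fun a : O P => fo P a.1) h
      simp only [fo_pas, fo_of_out P (out_mu P o.2), fo_of_out P (out_mu P o'.2)] at h1
      exact Subtype.ext (P.mu.injective h1))

lemma fo_pt (o : O P) : fo P (pt P o).1 = P.mu o.1 :=
  (fo_pas P _).trans (fo_of_out P (out_mu P o.2))

lemma reg (o : O P) (h : ∀ k, pas P k = o → P.mu (P.nu (P.mu (P.nu k))) = k) :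
    (pt P o).1 = P.mu (fo P o.1) ∧ nn P (pt P o).1 = nn P o.1 ∧
      (1 < nn P o.1 → P.sg (P.nu (pt P o).1) = !P.sg (P.nu o.1)) ∧
      P.nu (P.mu (nx P o).1) = P.mu (fo P o.1) := by
  have h1 : ∀ j ≤ nn P o.1, P.nu (P.mu ((P.nu ^ (j + 1)) o.1)) = P.mu ((P.nu ^ j) o.1) := by
    intro j hj
    have := congrArg P.mu (h _ (pas_eq P (fo_pow P hj)))
    rwa [P.mumu, ← pow_succ_apply] at this
  have h2 : ∀ i ≤ nn P o.1, (P.nu ^ i) (P.mu (fo P o.1)) = P.mu ((P.nu ^ (nn P o.1 - i)) o.1) := by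
    intro i
    induction i with
    | zero => intro _; rfl
    | succ i ih =>
      intro hi
      rw [pow_succ_apply, ih (by omega), ← h1 (nn P o.1 - (i + 1)) (Nat.sub_le _ _),
        show nn P o.1 - (i + 1) + 1 = nn P o.1 - i by omega]
  obtain ⟨g, g1, g2⟩ := o.2
  obtain ⟨g', g3, g4⟩ := fo_out P o.1
  obtain ⟨-, -, h3⟩ := passage P g1 g2 g3
  have h4 : nn P (P.mu (fo P o.1)) = nn P o.1 := by
    refine nn_eq P ?_ fun j hj => ?_
    · rw [h2 _ le_rfl, Nat.sub_self]; exact out_mu P o.2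
    · rw [h2 _ hj.le]
      rcases Nat.eq_zero_or_pos j with rfl | h0
      · exact not_out_of_in P (in_mu P (fo_out P o.1))
      · obtain ⟨⟨x, hx⟩, -⟩ := h3 (nn P o.1 - j) (by omega) (by omega)
        exact mu_inl P hx
  have h5 : (pt P o).1 = P.mu (fo P o.1) := by
    refine fo_inj P (pt P o).2 (in_mu P (fo_out P o.1)) ?_
    rw [fo_pt, fo, h4, h2 _ le_rfl, Nat.sub_self]; rfl
  refine ⟨h5, by rw [h5, h4], fun h6 => ?_, ?_⟩
  · have := h2 1 h6.le
    rw [pow_one] at this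
    rw [h5, this, P.sgmu, (h3 _ (by omega) (by omega)).2]
  · have := h1 _ le_rfl
    rwa [pow_succ_apply] at this

lemma cyc (o : O P) (j : ℕ) : P.nu.SameCycle o.1 ((nx P ^ j) o).1 := by
  induction j with
  | zero => exact Equiv.Perm.SameCycle.rfl
  | succ j ih =>
    rw [pow_succ', Equiv.Perm.mul_apply, nx_val, fo, ← pow_succ_apply]
    exact ih.trans ⟨((_ : ℕ) : ℤ), by rw [zpow_natCast]⟩

lemma conn {Cl : Type} (cl : O P → Cl) (k : I) :
    Relation.EqvGen (fun a b => cl (pas P a) = cl (pas P b) ∧ (b = P.nu a ∨ b = P.mu a))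
      (pas P k).1 k := by
  obtain ⟨i, h1, -, h2⟩ := of_fo_eq P (pas P k).2 (fo_pas P k).symm
  have : ∀ j ≤ i, Relation.EqvGen (fun a b => cl (pas P a) = cl (pas P b) ∧
      (b = P.nu a ∨ b = P.mu a)) (pas P k).1 ((P.nu ^ j) (pas P k).1) := by
    intro j
    induction j with
    | zero => intro _; exact Relation.EqvGen.refl _
    | succ j ih =>
      intro hj
      refine (ih (by omega)).trans _ _ _ (Relation.EqvGen.rel _ _ ⟨?_, Or.inl (pow_succ_apply P _ _)⟩)
      rw [pas_eq P (fo_pow P (j := j) (by omega)), pas_eq P (fo_pow P (j := j + 1) (by omega))]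
  simpa only [h2] using this i le_rfl

lemma pas_val (o : O P) : pas P o.1 = o := pas_eq P rfl

lemma pas_fo (o : O P) : pas P (fo P o.1) = o := pas_eq P (fo_of_out P (fo_out P _))

omit [Fintype I] in
lemma mu_ne (k : I) : P.mu k ≠ k := fun h => P.red2 k (by rw [h])

omit [Fintype I] in
lemma mu_nu_ne (k : I) : P.mu (P.nu k) ≠ k := by
  intro h
  have h1 : P.nu k = P.mu k := by rw [← P.mumu (P.nu k), h]
  have h2 := P.hnu k
  have h3 := P.lbmu k
  rw [h1, P.sgmu] at h2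
  refine P.red2 k ?_
  rcases h4 : P.sg k with _ | _ <;> simp only [h4] at h2
  · exact (X.lg M hM).fold1 _ _ (by simpa using h2) h3
  · exact (X.lg M hM).fold2 _ _ (by simpa using h2) h3

lemma hsp : Sparse fun a b => b = nx P a ∨ b = pt P a := by
  intro Cl _ cl h1 Q h2 h3
  refine sparse P.nu P.mu P.mumu (mu_ne P) P.pl Cl (fun k => cl (pas P k)) (fun k k' h => ?_) Q h2
    fun p hp => ⟨(h3 p hp).1, ?_⟩
  · have key : ∀ a b : O P, Relation.EqvGen (fun a b => cl a = cl b ∧ (b = nx P a ∨ b = pt P a))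
        a b → Relation.EqvGen (fun a b => cl (pas P a) = cl (pas P b) ∧
          (b = P.nu a ∨ b = P.mu a)) a.1 b.1 := by
      intro a b hab
      induction hab with
      | rel a b hab =>
        obtain ⟨e, rfl | rfl⟩ := hab
        · have c := conn P cl (fo P a.1)
          rw [pas_fo] at c
          exact c.trans _ _ _ (Relation.EqvGen.rel _ _ ⟨by rw [pas_fo, pas_val, e], Or.inl rfl⟩)
        · exact (Relation.EqvGen.rel _ _ ⟨by rw [pas_val]; exact e, Or.inr rfl⟩).trans _ _ _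
            (conn P cl (P.mu a.1)).symm
      | refl a => exact Relation.EqvGen.refl _
      | symm a b _ ih => exact ih.symm
      | trans a b c _ _ ih ih' => exact ih.trans _ _ _ ih'
    exact ((conn P cl k).symm.trans _ _ _ (key _ _ (h1 _ _ h))).trans _ _ _ (conn P cl k')
  · obtain ⟨a, b, ha, hb, hab⟩ := (h3 p hp).2
    have key : ∀ a b : O P, (b = nx P a ∨ b = pt P a) → ∃ a' b' : I, pas P a' = a ∧ pas P b' = b ∧
        (b' = P.nu a' ∨ b' = P.mu a') := by
      rintro a b (rfl | rfl)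
      · exact ⟨fo P a.1, (nx P a).1, pas_fo P a, pas_val P _, Or.inl rfl⟩
      · exact ⟨a.1, P.mu a.1, pas_val P a, rfl, Or.inr rfl⟩
    rcases hab with hab | hab
    · obtain ⟨a', b', c1, c2, c3⟩ := key a b hab
      exact ⟨a', b', by simp only [c1, ha], by simp only [c2, hb], Or.inl c3⟩
    · obtain ⟨b', a', c1, c2, c3⟩ := key b a hab
      exact ⟨a', b', by simp only [c2, ha], by simp only [c1, hb], Or.inr c3⟩

end D3p

open D3p in
theorem pp_of_labpic {H V Lb : Type} (X : Sys H V Lb) (M : H → H) (hM : X.IsMatch M) (I : Type)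
    [Fintype I] [Nonempty I] (P : LabPic (X.lg M hM) I) :
    ∃ (O : Type) (_ : Fintype O) (_ : Nonempty O), Nonempty (PP X M O) := by
  classical
  obtain ⟨k0⟩ := ‹Nonempty I›
  choose inn hi1 hi2 using fun o : O P => o.2
  choose out ho1 ho2 using fun o : O P => fo_out P o.1
  have ps := fun o : O P => passage P (hi1 o) (hi2 o) (ho1 o)
  have e1 : ∀ o, P.e (P.mu o.1) = Sum.inr (out (pt P o)) := fun o => by rw [← fo_pt, ho1]
  refine ⟨O P, inferInstance, ⟨pas P k0⟩, ⟨⟨nx P, pt P, inn, out,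
    (univ.filter fun k => P.mu (P.nu (P.mu (P.nu k))) ≠ k).image (pas P), fun o => (ps o).1,
    fun o h => ?_, fun o => ?_, fun o => ?_, fun o h => ?_, fun o h => ?_, fun T hT => ?_,
    hsp P⟩⟩⟩
  · have h1 := (ps o).2.1
    have h2 := nn_pos P o.2
    rw [h, sub_self, eq_comm, mul_eq_zero] at h1
    have h3 : nn P o.1 = 1 := by
      rcases h1 with h1 | h1
      · exact absurd h1 (dir_ne _)
      · omega
    have h4 : fo P o.1 = P.nu o.1 := by rw [fo, h3, pow_one]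
    refine P.red1 o.1 ⟨?_, ?_⟩
    · rw [← h4, ho1, hi1, h]
    · rw [← h4, ho2, hi2]; rfl
  · have h1 := (after_out P (ho1 o) (ho2 o)).1
    rw [← nx_val, hi1] at h1
    exact (Sum.inr.inj h1).symm
  · obtain ⟨h', a, b⟩ := mu_inr P (hi1 o)
    rw [e1] at a
    rw [Sum.inr.inj a, b]
  · exact P.red2 o.1 (by rw [e1, hi1, h])
  · obtain ⟨a, b, c, d⟩ := reg P o fun k hk => by
      by_contra hc
      exact h (mem_image.2 ⟨k, mem_filter.2 ⟨mem_univ _, hc⟩, hk⟩)
    refine ⟨Subtype.ext (fo_inj P (pt P (pt P o)).2 o.2 ?_), ?_, Subtype.ext ?_⟩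
    · rw [fo_pt, a, P.mumu]
    · rw [(ps o).2.1, (ps (pt P o)).2.1, b]
      rcases le_or_gt (nn P o.1) 1 with h1 | h1
      · rw [Nat.sub_eq_zero_of_le h1]; simp
      · rw [c h1]; cases P.sg (P.nu o.1) <;> simp [dir]
    · rw [nx_val, fo_pt, d, a]
  · refine card_image_le.trans ((euler P.nu P.mu P.mumu (mu_ne P) (mu_nu_ne P) P.pl
      (T.image Subtype.val) fun k => ?_).trans (Nat.mul_le_mul_left _ card_image_le))
    obtain ⟨t, ht, j, hj⟩ := hT (pas P k)
    obtain ⟨i, -, -, h2⟩ := of_fo_eq P (pas P k).2 (fo_pas P k).symm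
    have h3 : P.nu.SameCycle t.1 k :=
      (hj ▸ cyc P t j).trans ⟨(i : ℤ), by rw [zpow_natCast, h2]⟩
    obtain ⟨m, -, hm⟩ := h3.exists_pow_eq'
    exact ⟨t.1, mem_image_of_mem _ ht, m, hm⟩

end Vale.Agent.P201
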