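import Vale.Agent.P201.D5a1

/-! Part D5a of P201: extracting a good piece. -/

namespace Vale.Agent.P201

open Finset

namespace D5a

lemma avg {V : Type} [Fintype V] [DecidableEq V] [Nonempty V] (cl : V → V) (f : V → ℝ)
    (h : ∑ a, f a ≤ Fintype.card V) : ∃ c, (univ.filter fun a => cl a = c).Nonempty ∧
      ∑ a ∈ univ.filter (fun a => cl a = c), f a ≤ (univ.filter fun a => cl a = c).card := by
  have hm : ∀ a ∈ (univ : Finset V), cl a ∈ univ.image cl := fun a _ => mem_image_of_mem _ (mem_univ _)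
  obtain ⟨c, hc, h2⟩ := exists_le_of_sum_le (s := univ.image cl) (univ_nonempty.image _)
    (f := fun c => ∑ a ∈ univ.filter (fun a => cl a = c), f a)
    (g := fun c => ((univ.filter fun a => cl a = c).card : ℝ)) (by
      rw [sum_fiberwise_of_maps_to hm, ← Nat.cast_sum, ← card_eq_sum_card_fiberwise hm]
      exact h)
  obtain ⟨a, -, rfl⟩ := mem_image.1 hc
  exact ⟨_, ⟨a, mem_filter.2 ⟨mem_univ _, rfl⟩⟩, h2⟩

lemma sparse_of {O V : Type} {adj : O → O → Prop} (h : Sparse adj) (σ : O → V) (ι : V → O)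
    (hι : ∀ a, σ (ι a) = a) (hc : ∀ o, Relation.EqvGen (fun x y => σ x = σ y ∧ adj x y) (ι (σ o)) o)
    {adj' : V → V → Prop}
    (ha : ∀ a b, adj' a b → ∃ x y, σ x = a ∧ σ y = b ∧ (adj x y ∨ adj y x)) : Sparse adj' := by
  intro Cl _ cl hcl P h1 h2
  have hc' : ∀ o, Relation.EqvGen (fun x y => cl (σ x) = cl (σ y) ∧ adj x y) (ι (σ o)) o :=
    fun o => Relation.EqvGen.mono (r := fun x y => σ x = σ y ∧ adj x y)
      (fun a b hab => ⟨by rw [hab.1], hab.2⟩) _ _ (hc o)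
  have key : ∀ a b, Relation.EqvGen (fun a b => cl a = cl b ∧ adj' a b) a b →
      Relation.EqvGen (fun x y => cl (σ x) = cl (σ y) ∧ adj x y) (ι a) (ι b) := by
    intro a b hab
    induction hab with
    | rel a b hab =>
      obtain ⟨x, y, rfl, rfl, hxy⟩ := ha a b hab.2
      refine .trans _ _ _ (hc' x) (.trans _ _ _ ?_ (.symm _ _ (hc' y)))
      rcases hxy with hxy | hxy
      · exact .rel _ _ ⟨hab.1, hxy⟩
      · exact .symm _ _ (.rel _ _ ⟨hab.1.symm, hxy⟩)
    | refl a => exact .refl _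
    | symm a b _ ih => exact .symm _ _ ih
    | trans a b c _ _ ih1 ih2 => exact .trans _ _ _ ih1 ih2
  refine h Cl (fun o => cl (σ o)) (fun k k' hk => ?_) P h1 fun p hp => ?_
  · exact .trans _ _ _ (.symm _ _ (hc' k)) (.trans _ _ _ (key _ _ (hcl _ _ hk)) (hc' k'))
  · obtain ⟨e, a, b, e1, e2, e3⟩ := h2 p hp
    refine ⟨e, ?_⟩
    rcases e3 with e3 | e3
    · obtain ⟨x, y, rfl, rfl, hxy⟩ := ha a b e3
      exact ⟨x, y, e1, e2, hxy⟩
    · obtain ⟨x, y, rfl, rfl, hxy⟩ := ha b a e3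
      exact ⟨y, x, e1, e2, hxy.symm⟩

end D5a

open D5a

theorem piece {H V Lb O : Type} [Fintype O] [Nonempty O] [DecidableEq O] {X : Sys H V Lb}
    {M : H → H} (P : PP X M O) {s : ℕ} (hs : 1 ≤ s) (G : Seg P.nx s) (ze : ℝ) (hze : 0 < ze)
    (t K : ℕ) (h1 : (11 / 12 : ℝ) ^ t * 4 ≤ ze / 2) (h2 : (1 + 192 / ze) ^ t ≤ (K : ℝ)) :
    ∃ Q : Finset O, Q.Nonempty ∧ (∀ a ∈ Q, G.st a = a) ∧ Q.card ≤ K ∧
      ((univ.filter fun o => G.st o ∈ Q ∧ G.st (P.nx o) ∉ Q).card : ℝ) ≤ 2 * ze * Q.card ∧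
      ((univ.filter fun o => G.st o ∈ Q ∧ (o ∉ P.Irr ∧ P.pt o ∉ P.Irr) ∧
        G.st (P.pt o) ∉ Q).card : ℝ) ≤ 2 * ze * s * Q.card ∧
      (univ.filter fun o => G.st o ∈ Q ∧ ¬ (o ∉ P.Irr ∧ P.pt o ∉ P.Irr)).card ≤ 24 * Q.card := by
  let St := {a : O // G.st a = a}
  let σ : O → St := fun o => ⟨G.st o, st_st G o⟩
  have hσ : ∀ o (a : St), σ o = a ↔ G.st o = a.1 := fun o a => Subtype.ext_iff
  haveI : Nonempty St := ⟨σ (Classical.arbitrary O)⟩
  have s0 : (0 : ℝ) < s := by exact_mod_cast hs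
  obtain ⟨A, hA⟩ : ∃ A, A = N σ (fun o => o ∉ P.Irr ∧ P.pt o ∉ P.Irr) P.pt := ⟨_, rfl⟩
  obtain ⟨B, hB⟩ : ∃ B, B = N σ (fun _ => True) P.nx := ⟨_, rfl⟩
  have Asymm : ∀ a a', A a a' = A a' a := by
    have : ∀ a a', A a a' ≤ A a' a := by
      intro a a'
      rw [hA]
      refine card_le_card_of_injOn P.pt (fun o ho => ?_) P.pt.injective.injOn
      obtain ⟨e1, e2, e3⟩ := (mem_filter.1 ho).2
      have e4 := (P.hreg o e2.1).1
      exact mem_coe.2 (mem_filter.2 ⟨mem_univ _, e3, ⟨e2.2, by rw [e4]; exact e2.1⟩,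
        by rw [e4]; exact e1⟩)
    exact fun a a' => le_antisymm (this _ _) (this _ _)
  obtain ⟨w, hw⟩ : ∃ w : St → St → ℕ, ∀ a a', w a a' =
      if a' = a then 0 else A a a' + s * (B a a' + B a' a) := ⟨_, fun _ _ => rfl⟩
  have wsymm : ∀ a a', w a a' = w a' a := fun a a' => by
    rw [hw, hw, Asymm a, add_comm (B a a')]
    simp only [eq_comm]
  have wdeg : ∀ a, ∑ a', (w a a' : ℝ) ≤ 4 * s := by
    intro a
    have e : ∑ a', w a a' = ∑ a' ∈ univ.erase a, A a a' +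
        s * (∑ a' ∈ univ.erase a, B a a' + ∑ a' ∈ univ.erase a, B a' a) := by
      rw [← add_sum_erase _ _ (mem_univ a), hw, if_pos rfl, zero_add, ← sum_add_distrib, mul_sum,
        ← sum_add_distrib]
      exact sum_congr rfl fun a' ha => by rw [hw, if_neg (mem_erase.1 ha).1]
    have e1 : ∑ a' ∈ univ.erase a, A a a' ≤ 2 * s := by
      have := sumN σ (fun o => o ∉ P.Irr ∧ P.pt o ∉ P.Irr) P.pt {a} fun _ => univ.erase a
      rw [sum_singleton, ← hA] at this
      rw [this]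
      refine le_trans (card_le_card fun o ho => ?_) (card_seg G a.1)
      exact mem_filter.2 ⟨mem_univ _, (hσ _ _).1 (mem_singleton.1 (mem_filter.1 ho).2.1)⟩
    have e2 : ∑ a' ∈ univ.erase a, B a a' ≤ 1 := by
      have := sumN σ (fun _ => True) P.nx {a} fun _ => univ.erase a
      rw [sum_singleton, ← hB] at this
      rw [this]
      refine le_trans (card_le_card fun o ho => ?_) (card_last G a.1)
      obtain ⟨k1, -, k2⟩ := (mem_filter.1 ho).2
      exact mem_filter.2 ⟨mem_univ _, (hσ _ _).1 (mem_singleton.1 k1),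
        fun h => (mem_erase.1 k2).1 ((hσ _ _).2 h)⟩
    have e3 : ∑ a' ∈ univ.erase a, B a' a ≤ 1 := by
      have := sumN σ (fun _ => True) P.nx (univ.erase a) fun _ => {a}
      simp only [sum_singleton, ← hB] at this
      rw [this]
      refine le_trans (card_le_card fun o ho => ?_) (card_first G a.1)
      obtain ⟨k1, -, k2⟩ := (mem_filter.1 ho).2
      exact mem_filter.2 ⟨mem_univ _, fun h => (mem_erase.1 k1).1 ((hσ _ _).2 h),
        (hσ _ _).1 (mem_singleton.1 k2)⟩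
    have : ∑ a', w a a' ≤ 4 * s := by
      rw [e]
      have := Nat.mul_le_mul_left s (add_le_add e2 e3)
      omega
    exact_mod_cast this
  have wsp : Sparse fun a b => 0 < w a b := by
    refine sparse_of P.hsp σ Subtype.val (fun a => Subtype.ext a.2)
      (fun o => conn G (fun x hx => ⟨(Subtype.ext hx : σ (P.nx x) = σ x).symm, Or.inl rfl⟩) o)
      fun a b hab => ?_
    rw [hw] at hab
    split_ifs at hab with h
    · exact absurd hab (lt_irrefl _)
    rcases Nat.eq_zero_or_pos (A a b) with k1 | k1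
    · rcases Nat.eq_zero_or_pos (B a b) with k2 | k2
      · have k3 : 0 < B b a := by
          rw [k1, k2, zero_add, zero_add] at hab
          exact Nat.pos_of_mul_pos_left hab
        obtain ⟨o, e1, e2⟩ := N_pos (hB ▸ k3)
        exact ⟨_, o, e2, e1, Or.inr (Or.inl rfl)⟩
      · obtain ⟨o, e1, e2⟩ := N_pos (hB ▸ k2)
        exact ⟨o, _, e1, e2, Or.inl (Or.inl rfl)⟩
    · obtain ⟨o, e1, e2⟩ := N_pos (hA ▸ k1)
      exact ⟨o, _, e1, e2, Or.inl (Or.inr rfl)⟩
  obtain ⟨cl, c1, c2⟩ := cluster w wsymm (4 * s) wdeg wsp (ze * s / 48) (by positivity) t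
  have n0 : (0 : ℝ) ≤ Fintype.card St := Nat.cast_nonneg _
  have c3 : ∑ x, ∑ y ∈ univ.filter (fun y => cl y ≠ cl x), (w x y : ℝ) ≤
      ze * s * Fintype.card St := by
    refine c2.trans ?_
    have := mul_le_mul_of_nonneg_right h1 (mul_nonneg s0.le n0)
    linarith
  obtain ⟨I, hI⟩ : ∃ I : St → ℕ, ∀ a, I a =
      (univ.filter fun o => σ o = a ∧ ¬ (o ∉ P.Irr ∧ P.pt o ∉ P.Irr)).card := ⟨_, fun _ => rfl⟩
  have sI : ∀ T : Finset St, ∑ a ∈ T, I a =
      (univ.filter fun o => σ o ∈ T ∧ ¬ (o ∉ P.Irr ∧ P.pt o ∉ P.Irr)).card := by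
    intro T
    rw [card_eq_sum_card_fiberwise (f := σ) (t := T) fun o ho => (mem_filter.1 ho).2.1]
    refine sum_congr rfl fun a ha => ?_
    rw [hI, filter_filter]
    congr 1
    ext o
    simp only [mem_filter, mem_univ, true_and]
    exact ⟨fun h => ⟨⟨h.1 ▸ ha, h.2⟩, h.1⟩, fun h => ⟨h.2, h.1.2⟩⟩
  have c4 : ∑ a, I a ≤ 12 * Fintype.card St := by
    have e1 := P.hirr (univ.map (Function.Embedding.subtype fun a => G.st a = a)) fun o =>
      ⟨G.st o, mem_map.2 ⟨σ o, mem_univ _, rfl⟩, _, G.h1 o⟩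
    rw [card_map, card_univ] at e1
    have e2 : (univ.filter fun o => σ o ∈ univ ∧ ¬ (o ∉ P.Irr ∧ P.pt o ∉ P.Irr)) ⊆
        P.Irr ∪ P.Irr.map P.pt.symm.toEmbedding := by
      intro o ho
      have := (mem_filter.1 ho).2.2
      rw [mem_union, mem_map_equiv, Equiv.symm_symm]
      tauto
    have e3 := (card_le_card e2).trans (card_union_le _ _)
    rw [card_map] at e3
    rw [sI]
    change _ ≤ 12 * Fintype.card {a : O // G.st a = a}
    omega
  obtain ⟨c, hne, hc⟩ := avg cl (fun a => (∑ y ∈ univ.filter (fun y => cl y ≠ cl a), (w a y : ℝ)) /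
      (2 * ze * s) + I a / 24) (by
    rw [sum_add_distrib, ← sum_div, ← sum_div]
    have e1 : (∑ x, ∑ y ∈ univ.filter (fun y => cl y ≠ cl x), (w x y : ℝ)) / (2 * ze * s) ≤
        Fintype.card St / 2 := by
      rw [div_le_iff₀ (by positivity)]
      linarith
    have e2 : ∑ a, (I a : ℝ) ≤ 12 * Fintype.card St := by exact_mod_cast c4
    linarith)
  obtain ⟨F, hF⟩ : ∃ F, F = univ.filter fun a => cl a = c := ⟨_, rfl⟩
  have c5 := c1 c
  rw [← hF] at hne hc c5
  rw [sum_add_distrib, ← sum_div, ← sum_div] at hc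
  have mF : ∀ a, a ∈ F ↔ cl a = c := fun a => by simp [hF]
  have mQ : ∀ o, G.st o ∈ F.map (Function.Embedding.subtype fun a => G.st a = a) ↔ σ o ∈ F :=
    fun o => mem_map' (Function.Embedding.subtype fun a => G.st a = a) (a := σ o)
  obtain ⟨C, hC⟩ : ∃ C, C = ∑ a ∈ F, ∑ y ∈ univ.filter (fun y => cl y ≠ cl a), w a y := ⟨_, rfl⟩
  have p1 : (0 : ℝ) ≤ (∑ a ∈ F, (I a : ℝ)) / 24 := by positivity
  have p2 : (0 : ℝ) ≤ (C : ℝ) / (2 * ze * s) := by positivity
  have hc' : (C : ℝ) / (2 * ze * s) + (∑ a ∈ F, (I a : ℝ)) / 24 ≤ F.card := by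
    simpa only [hC, Nat.cast_sum] using hc
  have c6 : (C : ℝ) ≤ 2 * ze * s * F.card := by
    have : (C : ℝ) / (2 * ze * s) ≤ F.card := by linarith
    rwa [div_le_iff₀' (by positivity)] at this
  have wge : ∀ a, ∀ y ∈ univ.filter (fun y => cl y ≠ cl a), A a y ≤ w a y ∧ s * B a y ≤ w a y := by
    intro a y hy
    rw [hw, if_neg fun h => (mem_filter.1 hy).2 (by rw [h]), mul_add]
    omega
  have sub : ∀ (R : O → Prop) [DecidablePred R] (f : O → O),
      (univ.filter fun o => σ o ∈ F ∧ R o ∧ σ (f o) ∉ F).card ≤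
        ∑ a ∈ F, ∑ y ∈ univ.filter (fun y => cl y ≠ cl a), N σ R f a y := by
    intro R _ f
    rw [sumN]
    refine card_le_card fun o ho => ?_
    obtain ⟨k1, k2, k3⟩ := (mem_filter.1 ho).2
    exact mem_filter.2 ⟨mem_univ _, k1, k2, mem_filter.2 ⟨mem_univ _,
      fun h => k3 ((mF _).2 (h.trans ((mF _).1 k1)))⟩⟩
  refine ⟨F.map (Function.Embedding.subtype fun a => G.st a = a), hne.map, ?_, ?_, ?_, ?_, ?_⟩
  · intro a ha
    obtain ⟨b, -, rfl⟩ := mem_map.1 ha
    exact b.2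
  · rw [card_map]
    have : 4 * (s : ℝ) / (ze * s / 48) = 192 / ze := by field_simp; norm_num
    rw [this] at c5
    exact_mod_cast c5.trans h2
  · simp only [mQ, card_map]
    have e1 := sub (fun _ => True) P.nx
    simp only [true_and, ← hB] at e1
    have e2 : s * (univ.filter fun o => σ o ∈ F ∧ σ (P.nx o) ∉ F).card ≤ C := by
      refine (Nat.mul_le_mul_left s e1).trans ?_
      rw [hC, mul_sum]
      refine sum_le_sum fun a _ => ?_
      rw [mul_sum]
      exact sum_le_sum fun y hy => (wge a y hy).2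
    have e3 := ((Nat.cast_le (α := ℝ)).2 e2).trans c6
    rw [Nat.cast_mul] at e3
    refine le_of_mul_le_mul_left ?_ s0
    linarith
  · simp only [mQ, card_map]
    have e1 := sub (fun o => o ∉ P.Irr ∧ P.pt o ∉ P.Irr) P.pt
    rw [← hA] at e1
    refine le_trans ((Nat.cast_le (α := ℝ)).2 (e1.trans ?_)) c6
    rw [hC]
    exact sum_le_sum fun a _ => sum_le_sum fun y hy => (wge a y hy).1
  · simp only [mQ, card_map]
    rw [← sI]
    have : ∑ a ∈ F, (I a : ℝ) ≤ 24 * F.card := by linarith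
    exact_mod_cast this

end Vale.Agent.P201
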