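import Vale.Agent.P201.Defs

/-! Part D5b: from a piece of a diagram to a local configuration. -/

namespace Vale.Agent.P201

open Finset

namespace D5b

lemma exists_enum {O : Type} (D : Finset O) (κ : O → ℕ) (hκ : Set.InjOn κ D) :
    ∃ o : Fin D.card → O, (∀ t, o t ∈ D) ∧ (∀ x ∈ D, ∃ t, o t = x) ∧ StrictMono fun t => κ (o t) := by
  letI : LinearOrder D := LinearOrder.lift' (fun x : D => κ x)
    fun x y h => Subtype.ext (hκ x.2 y.2 h)
  let e := monoEquivOfFin D (Fintype.card_coe D)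
  exact ⟨fun t => e t, fun t => (e t).2, fun x hx => ⟨e.symm ⟨x, hx⟩, by simp⟩,
    fun t t' h => e.strictMono h⟩

lemma succ_of {S : ℕ} {f : Fin S → ℕ} (hf : StrictMono f) {t t' : Fin S} (h : f t' = f t + 1) :
    t'.1 = t.1 + 1 := by
  have h1 : t < t' := hf.lt_iff_lt.1 (by omega)
  by_contra h2
  have h3 : t.1 + 1 < t'.1 := by have : t.1 < t'.1 := h1; omega
  have a := hf (show t < ⟨t.1 + 1, h3.trans t'.2⟩ from Nat.lt_succ_self _)
  have b := hf (show (⟨t.1 + 1, h3.trans t'.2⟩ : Fin S) < t' from h3)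
  omega

lemma brk_le {S : ℕ} (f : Fin S → ℕ) (B : Finset (Fin S))
    (h : ∀ t t' : Fin S, t'.1 = t.1 + 1 → t ∉ B →
      (f t = 0 ∧ f t' = 0) ∨ (f t' + 1 = f t ∧ 1 ≤ f t')) : brk f ≤ 2 * B.card := by
  have : ((range (S - 2)).filter fun t => ext f (t + 2) + ext f t ≠ 2 * ext f (t + 1)) ⊆
      B.image (fun t => t.1) ∪ B.image (fun t => t.1 - 1) := by
    intro t ht
    simp only [mem_filter, mem_range] at ht
    have l0 : t < S := by omega
    have l1 : t + 1 < S := by omega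
    have l2 : t + 2 < S := by omega
    by_contra hc
    rw [mem_union, not_or] at hc
    have a := h ⟨t, l0⟩ ⟨t + 1, l1⟩ rfl fun hb => hc.1 (mem_image.2 ⟨_, hb, rfl⟩)
    have b := h ⟨t + 1, l1⟩ ⟨t + 2, l2⟩ rfl fun hb => hc.2 (mem_image.2 ⟨_, hb, rfl⟩)
    have c := ht.2
    simp only [ext, dif_pos l0, dif_pos l1, dif_pos l2] at c
    omega
  refine (card_le_card this).trans ((card_union_le _ _).trans ?_)
  have a := card_image_le (s := B) (f := fun t => t.1)
  have b := card_image_le (s := B) (f := fun t => t.1 - 1)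
  omega

section seg
variable {O : Type} {nx : Equiv.Perm O} {s : ℕ} (G : Seg nx s)

lemma idx_lt (x : O) : G.idx x < 2 * s := (G.h2 x).trans_le (G.h3 x).2

lemma eq_of {x y : O} (h1 : G.st x = G.st y) (h2 : G.idx x = G.idx y) : x = y := by
  rw [← G.h1 x, ← G.h1 y, h1, h2]

lemma next {x : O} (h : G.idx x + 1 ≠ G.len (G.st x)) :
    G.st (nx x) = G.st x ∧ G.idx (nx x) = G.idx x + 1 := by
  have := G.h4 x (G.idx x + 1) (lt_of_le_of_ne (G.h2 x) h)
  rwa [pow_succ', Equiv.Perm.mul_apply, G.h1] at this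

lemma prev {x : O} (h : G.st (nx x) ≠ nx x) : G.st x = G.st (nx x) := by
  have h0 : G.idx (nx x) ≠ 0 := fun h0 => h (by
    have := G.h1 (nx x)
    rwa [h0, pow_zero, Equiv.Perm.one_apply] at this)
  obtain ⟨j, hj⟩ := Nat.exists_eq_succ_of_ne_zero h0
  have h1 := G.h1 (nx x)
  have h2 := G.h2 (nx x)
  rw [hj, pow_succ', Equiv.Perm.mul_apply, nx.apply_eq_iff_eq] at h1
  have := (G.h4 (nx x) j (by omega)).1
  rwa [h1] at this

lemma exists_o [Fintype O] [DecidableEq O] (Q : Finset O) {K : ℕ} (q2 : Q.card ≤ K) :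
    ∃ (S : ℕ) (o : Fin S → O) (bl : Fin S → Fin K), S = (univ.filter fun x => G.st x ∈ Q).card ∧
      Function.Injective o ∧ (∀ t, G.st (o t) ∈ Q) ∧ (∀ x, G.st x ∈ Q → ∃ t, o t = x) ∧
      Monotone bl ∧ (∀ t t', bl t = bl t' → G.st (o t) = G.st (o t')) ∧
      (∀ t t', t < t' → bl t = bl t' → G.idx (o t) < G.idx (o t')) ∧
      ∀ t t', G.idx (o t) + 1 ≠ G.len (G.st (o t)) → o t' = nx (o t) → t'.1 = t.1 + 1 := by
  obtain ⟨num, n1, n2⟩ : ∃ num : O → ℕ, (∀ a ∈ Q, num a < K) ∧ Set.InjOn num Q := by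
    refine ⟨fun a => if h : a ∈ Q then (Q.equivFin ⟨a, h⟩ : ℕ) else 0, fun a ha => ?_,
      fun a ha b hb h => ?_⟩
    · simp only [dif_pos ha]; exact (Fin.is_lt _).trans_le q2
    · simp only [dif_pos (mem_coe.1 ha), dif_pos (mem_coe.1 hb), Fin.val_inj,
        Equiv.apply_eq_iff_eq, Subtype.mk.injEq] at h
      exact h
  have key : ∀ x y, num (G.st x) * (2 * s) + G.idx x ≤ num (G.st y) * (2 * s) + G.idx y →
      num (G.st x) ≤ num (G.st y) := fun x y h => by
    by_contra hc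
    have a := Nat.mul_le_mul_right (2 * s) (show num (G.st y) + 1 ≤ num (G.st x) by omega)
    have b := idx_lt G y
    rw [add_mul] at a
    omega
  obtain ⟨o, o1, o2, o3⟩ := exists_enum (univ.filter fun x => G.st x ∈ Q)
    (fun x => num (G.st x) * (2 * s) + G.idx x) fun x hx y hy h => by
      have a : num (G.st x) = num (G.st y) := le_antisymm (key x y h.le) (key y x h.ge)
      have h' : num (G.st x) * (2 * s) + G.idx x = num (G.st y) * (2 * s) + G.idx y := h
      rw [a] at h'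
      exact eq_of G (n2 (mem_filter.1 hx).2 (mem_filter.1 hy).2 a) (by omega)
  have o1' : ∀ t, G.st (o t) ∈ Q := fun t => (mem_filter.1 (o1 t)).2
  refine ⟨_, o, fun t => ⟨num (G.st (o t)), n1 _ (o1' t)⟩, rfl,
    fun t t' h => o3.injective (by simp only [h]), o1',
    fun x hx => o2 x (mem_filter.2 ⟨mem_univ _, hx⟩), fun t t' h => key _ _ (o3.monotone h),
    fun t t' h => n2 (o1' t) (o1' t') (congrArg Fin.val h), fun t t' h1 h2 => ?_,
    fun t t' h1 h2 => succ_of o3 ?_⟩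
  · have a : num (G.st (o t)) * (2 * s) + G.idx (o t) <
      num (G.st (o t')) * (2 * s) + G.idx (o t') := o3 h1
    have b : num (G.st (o t)) = num (G.st (o t')) := congrArg Fin.val h2
    rw [b] at a
    omega
  · simp only [h2, (next G h1).1, (next G h1).2, add_assoc]

lemma mul_le [Fintype O] [DecidableEq O] {Q : Finset O} (q1 : ∀ a ∈ Q, G.st a = a) :
    Q.card * s ≤ (univ.filter fun x => G.st x ∈ Q).card := by
  have e : ∀ a ∈ Q, ∀ j < s, G.st ((nx ^ j) a) = a ∧ G.idx ((nx ^ j) a) = j := fun a ha j hj => by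
    have := G.h4 a j (hj.trans_le (G.h3 a).1)
    rwa [q1 a ha] at this
  refine (show Q.card * s = (Q ×ˢ range s).card by rw [card_product, card_range]).le.trans ?_
  refine card_le_card_of_injOn (fun p => (nx ^ p.2) p.1) (fun p hp => ?_) fun p hp p' hp' h => ?_
  · simp only [coe_product, Set.mem_prod, mem_coe, mem_range] at hp
    exact mem_coe.2 (mem_filter.2 ⟨mem_univ _, by rw [(e _ hp.1 _ hp.2).1]; exact hp.1⟩)
  · simp only [coe_product, Set.mem_prod, mem_coe, mem_range] at hp hp'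
    have a := e _ hp.1 _ hp.2
    have b := e _ hp'.1 _ hp'.2
    simp only at h
    rw [h] at a
    exact Prod.ext (a.1.symm.trans b.1) (a.2.symm.trans b.2)

lemma card_last [Fintype O] [DecidableEq O] (Q : Finset O) :
    (univ.filter fun x => G.st x ∈ Q ∧ G.idx x + 1 = G.len (G.st x)).card ≤ Q.card :=
  card_le_card_of_injOn G.st (fun _ hx => (mem_filter.1 hx).2.1) fun x hx y hy h => by
    have a := (mem_filter.1 hx).2.2
    have b := (mem_filter.1 hy).2.2
    rw [h] at a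
    exact eq_of G h (by omega)

end seg

lemma exists_ix {O : Type} {S : ℕ} {o : Fin S → O} (ho : Function.Injective o) :
    ∃ ix : O → Option (Fin S), ∀ x t, ix x = some t ↔ o t = x := by
  classical
  refine ⟨fun x => if h : ∃ t, o t = x then some h.choose else none, fun x t => ?_⟩
  by_cases h : ∃ t, o t = x
  · simp only [dif_pos h, Option.some.injEq]
    exact ⟨fun e => e ▸ h.choose_spec, fun e => ho (h.choose_spec.trans e.symm)⟩
  · simp only [dif_neg h, reduceCtorEq, false_iff]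
    exact fun e => h ⟨t, e⟩

lemma exists_bad {H V Lb O : Type} [Fintype O] [DecidableEq O] {X : Sys H V Lb}
    {M : H → H} (P : PP X M O) {s : ℕ} (G : Seg P.nx s) (Q : Finset O)
    (q5 : (univ.filter fun o => G.st o ∈ Q ∧ ¬ (o ∉ P.Irr ∧ P.pt o ∉ P.Irr)).card ≤ 24 * Q.card) :
    ∃ B : Finset O, B.card ≤ 51 * Q.card ∧ ∀ x, G.st x ∈ Q → x ∉ B →
      G.idx x + 1 ≠ G.len (G.st x) ∧ (x ∉ P.Irr ∧ P.pt x ∉ P.Irr) ∧
      (P.nx x ∉ P.Irr ∧ P.pt (P.nx x) ∉ P.Irr) ∧ P.pt x ∉ Q ∧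
      (G.st (P.pt (P.nx x)) ∈ Q → G.idx (P.pt (P.nx x)) + 1 ≠ G.len (G.st (P.pt (P.nx x)))) := by
  have l1 := card_last G Q
  generalize hL : (univ.filter fun x => G.st x ∈ Q ∧ G.idx x + 1 = G.len (G.st x)) = Ls at l1
  generalize hN : (univ.filter fun o => G.st o ∈ Q ∧ ¬ (o ∉ P.Irr ∧ P.pt o ∉ P.Irr)) = N at q5
  refine ⟨Ls ∪ N ∪ N.image P.nx.symm ∪ Q.image P.pt ∪ (Ls.image P.pt).image P.nx.symm, ?_,
    fun x hx hb => ?_⟩
  · have a1 := card_image_le (s := N) (f := P.nx.symm)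
    have a2 := card_image_le (s := Q) (f := P.pt)
    have a3 := card_image_le (s := Ls) (f := P.pt)
    have a4 := card_image_le (s := Ls.image P.pt) (f := P.nx.symm)
    have b1 := card_union_le Ls N
    have b2 := card_union_le (Ls ∪ N) (N.image P.nx.symm)
    have b3 := card_union_le (Ls ∪ N ∪ N.image P.nx.symm) (Q.image P.pt)
    have b4 := card_union_le (Ls ∪ N ∪ N.image P.nx.symm ∪ Q.image P.pt)
      ((Ls.image P.pt).image P.nx.symm)
    omega
  · simp only [mem_union, not_or] at hb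
    obtain ⟨⟨⟨⟨b1, b2⟩, b3⟩, b4⟩, b5⟩ := hb
    have c1 : G.idx x + 1 ≠ G.len (G.st x) := fun h =>
      b1 (hL ▸ mem_filter.2 ⟨mem_univ _, hx, h⟩)
    have c2 : x ∉ P.Irr ∧ P.pt x ∉ P.Irr := by
      by_contra h
      exact b2 (hN ▸ mem_filter.2 ⟨mem_univ _, hx, h⟩)
    have c3 : P.nx x ∉ P.Irr ∧ P.pt (P.nx x) ∉ P.Irr := by
      by_contra h
      refine b3 (mem_image.2 ⟨P.nx x, hN ▸ mem_filter.2 ⟨mem_univ _, ?_, h⟩, by simp⟩)
      rw [(next G c1).1]; exact hx
    refine ⟨c1, c2, c3, fun h => b4 (mem_image.2 ⟨_, h, (P.hreg x c2.1).1⟩), fun h1 h2 => b5 ?_⟩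
    exact mem_image.2 ⟨P.nx x, mem_image.2 ⟨P.pt (P.nx x),
      hL ▸ mem_filter.2 ⟨mem_univ _, h1, h2⟩, (P.hreg _ c3.1).1⟩, by simp⟩

lemma card_pull {O : Type} {S : ℕ} {o : Fin S → O} (ho : Function.Injective o)
    (A : Finset (Fin S)) (B : Finset O) (h : ∀ t ∈ A, o t ∈ B) : A.card ≤ B.card :=
  card_le_card_of_injOn o h ho.injOn

end D5b

open D5b

theorem config_of_piece {H V Lb O : Type} [Fintype O] [DecidableEq O] {X : Sys H V Lb}
    {M : H → H} (P : PP X M O) {s : ℕ} (hs : 1 ≤ s) (G : Seg P.nx s) (ze ep : ℝ) (hze : 0 < ze)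
    (hep : 2 * ze + 24 / s ≤ ep) (K : ℕ) (Q : Finset O) (q0 : Q.Nonempty)
    (q1 : ∀ a ∈ Q, G.st a = a) (q2 : Q.card ≤ K)
    (q3 : ((univ.filter fun o => G.st o ∈ Q ∧ G.st (P.nx o) ∉ Q).card : ℝ) ≤ 2 * ze * Q.card)
    (q4 : ((univ.filter fun o => G.st o ∈ Q ∧ (o ∉ P.Irr ∧ P.pt o ∉ P.Irr) ∧
        G.st (P.pt o) ∉ Q).card : ℝ) ≤ 2 * ze * s * Q.card)
    (q5 : (univ.filter fun o => G.st o ∈ Q ∧ ¬ (o ∉ P.Irr ∧ P.pt o ∉ P.Irr)).card ≤ 24 * Q.card) :
    ∃ S h lk rg bl, Config X M K s (102 * K) ep S h lk rg bl := by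
  obtain ⟨S, o, bl, hS, oi, o1, o2, m1, m2, m3, m4⟩ := exists_o G Q q2
  obtain ⟨ix, hix⟩ := exists_ix oi
  obtain ⟨B, hB, hB'⟩ := exists_bad P G Q q5
  have hSm : Q.card * s ≤ S := hS ▸ mul_le G q1
  have ixn : ∀ x, ix x = none ↔ G.st x ∉ Q := fun x => by
    constructor
    · intro h hx
      obtain ⟨t, ht⟩ := o2 x hx
      rw [(hix x t).2 ht] at h
      exact absurd h (by simp)
    · intro h
      rcases e : ix x with _ | t
      · rfl
      · exact absurd ((hix x t).1 e ▸ o1 t) h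
  have nxt : ∀ t t' : Fin S, t'.1 = t.1 + 1 → G.idx (o t) + 1 ≠ G.len (G.st (o t)) →
      o t' = P.nx (o t) := fun t t' h1 h2 => by
    obtain ⟨u, hu⟩ := o2 (P.nx (o t)) (by rw [(next G h2).1]; exact o1 t)
    rw [← hu, show t' = u from Fin.ext (h1.trans (m4 t u h2 hu).symm)]
  obtain ⟨rg, r1, r2⟩ : ∃ rg : Fin S → Option (Fin S),
      (∀ t, (o t ∉ P.Irr ∧ P.pt (o t) ∉ P.Irr) → rg t = ix (P.pt (o t))) ∧
      ∀ t, ¬ (o t ∉ P.Irr ∧ P.pt (o t) ∉ P.Irr) → rg t = none :=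
    ⟨fun t => if o t ∉ P.Irr ∧ P.pt (o t) ∉ P.Irr then ix (P.pt (o t)) else none,
      fun t h => if_pos h, fun t h => if_neg h⟩
  have hs0 : (0 : ℝ) < s := by exact_mod_cast hs
  have hSr : (Q.card : ℝ) * s ≤ S := by exact_mod_cast hSm
  have hQ : (0 : ℝ) ≤ Q.card := by positivity
  have h24 : 24 / (s : ℝ) * s = 24 := by field_simp
  have hep0 : 0 ≤ 24 / (s : ℝ) := by positivity
  refine ⟨S, fun x => if x.2 then P.out (o x.1) else P.inn (o x.1), fun t => ix (P.nx (o t)), rg,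
    bl, fun t => P.hv _, fun t => P.hne _, fun t t' h => ?_, fun t t' u h h' => ?_, m1,
    fun t t' h1 h2 => ?_, fun b => ?_, fun t t' h => ?_, ?_, ?_, ?_, ?_⟩
  · simp only [if_true, Bool.false_eq_true, if_false, (hix _ _).1 h, P.hM]
  · exact oi (P.nx.injective (((hix _ _).1 h).symm.trans ((hix _ _).1 h')))
  · refine (hix _ _).2 (nxt t t' h1 ?_)
    have a := m3 t t' (by rw [Fin.lt_def]; omega) h2
    have b := G.h2 (o t')
    rw [← m2 t t' h2] at b
    omega
  · refine le_trans ?_ (card_range (2 * s)).le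
    refine card_le_card_of_injOn (fun t => G.idx (o t))
      (fun t _ => mem_coe.2 (mem_range.2 (idx_lt G _))) fun t ht t' ht' h => oi ?_
    exact eq_of G (m2 t t' ((mem_filter.1 ht).2.trans (mem_filter.1 ht').2.symm)) h
  · have hr : o t ∉ P.Irr ∧ P.pt (o t) ∉ P.Irr := by
      by_contra hc
      rw [r2 t hc] at h
      exact absurd h (by simp)
    rw [r1 t hr, hix] at h
    have e := P.hreg _ hr.1
    have l := P.hlab (P.pt (o t))
    rw [e.1] at l
    refine ⟨?_, ?_, ?_, ?_⟩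
    · rw [r1 t' (by rw [h, e.1]; exact ⟨hr.2, hr.1⟩), hix, h, e.1]
    · simp only [if_true, Bool.false_eq_true, if_false, h, l]
    · simp only [if_true, Bool.false_eq_true, if_false, h, e.2.1]
    · simp only [if_true, Bool.false_eq_true, if_false, h]
      exact P.hmir _
  · refine (brk_le _ (univ.filter fun t => o t ∈ B) fun t t' h1 h2 => ?_).trans ?_
    · obtain ⟨c1, c2, c3, c4, c5⟩ := hB' _ (o1 t) fun h => h2 (mem_filter.2 ⟨mem_univ _, h⟩)
      have e1 := nxt t t' h1 c1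
      have e2 := (P.hreg _ c2.1).2.2
      rw [r1 t c2, r1 t' (e1 ▸ c3), e1, ← e2]
      rw [← e2] at c4
      generalize P.pt (P.nx (o t)) = p at c4 c5
      by_cases hp : G.st p ∈ Q
      · obtain ⟨u, hu⟩ := o2 p hp
        obtain ⟨u', hu'⟩ := o2 (P.nx p) (by rw [(next G (c5 hp)).1]; exact hp)
        have := m4 u u' (hu ▸ c5 hp) (hu ▸ hu')
        rw [(hix _ _).2 hu, (hix _ _).2 hu']
        simp only [oc]
        omega
      · have hp' : G.st (P.nx p) ∉ Q := fun h => by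
          by_cases hc : G.st (P.nx p) = P.nx p
          · exact c4 (hc ▸ h)
          · exact hp (prev G hc ▸ h)
        rw [(ixn _).2 hp, (ixn _).2 hp']
        exact Or.inl ⟨rfl, rfl⟩
    · have := card_pull oi (univ.filter fun t => o t ∈ B) B fun t ht => (mem_filter.1 ht).2
      omega
  · have := card_pos.2 q0
    nlinarith
  · have a := card_pull oi (univ.filter fun t => rg t = none)
      ((univ.filter fun o => G.st o ∈ Q ∧ (o ∉ P.Irr ∧ P.pt o ∉ P.Irr) ∧ G.st (P.pt o) ∉ Q) ∪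
        (univ.filter fun o => G.st o ∈ Q ∧ ¬ (o ∉ P.Irr ∧ P.pt o ∉ P.Irr))) fun t ht => by
      by_cases hr : o t ∉ P.Irr ∧ P.pt (o t) ∉ P.Irr
      · exact mem_union_left _ (mem_filter.2 ⟨mem_univ _, o1 t, hr,
          (ixn _).1 (r1 t hr ▸ (mem_filter.1 ht).2)⟩)
      · exact mem_union_right _ (mem_filter.2 ⟨mem_univ _, o1 t, hr⟩)
    have b := a.trans ((card_union_le _ _).trans (Nat.add_le_add_left q5 _))
    have c := (Nat.cast_le (α := ℝ)).2 b
    push_cast at c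
    have d := mul_le_mul hep hSr (by positivity) (by linarith)
    nlinarith
  · have a := card_pull oi (univ.filter fun t => ix (P.nx (o t)) = none)
      (univ.filter fun o => G.st o ∈ Q ∧ G.st (P.nx o) ∉ Q) fun t ht =>
      mem_filter.2 ⟨mem_univ _, o1 t, (ixn _).1 (mem_filter.1 ht).2⟩
    have c := mul_le_mul_of_nonneg_right (((Nat.cast_le (α := ℝ)).2 a).trans q3) hs0.le
    have d := mul_le_mul (show 2 * ze ≤ ep by linarith) hSr (by positivity) (by linarith)
    linarith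

end Vale.Agent.P201
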