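import Vale.Agent.P201.PartD2

/-! The zero divisors. -/

namespace Vale.Agent.P201

open Finset

namespace F

theorem two {T : Type} (c : T →₀ ZMod 2) : c + c = 0 := by
  ext t
  exact CharTwo.add_self_eq_zero _

theorem two' {G : Type} [Group G] (c : MonoidAlgebra (ZMod 2) G) : c + c = 0 :=
  MonoidAlgebra.ext (two _)

theorem sum_inv2 {H A : Type} [Fintype H] [AddCommMonoid A] (h2 : ∀ c : A, c + c = 0)
    (σ : H → H) (hσ : ∀ h, σ (σ h) = h) (hne : ∀ h, σ h ≠ h) (f : H → A)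
    (hf : ∀ h, f (σ h) = f h) : ∑ h, f h = 0 :=
  sum_involution (fun h _ => σ h) (fun h _ => by rw [hf, h2]) (fun h _ _ => hne h)
    (fun _ _ => mem_univ _) fun h _ => hσ h

theorem bb {W E Y : Type} (Γ : LG W E Y) (R : Type) [CommRing R] (z : (Γ.G × E) →₀ R) :
    Γ.bd1 R (Γ.bd2 R z) = 0 := by
  induction z using Finsupp.induction_linear with
  | zero => simp
  | add f g hf hg => rw [map_add, map_add, hf, hg, add_zero]
  | single x c =>
    simp only [LG.bd1, LG.bd2, Finsupp.linearCombination_single, map_smul, map_sub, map_add,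
      one_smul, mul_assoc x.1, D2.rel]
    rw [show ∀ a b c : Γ.G →₀ R, a - b + (c - a) - (c - b) = 0 from fun a b c => by abel,
      smul_zero]

theorem inv_zero {G R : Type} [Group G] [Zero R] (a : G) (ha : ¬ IsOfFinOrder a) (y : G →₀ R)
    (hy : ∀ g, y (g * a) = y g) : y = 0 := by
  ext g
  by_contra h
  have h1 : ∀ k : ℕ, y (g * a ^ k) = y g := fun k => by
    induction k with
    | zero => simp
    | succ k ih => rw [pow_succ, ← mul_assoc, hy, ih]
  refine Set.infinite_of_injective_forall_mem (f := fun k : ℕ => g * a ^ k)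
    (s := (y.support : Set G)) (fun k l hkl => ?_) (fun k => ?_) y.support.finite_toSet
  · exact (injective_pow_iff_not_isOfFinOrder.2 ha) (mul_left_cancel hkl)
  · rw [mem_coe, Finsupp.mem_support_iff, h1]
    exact h

theorem bd2_single {W E Y : Type} (Γ : LG W E Y) (g : Γ.G) (e : E) :
    Γ.bd2 (ZMod 2) (Finsupp.single (g, e) 1) = Finsupp.single (g, Sum.inr (Γ.src e)) 1 +
      Finsupp.single (g * Γ.gen (Sum.inr (Γ.src e)), Sum.inl (Γ.lb e)) 1 -
      Finsupp.single (g, Sum.inr (Γ.tgt e)) 1 := by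
  rw [LG.bd2, Finsupp.linearCombination_single, one_smul]

section
variable {H V Lb : Type} (X : Sys H V Lb) (M : H → H) (hM : X.IsMatch M)

/-- the generator of the line edges -/
def ga : (X.lg M hM).G := (X.lg M hM).gen (Sum.inl none)
/-- the generator of a label -/
def gs (i : Lb) : (X.lg M hM).G := (X.lg M hM).gen (Sum.inl (some i))
/-- the generator of a line vertex -/
def gt (x : V) (r : ℤ) : (X.lg M hM).G := (X.lg M hM).gen (Sum.inr (Sum.inl (x, r)))
/-- the generator of a middle vertex -/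
def gc (h : H) : (X.lg M hM).G := (X.lg M hM).gen (Sum.inr (Sum.inr s(h, M h)))

theorem gt_succ (x : V) (r : ℤ) : gt X M hM x r * ga X M hM = gt X M hM x (r + 1) :=
  D2.rel (X.lg M hM) (Sum.inl (x, r))

theorem gt_eq (x : V) (r : ℤ) : gt X M hM x r = gt X M hM x 0 * ga X M hM ^ r := by
  induction r using Int.induction_on with
  | zero => simp
  | succ r ih => rw [← gt_succ, ih, zpow_add_one, mul_assoc]
  | pred r ih =>
    rw [zpow_sub_one, ← mul_assoc, ← ih, eq_mul_inv_iff_mul_eq, gt_succ, sub_add_cancel]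

theorem gt_gs (h : H) : gt X M hM (X.vtx h) (X.pos h) * gs X M hM (X.lab h) = gc X M hM h :=
  D2.rel (X.lg M hM) (Sum.inr h)

theorem gc_M (h : H) : gc X M hM (M h) = gc X M hM h := by
  rw [gc, gc, (hM h).1, Sym2.eq_swap]

include hM in
theorem M_ne (h : H) : M h ≠ h := fun e => (hM h).2 (by rw [e])

theorem ga_ne (hp : ∀ h, Even (X.pos h)) : ga X M hM ≠ 1 := by
  let f : Option Lb ⊕ ((V × ℤ) ⊕ Sym2 H) → Multiplicative (ZMod 2) := fun y =>
    Multiplicative.ofAdd (Sum.elim (fun o => o.elim 1 fun _ => 0)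
      (Sum.elim (fun x => (x.2 : ZMod 2)) fun _ => 0) y)
  have hf : ∀ r ∈ (X.lg M hM).rels, FreeGroup.lift f r = 1 := by
    rintro _ ⟨e, rfl⟩
    simp only [map_mul, map_inv, FreeGroup.lift_apply_of, mul_inv_eq_one]
    rcases e with x | h
    · simp [f, Sys.lg, ofAdd_add]
    · simp [f, Sys.lg, (hp h).intCast_zmod_two]
  intro h
  have h1 : PresentedGroup.toGroup hf (ga X M hM) = f (Sum.inl none) :=
    PresentedGroup.toGroup.of hf
  rw [h, map_one] at h1
  exact absurd h1 (by simp only [f, Sum.elim_inl, Option.elim_none]; decide)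

theorem bd2_inr (g : (X.lg M hM).G) (h : H) :
    (X.lg M hM).bd2 (ZMod 2) (Finsupp.single (g, Sum.inr h) 1) =
      Finsupp.single (g, Sum.inr (Sum.inl (X.vtx h, X.pos h))) 1 +
        Finsupp.single (g * gt X M hM (X.vtx h) (X.pos h), Sum.inl (some (X.lab h))) 1 -
        Finsupp.single (g, Sum.inr (Sum.inr s(h, M h))) 1 := bd2_single _ _ _

theorem tel (g : (X.lg M hM).G) (x : V) (p : ℕ) :
    (X.lg M hM).bd2 (ZMod 2) (∑ r ∈ range p, Finsupp.single (g, Sum.inl (x, (r : ℤ))) 1) =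
      Finsupp.single (g, Sum.inr (Sum.inl (x, 0))) 1 -
        Finsupp.single (g, Sum.inr (Sum.inl (x, (p : ℤ)))) 1 +
        ∑ r ∈ range p, Finsupp.single (g * gt X M hM x r, Sum.inl none) 1 := by
  induction p with
  | zero => simp
  | succ p ih =>
    rw [sum_range_succ, sum_range_succ, map_add, ih, bd2_single]
    simp only [Sys.lg, Sum.elim_inl, gt, Nat.cast_succ]
    abel

theorem key [Fintype H] (hp : ∀ h, 0 ≤ X.pos h)
    (h2 : Function.Injective ((X.lg M hM).bd2 (ZMod 2))) (ha : ¬ IsOfFinOrder (ga X M hM))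
    (g : H → (X.lg M hM).G) (hg : ∀ h, g (M h) = g h)
    (h0 : ∑ h, (Finsupp.single (g h, X.vtx h) 1 : _ →₀ ZMod 2) = 0)
    (h1 : ∑ h, (Finsupp.single (g h * gt X M hM (X.vtx h) (X.pos h), X.lab h) 1 : _ →₀ ZMod 2)
      = 0) (h : H) : False := by
  classical
  let z : ((X.lg M hM).G × ((V × ℤ) ⊕ H)) →₀ ZMod 2 := ∑ h, (Finsupp.single (g h, Sum.inr h) 1 +
    ∑ r ∈ range (X.pos h).toNat, Finsupp.single (g h, Sum.inl (X.vtx h, (r : ℤ))) 1)
  let y : (X.lg M hM).G →₀ ZMod 2 := ∑ h, ∑ r ∈ range (X.pos h).toNat,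
    Finsupp.single (g h * gt X M hM (X.vtx h) r) 1
  let j : (X.lg M hM).G → (X.lg M hM).G × (Option Lb ⊕ ((V × ℤ) ⊕ Sym2 H)) :=
    fun u => (u, Sum.inl none)
  have e0 := congrArg (Finsupp.mapDomain fun u : (X.lg M hM).G × V =>
    ((u.1, Sum.inr (Sum.inl (u.2, 0))) : (X.lg M hM).G × (Option Lb ⊕ ((V × ℤ) ⊕ Sym2 H)))) h0
  have e1 := congrArg (Finsupp.mapDomain fun u : (X.lg M hM).G × Lb =>
    ((u.1, Sum.inl (some u.2)) : (X.lg M hM).G × (Option Lb ⊕ ((V × ℤ) ⊕ Sym2 H)))) h1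
  have e2 := sum_inv2 two M (fun h => (hM h).1) (M_ne X M hM) (fun h => Finsupp.single
    ((g h, Sum.inr (Sum.inr s(h, M h))) : (X.lg M hM).G × (Option Lb ⊕ ((V × ℤ) ⊕ Sym2 H))) 1)
    fun h => by rw [hg, (hM h).1, Sym2.eq_swap]
  simp only [Finsupp.mapDomain_finsetSum, Finsupp.mapDomain_single, Finsupp.mapDomain_zero]
    at e0 e1
  have hz : (X.lg M hM).bd2 (ZMod 2) z = Finsupp.mapDomain j y := by
    simp only [z, y, map_sum ((X.lg M hM).bd2 (ZMod 2)) _ univ, map_add, bd2_inr, tel,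
      Finsupp.mapDomain_finsetSum, Finsupp.mapDomain_single, Int.toNat_of_nonneg (hp _),
      sum_add_distrib, sum_sub_distrib]
    rw [e0, e1, e2, add_zero, sub_zero, zero_sub]
    exact add_neg_cancel_left _ _
  have hy : y = 0 := by
    refine inv_zero _ ha y fun u => ?_
    have := bb (X.lg M hM) _ z
    have h3 : ∀ y : (X.lg M hM).G →₀ ZMod 2, (X.lg M hM).bd1 (ZMod 2) (Finsupp.mapDomain j y) =
        Finsupp.mapDomain (· * ga X M hM) y - y := fun y => by
      induction y using Finsupp.induction_linear with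
      | zero => simp
      | add f g hf hg => simp only [Finsupp.mapDomain_add, map_add, hf, hg]; abel
      | single v c => simp [LG.bd1, j, ga, smul_sub]
    rw [hz, h3, sub_eq_zero] at this
    rw [← this, Finsupp.mapDomain_apply (mul_left_injective _), this]
  rw [hy, Finsupp.mapDomain_zero, ← map_zero ((X.lg M hM).bd2 (ZMod 2))] at hz
  have := DFunLike.congr_fun (h2 hz) (g h, Sum.inr h)
  have h4 : ∀ x, (g x = g h ∧ x = h) ↔ x = h := fun x => ⟨fun e => e.2, fun e => ⟨by rw [e], e⟩⟩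
  simp [z, Finsupp.single_apply, Finsupp.finsetSum_apply, h4] at this

end

theorem cc {A : Type} [AddCommGroup A] (h2 : ∀ c : A, c + c = 0) (f : ℤ → A) (k l : Fin 3) :
    ∑ p ∈ exP k, ∑ q ∈ exP l, f (p + q) = ∑ p ∈ exC k l, f p := by
  fin_cases k <;> fin_cases l <;> simp [exP, exC]
  · linear_combination (norm := abel) h2 (f 4) + h2 (f 10) + h2 (f 14)
  · linear_combination (norm := abel) h2 (f 10) + h2 (f 16) + h2 (f 20)
  · linear_combination (norm := abel) h2 (f 10) + h2 (f 16) + h2 (f 20)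
  · linear_combination (norm := abel) h2 (f 6) + h2 (f 16) + h2 (f 20) + h2 (f 22) + h2 (f 26) +
      h2 (f 36)

theorem sum_H {n m : ℕ} {A : Type} [AddCommMonoid A] (f : Ix n → Ix m → ℤ → A) :
    ∑ h : exH n m, f h.1.1 h.1.2 h.2.1 = ∑ x, ∑ i, ∑ p ∈ exC x.1.1 i.1.1, f x i p := by
  rw [Fintype.sum_sigma, Fintype.sum_prod_type]
  exact sum_congr rfl fun x _ => sum_congr rfl fun i _ => sum_coe_sort _ (f x i)

theorem pos_prop (k l : Fin 3) : ∀ p ∈ exC k l, 0 ≤ p ∧ Even p := by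
  revert k l
  decide

theorem zero_mem (k l : Fin 3) : (0 : ℤ) ∈ exC k l := by
  revert k l
  decide

/-- flip the last coordinate -/
def fl {n : ℕ} (x : Ix n) : Ix n := (x.1, x.2.1, !x.2.2)

theorem fl_fl {n : ℕ} (x : Ix n) : fl (fl x) = x := by simp [fl]

theorem fl_ne {n : ℕ} (x : Ix n) : fl x ≠ x := fun h => by
  simpa [fl] using congrArg (fun y : Ix n => y.2.2) h

/-- the polynomials -/
noncomputable def P {G : Type} [Group G] (a : G) (k : Fin 3) : MonoidAlgebra (ZMod 2) G :=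
  ∑ p ∈ exP k, MonoidAlgebra.single (a ^ p) 1

theorem P_mul {G : Type} [Group G] (a u v : G) (k l : Fin 3) :
    MonoidAlgebra.single u 1 * P a k * (P a l * MonoidAlgebra.single v 1) =
      ∑ p ∈ exC k l, MonoidAlgebra.single (u * a ^ p * v) 1 := by
  rw [← cc two' (fun p => MonoidAlgebra.single (u * a ^ p * v) 1), P, P, mul_sum, sum_mul, sum_mul]
  refine sum_congr rfl fun p _ => ?_
  rw [mul_sum]
  refine sum_congr rfl fun q _ => ?_
  simp only [MonoidAlgebra.single_mul_single, mul_one, zpow_add, mul_assoc]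

end F

open F

theorem zero_div (n m : ℕ) (hn : 1 ≤ n) (hm : 1 ≤ m) (M : exH n m → exH n m)
    (hM : (exX n m).IsMatch M)
    (h2 : Function.Injective (((exX n m).lg M hM).bd2 (ZMod 2)))
    (ht : ∀ g : ((exX n m).lg M hM).G, IsOfFinOrder g → g = 1) :
    ∃ a b : MonoidAlgebra (ZMod 2) ((exX n m).lg M hM).G, a ≠ 0 ∧ b ≠ 0 ∧ a * b = 0 := by
  have hp : ∀ h : exH n m, 0 ≤ (exX n m).pos h ∧ Even ((exX n m).pos h) :=
    fun h => pos_prop _ _ _ h.2.2
  have ha : ¬ IsOfFinOrder (ga _ M hM) := fun h => ga_ne _ M hM (fun h => (hp h).2) (ht _ h)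
  let h₀ : exH n m := ⟨((⟨0, ⟨0, by decide⟩⟩, ⟨0, hn⟩, true), (⟨0, ⟨0, by decide⟩⟩, ⟨0, hm⟩, true)),
    0, zero_mem _ _⟩
  let be : Ix n → MonoidAlgebra (ZMod 2) ((exX n m).lg M hM).G := fun x =>
    MonoidAlgebra.single (gt _ M hM x 0) 1 * P (ga _ M hM) x.1.1
  let al : Ix m → MonoidAlgebra (ZMod 2) ((exX n m).lg M hM).G := fun i =>
    P (ga _ M hM) i.1.1 * MonoidAlgebra.single (gs _ M hM i) 1
  have ba : ∀ x i, be x * al i = ∑ p ∈ exC x.1.1 i.1.1,
      MonoidAlgebra.single (gt _ M hM x p * gs _ M hM i) 1 := fun x i => by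
    exact (P_mul _ _ _ _ _).trans (sum_congr rfl fun p _ => by rw [← gt_eq])
  refine ⟨∑ x, be x, ∑ i, al i, fun hb => ?_, fun hb => ?_, ?_⟩
  · refine key _ M hM (fun h => (hp h).1) h2 ha (fun _ => 1) (fun _ => rfl) ?_ ?_ h₀
    · exact sum_inv2 two (fun h : exH n m => ⟨(h.1.1, fl h.1.2), h.2⟩)
        (by rintro ⟨⟨⟨_, _, _ | _⟩, _, _, _ | _⟩, _⟩ <;> rfl)
        (fun h e => fl_ne _ (congrArg (fun y : exH n m => y.1.2) e)) _ fun h => rfl
    · refine (sum_H fun x i p => Finsupp.single (1 * gt _ M hM x p, i) (1 : ZMod 2)).trans ?_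
      rw [sum_comm]
      refine sum_eq_zero fun i _ => ?_
      have := congrArg (fun u => Finsupp.mapDomain (fun v => (1 * (v * (gs _ M hM i)⁻¹), i))
        (u * al i).coeff) hb
      simpa only [sum_mul, ba, MonoidAlgebra.coeff_sum, MonoidAlgebra.coeff_single,
        Finsupp.mapDomain_finsetSum, Finsupp.mapDomain_single, zero_mul, MonoidAlgebra.coeff_zero,
        Finsupp.mapDomain_zero, mul_inv_cancel_right] using this
  · refine key _ M hM (fun h => (hp h).1) h2 ha (fun h => (gc _ M hM h)⁻¹)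
      (fun h => by rw [gc_M]) ?_ ?_ h₀
    · simp only [← gt_gs]
      refine (sum_H fun x i p => Finsupp.single ((gt _ M hM x p * gs _ M hM i)⁻¹, x)
        (1 : ZMod 2)).trans ?_
      refine sum_eq_zero fun x _ => ?_
      have := congrArg (fun u => Finsupp.mapDomain (fun v => (v⁻¹, x)) (be x * u).coeff) hb
      simpa only [mul_sum, ba, MonoidAlgebra.coeff_sum, MonoidAlgebra.coeff_single,
        Finsupp.mapDomain_finsetSum, Finsupp.mapDomain_single, mul_zero, MonoidAlgebra.coeff_zero,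
        Finsupp.mapDomain_zero] using this
    · simp only [← gt_gs, mul_inv_rev, inv_mul_cancel_right]
      exact sum_inv2 two (fun h : exH n m => ⟨(fl h.1.1, h.1.2), h.2⟩)
        (by rintro ⟨⟨⟨_, _, _ | _⟩, _, _, _ | _⟩, _⟩ <;> rfl)
        (fun h e => fl_ne _ (congrArg (fun y : exH n m => y.1.1) e)) _ fun h => rfl
  · simp only [sum_mul_sum, ba]
    refine (sum_H fun x i p => MonoidAlgebra.single (gt _ M hM x p * gs _ M hM i)
      (1 : ZMod 2)).symm.trans ?_
    refine (sum_congr rfl fun h _ => congrArg (MonoidAlgebra.single · 1) (gt_gs _ M hM h)).trans ?_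
    exact sum_inv2 two' M (fun h => (hM h).1) (M_ne _ M hM) _ fun h => by rw [gc_M]

end Vale.Agent.P201
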