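import Vale.Agent.P201.Defs

/-! The choice of parameters. -/

namespace Vale.Agent.P201

open Finset

namespace PA

theorem first : ∃ (m t K : ℕ) (ze : ℝ), 0 < ze ∧ (11 / 12 : ℝ) ^ t * 4 ≤ ze / 2 ∧
    (1 + 192 / ze) ^ t ≤ (K : ℝ) ∧ 1 ≤ K ∧ 4320 ≤ m ∧ 22 * (1 + Real.log K) ≤ Real.log m ∧
    Real.log m * ze ≤ 1 / 7680000 := by
  have h1 := Real.log_two_gt_d9
  have h2 := Real.log_two_lt_d9
  have key : ∀ t k j : ℕ, t = 8 * 53 → k = 58 * t → (k : ℝ) = 24592 → (j : ℝ) = 541068 → 13 ≤ j →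
      ∃ (m t K : ℕ) (ze : ℝ), 0 < ze ∧ (11 / 12 : ℝ) ^ t * 4 ≤ ze / 2 ∧
      (1 + 192 / ze) ^ t ≤ (K : ℝ) ∧ 1 ≤ K ∧ 4320 ≤ m ∧ 22 * (1 + Real.log K) ≤ Real.log m ∧
      Real.log m * ze ≤ 1 / 7680000 := by
    intro t k j ht hk hk' hj hj'
    refine ⟨2 ^ j, t, 2 ^ k, 1 / 2 ^ 50, by positivity, ?_, ?_, Nat.one_le_two_pow, ?_, ?_, ?_⟩
    · have : (11 / 12 : ℝ) ^ t ≤ (1 / 2) ^ 53 := by
        rw [ht, pow_mul]
        exact pow_le_pow_left₀ (by positivity) (by norm_num) _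
      refine (mul_le_mul_of_nonneg_right this (by norm_num)).trans (by norm_num)
    · rw [hk, pow_mul, Nat.cast_pow]
      exact pow_le_pow_left₀ (by positivity) (by norm_num) _
    · exact le_trans (by norm_num) (Nat.pow_le_pow_right (by norm_num) hj')
    · rw [Nat.cast_pow, Nat.cast_pow, Real.log_pow, Real.log_pow, hk', hj, Nat.cast_ofNat]
      linarith
    · rw [Nat.cast_pow, Real.log_pow, hj, Nat.cast_ofNat]
      linarith
  exact key 424 24592 541068 rfl rfl (by norm_num) (by norm_num) (by norm_num)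

theorem small (D c : ℝ) (N : ℕ) (hc : 0 < c) :
    ∃ s0 : ℕ, ∀ S : ℕ, s0 ≤ S → D * ((S : ℝ) ^ N * Real.exp (- c * S)) < 1 := by
  have h := ((tendsto_rpow_mul_exp_neg_mul_atTop_nhds_zero N c hc).comp
    tendsto_natCast_atTop_atTop).const_mul D
  rw [mul_zero] at h
  obtain ⟨s0, hs0⟩ := Filter.eventually_atTop.1 (h.eventually (gt_mem_nhds one_pos))
  exact ⟨s0, fun S hS => by simpa using hs0 S hS⟩

theorem npat_le (S A : ℕ) (hS : 1 ≤ S) : npat S A ≤ 9 ^ 5 * 4 ^ (5 * A) * S ^ (10 + 10 * A) := by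
  calc npat S A ≤ ((3 * S) ^ 2 * (4 * S ^ 2) ^ A) ^ 5 := by
        unfold npat
        gcongr
        · omega
        · nlinarith
    _ = _ := by
      rw [mul_pow, mul_pow 4, mul_pow 3, mul_pow, mul_pow, ← pow_mul, ← pow_mul, ← pow_mul,
        ← pow_mul, ← pow_mul, pow_add, show 2 * (A * 5) = 10 * A by ring, mul_comm A 5]
      ring

theorem npat_pos (S A : ℕ) : 1 ≤ npat S A := by
  unfold npat
  exact Nat.one_le_iff_ne_zero.2 (by positivity)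

theorem gain_ge (K s S : ℕ) (ze L ln ll : ℝ) (hze : 0 ≤ ze) (hs : (0 : ℝ) < s) (hL : 11 ≤ L)
    (hLz : L * ze ≤ 1 / 7680000) (hln : ln ≤ 10 * s * L) :
    1 / 160000 * S - ((1 / 40000) / 2 * (4 * (K : ℝ) ^ 3) + (L + 11) * (4 * (K : ℝ) ^ 3) +
      8 * (K : ℝ) ^ 3 * ll) ≤ gain K s S (4 * ze) (1 / 40000) L 11 ln ll := by
  have e1 : 4 * ze * S / s * ln ≤ 4 * ze * S / s * (10 * s * L) :=
    mul_le_mul_of_nonneg_left hln (by positivity)
  rw [show 4 * ze * S / s * (10 * s * L) = 40 * (L * ze * S) by field_simp; ring] at e1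
  have e2 : L * ze * S ≤ 1 / 7680000 * S := mul_le_mul_of_nonneg_right hLz (by positivity)
  have e3 : 11 * (ze * S) ≤ L * (ze * S) := mul_le_mul_of_nonneg_right hL (by positivity)
  rw [gain]
  linarith

theorem final (K s S A : ℕ) (C ga : ℝ) (hK : 1 ≤ K) (hs : 1 ≤ s) (h1 : s ≤ S)
    (hg : 1 / 160000 * S - C ≤ ga)
    (h : 3 * K * (9 ^ 5 * 4 ^ (5 * A)) * Real.exp (C / K) *
      ((S : ℝ) ^ (1 + (10 + 10 * A)) * Real.exp (- (1 / 160000 / K) * S)) < 1) :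
    0 < ga ∧ ((2 * s * K + 1 : ℕ) : ℝ) * npat S A * Real.exp (-ga / K) < 1 := by
  have hK' : (1 : ℝ) ≤ K := by exact_mod_cast hK
  have e4 : ((2 * s * K + 1 : ℕ) : ℝ) * npat S A * Real.exp (-ga / K) < 1 := by
    refine lt_of_le_of_lt ?_ h
    have a1 : ((2 * s * K + 1 : ℕ) : ℝ) ≤ 3 * K * S := by
      have : 2 * s * K + 1 ≤ 3 * K * S := by
        nlinarith [Nat.mul_le_mul h1 (le_refl K), Nat.mul_le_mul (hs.trans h1) hK]
      exact_mod_cast this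
    have a2 : (npat S A : ℝ) ≤ 9 ^ 5 * 4 ^ (5 * A) * S ^ (10 + 10 * A) := by
      exact_mod_cast npat_le S A (by omega)
    have a3 : Real.exp (-ga / K) ≤ Real.exp (C / K) * Real.exp (-(1 / 160000 / K) * S) := by
      rw [← Real.exp_add, Real.exp_le_exp,
        show C / K + -(1 / 160000 / K) * S = -(1 / 160000 * S - C) / K by ring]
      exact div_le_div_of_nonneg_right (by linarith) (by linarith)
    refine (mul_le_mul (mul_le_mul a1 a2 (by positivity) (by positivity)) a3 (by positivity)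
      (by positivity)).trans (le_of_eq ?_)
    rw [pow_add (S : ℝ) 1]
    ring
  refine ⟨?_, e4⟩
  by_contra h0
  have a1 : 1 ≤ Real.exp (-ga / K) :=
    Real.one_le_exp (div_nonneg (by linarith) (by linarith))
  have a2 : (1 : ℝ) ≤ ((2 * s * K + 1 : ℕ) : ℝ) * npat S A := by
    exact_mod_cast Nat.mul_pos (Nat.succ_pos _) (npat_pos S A)
  exact absurd (one_le_mul_of_one_le_of_one_le a2 a1) (not_le.2 e4)

end PA

open PA

theorem param : ∃ (m n s g t K N0 : ℕ) (ga L Cw ep ze : ℝ), 1 ≤ m ∧ 1 ≤ n ∧ 1 ≤ s ∧ 4 * s ≤ g ∧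
    N0 + 4 * (432 * m) ^ (g + 4) + 2 * (432 * n) + 2 * (2 * s * K) ≤ 4 * n * m * 1923 ∧
    72 * n ≤ N0 ∧ ((72 * n * (432 * m) ^ 2 : ℕ) : ℝ) ≤ N0 * Real.exp (- ga + L + Cw) ∧
    ((16 * n ^ 2 * m ^ 2 * 3697327 : ℕ) : ℝ) ≤ (N0 : ℝ) ^ 2 * Real.exp (- 2 * ga) ∧
    ((432 * n : ℕ) : ℝ) ≤ N0 * Real.exp (- ga - L) ∧ 0 ≤ ga ∧ 0 < L ∧ 0 ≤ Cw ∧
    Cw * (1 + Real.log K) ≤ L / 2 ∧ 0 < ze ∧ (11 / 12 : ℝ) ^ t * 4 ≤ ze / 2 ∧
    (1 + 192 / ze) ^ t ≤ (K : ℝ) ∧ 2 * ze + 24 / s ≤ ep ∧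
    ∀ S, s ≤ S → S ≤ 2 * s * K →
      0 < gain K s S ep ga L Cw (Real.log ((72 * n : ℕ) : ℝ)) (Real.log ((432 * m : ℕ) : ℝ)) ∧
      ((2 * s * K + 1 : ℕ) : ℝ) * npat S (102 * K + 12 * K ^ 3) *
        Real.exp (- gain K s S ep ga L Cw (Real.log ((72 * n : ℕ) : ℝ))
          (Real.log ((432 * m : ℕ) : ℝ)) / K) < 1 := by
  obtain ⟨m, t, K, ze, hze, p11, p12, hK, hm, p9, hLz⟩ := first
  have hK' : (1 : ℝ) ≤ K := by exact_mod_cast hK
  have hm' : (4320 : ℝ) ≤ m := by exact_mod_cast hm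
  have hlK : 0 ≤ Real.log K := Real.log_nonneg hK'
  obtain ⟨L, hL⟩ : ∃ L, L = Real.log m := ⟨_, rfl⟩
  obtain ⟨ll, hll⟩ : ∃ ll, ll = Real.log ((432 * (10 * m) : ℕ) : ℝ) := ⟨_, rfl⟩
  obtain ⟨A, hA⟩ : ∃ A, A = 102 * K + 12 * K ^ 3 := ⟨_, rfl⟩
  obtain ⟨C, hC⟩ : ∃ C : ℝ, C = (1 / 40000) / 2 * (4 * (K : ℝ) ^ 3) + (L + 11) * (4 * (K : ℝ) ^ 3) +
    8 * (K : ℝ) ^ 3 * ll := ⟨_, rfl⟩
  rw [← hL] at p9 hLz
  have heL : Real.exp L = m := by rw [hL, Real.exp_log (by linarith)]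
  have hll2 : ll ≤ 2 * L := by
    rw [hll, hL, two_mul, ← Real.log_mul (by linarith) (by linarith)]
    refine Real.log_le_log (by positivity) ?_
    push_cast
    nlinarith
  have hll0 : Real.log 72 ≤ ll := by
    rw [hll]
    refine Real.log_le_log (by positivity) ?_
    push_cast
    linarith
  have hll1 : 0 ≤ ll := (Real.log_nonneg (by norm_num)).trans hll0
  obtain ⟨s0, hs0⟩ := small (3 * K * (9 ^ 5 * 4 ^ (5 * A)) * Real.exp (C / K))
    (1 / 160000 / K) (1 + (10 + 10 * A)) (by positivity)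
  obtain ⟨s, hs1, hs2, hs3, hs4⟩ : ∃ s : ℕ, s0 ≤ s ∧ K ≤ s ∧ 5 ≤ s ∧ 12 / ze ≤ s :=
    ⟨s0 + K + 5 + ⌈12 / ze⌉₊, by omega, by omega, by omega,
      (Nat.le_ceil _).trans (Nat.cast_le.2 (by omega))⟩
  have hs' : (5 : ℝ) ≤ s := by exact_mod_cast hs3
  obtain ⟨n, hn⟩ : ∃ n, n = (432 * (10 * m)) ^ (4 * s + 4) := ⟨_, rfl⟩
  have hsn : s * K ≤ n := by
    calc s * K ≤ 2 ^ s * 2 ^ s :=
          Nat.mul_le_mul Nat.lt_two_pow_self.le (hs2.trans Nat.lt_two_pow_self.le)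
      _ = 2 ^ (s + s) := (pow_add _ _ _).symm
      _ ≤ 2 ^ (4 * s + 4) := Nat.pow_le_pow_right (by norm_num) (by omega)
      _ ≤ n := hn ▸ Nat.pow_le_pow_left (by omega) _
  have hn1 : 1 ≤ n := le_trans (Nat.mul_pos (by omega) hK) hsn
  have hn' : (1 : ℝ) ≤ n := by exact_mod_cast hn1
  have hln : Real.log ((72 * n : ℕ) : ℝ) ≤ 10 * s * L := by
    rw [Nat.cast_mul, Real.log_mul (by norm_num) (by linarith), hn, Nat.cast_pow, Real.log_pow,
      ← hll]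
    push_cast
    nlinarith
  refine ⟨10 * m, n, s, 4 * s, t, K, 76916 * n * m, 1 / 40000, L, 11, 4 * ze, ze, by omega, hn1,
    by omega, le_rfl, ?_, by nlinarith, ?_, ?_, ?_, by norm_num, by linarith, by norm_num,
    by linarith, hze, p11, p12, ?_, fun S h1 h2 => ?_⟩
  · rw [← hn]
    nlinarith
  · have h10 : (17470 : ℝ) ≤ Real.exp (-(1 / 40000) + 11) := by
      calc (17470 : ℝ) ≤ 2.7 ^ 10 := by norm_num
        _ ≤ Real.exp 1 ^ 10 :=
          pow_le_pow_left₀ (by norm_num) (le_trans (by norm_num) Real.exp_one_gt_d9.le) _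
        _ = Real.exp 10 := by rw [← Real.exp_nat_mul]; norm_num
        _ ≤ _ := Real.exp_le_exp.2 (by norm_num)
    rw [show -(1 / 40000) + L + 11 = L + (-(1 / 40000) + 11) by ring, Real.exp_add, heL]
    push_cast
    have : (0 : ℝ) ≤ n * m * m := by positivity
    nlinarith [mul_le_mul_of_nonneg_left h10 this]
  · have h := Real.add_one_le_exp (-2 * (1 / 40000))
    push_cast
    have : (0 : ℝ) ≤ n ^ 2 * m ^ 2 := by positivity
    nlinarith [mul_le_mul_of_nonneg_left h this]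
  · have h := Real.add_one_le_exp (-(1 / 40000))
    rw [Real.exp_sub, heL]
    push_cast
    rw [show (76916 : ℝ) * n * m * (Real.exp (-(1 / 40000)) / m) =
      76916 * n * Real.exp (-(1 / 40000)) by field_simp]
    nlinarith [mul_le_mul_of_nonneg_left h (zero_le_one.trans hn')]
  · rw [div_le_iff₀ hze] at hs4
    have : 24 / (s : ℝ) ≤ 2 * ze := by
      rw [div_le_iff₀ (by linarith)]
      linarith
    linarith
  · rw [← hll, ← hA]
    exact final K s S A C _ hK (by omega) h1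
      (hC ▸ gain_ge K s S ze L _ ll hze.le (by linarith) (by linarith) hLz hln) (hs0 S (hs1.trans h1))

end Vale.Agent.P201
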