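import Vale.Agent.P201.PartA
import Vale.Agent.P201.PartB
import Vale.Agent.P201.PartC0
import Vale.Agent.P201.PartC1a
import Vale.Agent.P201.PartC1b
import Vale.Agent.P201.PartC2
import Vale.Agent.P201.PartC3
import Vale.Agent.P201.PartC4
import Vale.Agent.P201.PartD1a
import Vale.Agent.P201.PartD1b
import Vale.Agent.P201.PartD1c
import Vale.Agent.P201.PartD2
import Vale.Agent.P201.PartD2b
import Vale.Agent.P201.PartD3
import Vale.Agent.P201.PartD3p
import Vale.Agent.P201.PartD4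
import Vale.Agent.P201.PartD5a
import Vale.Agent.P201.PartD5b
import Vale.Agent.P201.PartF
import Vale.Agent.P201.PartPA

/-!
A torsion-free group whose group algebra over the field with two elements has zero divisors.
-/

namespace Vale.Agent.P201

open Finset


theorem inj_of_nopic {W E Y : Type} (Γ : LG W E Y)
    (h : ∀ (J : Type) (_ : Fintype J) (_ : Nonempty J), IsEmpty (LabPic Γ J)) :
    Function.Injective (Γ.bd2 ℤ) := by
  rw [injective_iff_map_eq_zero]
  intro z hz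
  by_contra hne
  obtain ⟨cs, h1, h2⟩ := hurewicz Γ z hz
  obtain ⟨C, al, L, R, hT⟩ := tp_of_list Γ cs h1
  have : ∑ k : Fin cs.length, Γ.ch (cs.get k).2 = z := by
    rw [← h2, ← List.sum_ofFn]
    congr 1
    conv_rhs => rw [← List.ofFn_get cs, List.map_ofFn]
    rfl
  obtain ⟨J, i1, i2, ⟨P⟩⟩ := labpic_of_tp Γ univ _ al L R hT (by rw [this]; exact hne)
  exact (h J i1 i2).false P

theorem main : ∃ (G : Type) (_ : Group G), (∀ g : G, IsOfFinOrder g → g = 1) ∧
    ∃ a b : MonoidAlgebra (ZMod 2) G, a ≠ 0 ∧ b ≠ 0 ∧ a * b = 0 := by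
  classical
  obtain ⟨m, n, s, g, t, K, N0, ga, L, Cw, ep, ze, hm, hn, hs1, hs, p1, p2, p3, p4, p5, p6, p7, p8,
    p9, p10, p11, p12, p13, p14⟩ := param
  obtain ⟨M, hM, hg, hno⟩ := nc (exX n m) (ex_bd n m) (by omega) (ex_match n m) g N0 K s (102 * K)
    (ga := ga) (L := L) (Cw := Cw) (ep := ep) (by rw [ex_cardH]; exact p1)
    (by rw [ex_cardV]; omega) (by rw [ex_cardV]; exact p2)
    (le_trans (Nat.cast_le.2 (ex_s1 n m)) p3) (le_trans (Nat.cast_le.2 (ex_s2 n m)) p4)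
    (fun d => le_trans (Nat.cast_le.2 (ex_s3 n m d)) p5) hs hs1 p6 p7 p8 p9
    (by rw [ex_cardV]; exact p14)
  have hi : Function.Injective (((exX n m).lg M hM).bd2 ℤ) := by
    refine inj_of_nopic _ fun J i1 i2 => ⟨fun P => ?_⟩
    obtain ⟨O, j1, j2, ⟨Q⟩⟩ := pp_of_labpic (exX n m) M hM J P
    obtain ⟨G⟩ := seg Q.nx s hs1 fun o j h0 hj => pp_cyc Q hg o j h0 (by omega)
    obtain ⟨T, q0, q1, q2, q3, q4, q5⟩ := piece Q hs1 G ze p10 t K p11 p12
    obtain ⟨S, h, lk, rg, bl, c⟩ := config_of_piece Q hs1 G ze ep p10 p13 K T q0 q1 q2 q3 q4 q5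
    exact hno S h lk rg bl c
  have ht := tate _ hi (exact1 _)
  exact ⟨_, inferInstance, ht, zero_div n m hn hm M hM (inj2 _ hi (exact1 _)) ht⟩

end Vale.Agent.P201
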