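import Vale.Agent.P201.Defs

/-! Part A of P201: counts for the example. -/

namespace Vale.Agent.P201

open Finset

namespace A

lemma mf {α : Type*} {p : α → Prop} {i : DecidablePred p} {s : Finset α} {a : α} :
    a ∈ @Finset.filter α p i s ↔ a ∈ s ∧ p a := mem_filter

lemma sum_ix (n : ℕ) (f : Fin 3 → ℕ) : ∑ x : Ix n, f x.1.1 = 2 * n * ∑ a, exW a * f a := by
  rw [Fintype.sum_prod_type, Fintype.sum_sigma, mul_sum]
  refine sum_congr rfl fun a _ => ?_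
  simp only [sum_const, card_univ, Fintype.card_prod, Fintype.card_fin, Fintype.card_bool,
    smul_eq_mul]
  ring

lemma card_le (a l : Fin 3) : (exC a l).card ≤ 6 := by
  revert a l
  decide

lemma fib {n m : ℕ} (s : Finset (exH n m)) (x : Ix n) (i : Ix m)
    (h : ∀ h ∈ s, (exX n m).vtx h = x ∧ (exX n m).lab h = i) : s.card ≤ 6 := by
  refine le_trans (card_le_card_of_injOn (exX n m).pos (t := exC x.1.1 i.1.1) (fun c hc => ?_)
    fun c hc c' hc' e => ?_) (card_le _ _)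
  · obtain ⟨rfl, rfl⟩ := h c hc
    exact c.2.2
  · exact (exX n m).inj _ _ ((h c hc).1.trans (h c' hc').1.symm)
      ((h c hc).2.trans (h c' hc').2.symm) e

/-- Weighted number of coincidences. -/
def W (l l' : Fin 3) (d : ℤ) : ℕ :=
  ∑ a, exW a * ∑ p ∈ exC a l, ∑ q ∈ exC a l', if q - p = d then 1 else 0

lemma sum_co (n m : ℕ) (g : Ix m × Ix m × ℤ → ℕ) : ∑ c ∈ (exX n m).Co, g ((exX n m).dat c) ≤
    ∑ x : Ix n, ∑ i : Ix m, ∑ j : Ix m, ∑ p ∈ exC x.1.1 i.1.1, ∑ q ∈ exC x.1.1 j.1.1,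
      g (i, j, q - p) := by
  classical
  let φ : exH n m × exH n m → (Σ _ : Ix n × Ix m × Ix m, ℤ × ℤ) := fun c =>
    ⟨((exX n m).vtx c.1, (exX n m).lab c.1, (exX n m).lab c.2),
      ((exX n m).pos c.1, (exX n m).pos c.2)⟩
  let G : (Σ _ : Ix n × Ix m × Ix m, ℤ × ℤ) → ℕ := fun y => g (y.1.2.1, y.1.2.2, y.2.2 - y.2.1)
  have hco : ∀ c ∈ (exX n m).Co, (exX n m).vtx c.1 = (exX n m).vtx c.2 := fun c hc =>
    (mf.1 hc).2.1
  have inj : Set.InjOn φ (exX n m).Co := by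
    intro c hc c' hc' e
    simp only [φ, Sigma.mk.injEq, Prod.mk.injEq, heq_eq_eq] at e
    obtain ⟨⟨e1, e2, e3⟩, e4, e5⟩ := e
    exact Prod.ext ((exX n m).inj _ _ e1 e2 e4)
      ((exX n m).inj _ _ ((hco c hc).symm.trans (e1.trans (hco c' hc'))) e3 e5)
  have e1 : ∑ c ∈ (exX n m).Co, g ((exX n m).dat c) = ∑ y ∈ (exX n m).Co.image φ, G y := by
    rw [sum_image inj]; rfl
  have sub : (exX n m).Co.image φ ⊆ (univ : Finset (Ix n × Ix m × Ix m)).sigma
      fun y => exC y.1.1.1 y.2.1.1.1 ×ˢ exC y.1.1.1 y.2.2.1.1 := by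
    intro y hy
    obtain ⟨c, hc, rfl⟩ := mem_image.1 hy
    refine mem_sigma.2 ⟨mem_univ _, mem_product.2 ⟨c.1.2.2, ?_⟩⟩
    simp only [φ]
    rw [hco c hc]
    exact c.2.2.2
  rw [e1]
  refine (sum_le_sum_of_subset sub).trans (le_of_eq ?_)
  rw [sum_sigma, Fintype.sum_prod_type]
  refine sum_congr rfl fun x _ => ?_
  rw [Fintype.sum_prod_type]
  exact sum_congr rfl fun i _ => sum_congr rfl fun j _ => sum_product _ _ _

lemma cnt_le (n m : ℕ) (d : Ix m × Ix m × ℤ) :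
    (exX n m).cnt d ≤ 2 * n * W d.1.1.1 d.2.1.1.1 d.2.2 := by
  classical
  obtain ⟨i, j, d⟩ := d
  have h := sum_co n m fun e => if e = (i, j, d) then 1 else 0
  rw [← card_filter] at h
  refine le_trans (le_of_eq ?_) (h.trans (le_of_eq ?_))
  · unfold Sys.cnt
    congr
  · rw [W, ← sum_ix n fun a => ∑ p ∈ exC a i.1.1, ∑ q ∈ exC a j.1.1, if q - p = d then 1 else 0]
    refine sum_congr rfl fun x _ => ?_
    rw [sum_eq_single i (fun i' _ h => by simp [h]) (by simp),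
      sum_eq_single j (fun j' _ h => by simp [h]) (by simp)]
    simp

lemma total : ∑ a, exW a * ∑ l, exW l * ∑ l', exW l' *
    ∑ p ∈ exC a l, ∑ q ∈ exC a l', W l l' (q - p) = 3697327 := by
  decide +kernel

end A

open A (mf)

theorem ex_cardV (n : ℕ) : Fintype.card (Ix n) = 72 * n := by
  have := A.sum_ix n fun _ => 1
  rw [sum_const, card_univ, smul_eq_mul, mul_one] at this
  rw [this, show ∑ a, exW a * 1 = 36 by decide]
  ring

theorem ex_cardH (n m : ℕ) : Fintype.card (exH n m) = 4 * n * m * 1923 := by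
  rw [Fintype.card_sigma, Fintype.sum_prod_type]
  simp only [Fintype.card_coe]
  have e : ∀ x : Ix n, ∑ i : Ix m, (exC x.1.1 i.1.1).card =
      2 * m * ∑ l, exW l * (exC x.1.1 l).card := fun x =>
    A.sum_ix m fun l => (exC x.1.1 l).card
  simp only [e, ← mul_sum]
  rw [A.sum_ix n fun a => ∑ l, exW l * (exC a l).card,
    show ∑ a, exW a * ∑ l, exW l * (exC a l).card = 1923 by decide +kernel]
  ring

theorem ex_bd (n m : ℕ) : (exX n m).Bd (432 * m) (432 * n) := by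
  classical
  refine ⟨fun x => ?_, fun i => ?_⟩
  · refine (card_le_mul_card_image_of_maps_to (f := (exX n m).lab) (t := univ)
      (fun _ _ => mem_univ _) 6 fun i _ => A.fib _ x i fun h hh => ?_).trans ?_
    · exact ⟨(mf.1 (mf.1 hh).1).2, (mf.1 hh).2⟩
    · rw [card_univ, ex_cardV]; omega
  · refine (card_le_mul_card_image_of_maps_to (f := (exX n m).vtx) (t := univ)
      (fun _ _ => mem_univ _) 6 fun x _ => A.fib _ x i fun h hh => ?_).trans ?_
    · exact ⟨(mf.1 hh).2, (mf.1 (mf.1 hh).1).2⟩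
    · rw [card_univ, ex_cardV]; omega

theorem ex_match (n m : ℕ) : ∃ M, (exX n m).IsMatch M := by
  refine ⟨fun h => ⟨(h.1.1, (h.1.2.1, h.1.2.2.1, !h.1.2.2.2)), h.2⟩, ?_⟩
  rintro ⟨⟨x, a, i, b⟩, p⟩
  cases b <;> simp [exX]

theorem ex_s1 (n m : ℕ) : (exX n m).Co.card ≤ 72 * n * (432 * m) ^ 2 := by
  classical
  refine (card_le_mul_card_image_of_maps_to (f := fun c => (exX n m).vtx c.1) (t := univ)
    (fun _ _ => mem_univ _) ((432 * m) ^ 2) fun x _ => ?_).trans ?_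
  · have h := (ex_bd n m).1 x
    refine le_trans (card_le_card fun c hc => ?_)
      ((card_product _ _).le.trans ((Nat.mul_le_mul h h).trans (le_of_eq (sq _).symm)))
    obtain ⟨h1, h2⟩ := mf.1 hc
    exact mem_product.2 ⟨mf.2 ⟨mem_univ _, h2⟩,
      mf.2 ⟨mem_univ _, (mf.1 h1).2.1.symm.trans h2⟩⟩
  · rw [card_univ, ex_cardV, mul_comm]

theorem ex_s2 (n m : ℕ) :
    ∑ c ∈ (exX n m).Co, (exX n m).cnt ((exX n m).dat c) ≤ 16 * n ^ 2 * m ^ 2 * 3697327 := by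
  refine (sum_le_sum fun c _ => A.cnt_le n m _).trans
    ((A.sum_co n m fun d => 2 * n * A.W d.1.1.1 d.2.1.1.1 d.2.2).trans (le_of_eq ?_))
  simp only [← mul_sum]
  have e1 : ∀ a l : Fin 3, ∑ j : Ix m, ∑ p ∈ exC a l, ∑ q ∈ exC a j.1.1, A.W l j.1.1 (q - p) =
      2 * m * ∑ l', exW l' * ∑ p ∈ exC a l, ∑ q ∈ exC a l', A.W l l' (q - p) := fun a l =>
    A.sum_ix m fun l' => ∑ p ∈ exC a l, ∑ q ∈ exC a l', A.W l l' (q - p)
  simp only [e1, ← mul_sum]
  have e2 : ∀ a : Fin 3, ∑ i : Ix m, ∑ l', exW l' * ∑ p ∈ exC a i.1.1, ∑ q ∈ exC a l',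
      A.W i.1.1 l' (q - p) = 2 * m * ∑ l, exW l * ∑ l', exW l' * ∑ p ∈ exC a l,
        ∑ q ∈ exC a l', A.W l l' (q - p) := fun a =>
    A.sum_ix m fun l => ∑ l', exW l' * ∑ p ∈ exC a l, ∑ q ∈ exC a l', A.W l l' (q - p)
  simp only [e2, ← mul_sum]
  rw [A.sum_ix n fun a => ∑ l, exW l * ∑ l', exW l' * ∑ p ∈ exC a l,
    ∑ q ∈ exC a l', A.W l l' (q - p), A.total]
  ring

theorem ex_s3 (n m : ℕ) (d : Ix m × Ix m × ℤ) : (exX n m).cnt d ≤ 432 * n := by
  classical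
  refine le_trans (card_le_card_of_injOn Prod.fst (fun c hc => ?_) fun c hc c' hc' e => ?_)
    ((ex_bd n m).2 d.1)
  · exact mf.2 ⟨mem_univ _, congrArg Prod.fst (mf.1 hc).2⟩
  · obtain ⟨h1, h2⟩ := mf.1 hc
    obtain ⟨h1', h2'⟩ := mf.1 hc'
    have h3 := h2.trans h2'.symm
    simp only [Sys.dat, Prod.mk.injEq] at h3
    refine Prod.ext e ((exX n m).inj _ _ ?_ h3.2.1 ?_)
    · rw [← (mf.1 h1).2.1, ← (mf.1 h1').2.1, e]
    · have := h3.2.2
      rw [e] at this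
      omega

end Vale.Agent.P201
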