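import Vale.Agent.P201.Defs

/-! Part D4 of P201: clustering of sparse weighted graphs. -/

namespace Vale.Agent.P201

open Finset

namespace D4

variable {V : Type} [Fintype V] [DecidableEq V]

lemma cnt4 {a b : V} (hab : a ≠ b) :
    4 * (univ.filter fun col : V → Bool => col a = false ∧ col b = true).card =
      Fintype.card (V → Bool) := by
  have key : ∀ y : Bool × Bool, (univ.filter fun col : V → Bool => (col a, col b) = y).card =
      (univ.filter fun col : V → Bool => col a = false ∧ col b = true).card := by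
    rintro ⟨i, j⟩
    let f : (V → Bool) → V → Bool := fun col x =>
      if x = a then xor (col x) i else if x = b then xor (col x) (!j) else col x
    have ff : ∀ col, f (f col) = col := fun col => by
      funext x
      simp only [f]
      split_ifs <;> simp
    refine card_bij' (fun col _ => f col) (fun col _ => f col) ?_ ?_ (fun c _ => ff c)
      (fun c _ => ff c)
    · intro col h
      simp only [mem_filter, mem_univ, true_and, Prod.mk.injEq] at h ⊢
      simp [f, hab.symm, h.1, h.2]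
    · intro col h
      simp only [mem_filter, mem_univ, true_and, Prod.mk.injEq] at h ⊢
      simp [f, hab.symm, h.1, h.2]
  rw [← card_univ, card_eq_sum_card_fiberwise (f := fun col : V → Bool => (col a, col b))
    (s := univ) (t := univ) (fun _ _ => mem_univ _)]
  simp only [key, sum_const, card_univ, Fintype.card_prod, Fintype.card_bool, smul_eq_mul]

lemma exists_col (p : V → V) (m : V → ℕ) (h : ∀ c, 0 < m c → p c ≠ c) :
    ∃ col : V → Bool, ∑ c, m c ≤ 4 * ∑ c, if col c = false ∧ col (p c) = true then m c else 0 := by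
  refine (exists_le_of_sum_le (s := (univ : Finset (V → Bool))) univ_nonempty (le_of_eq ?_)).imp
    fun _ h => h.2
  rw [← mul_sum, sum_comm (s := (univ : Finset (V → Bool))) (t := univ)
    (f := fun col c => if col c = false ∧ col (p c) = true then m c else 0), mul_sum, sum_comm]
  refine sum_congr rfl fun c _ => ?_
  rw [← sum_filter, sum_const, sum_const, card_univ, smul_eq_mul, smul_eq_mul, ← mul_assoc]
  rcases Nat.eq_zero_or_pos (m c) with h0 | h0
  · simp [h0]
  · rw [cnt4 (h c h0).symm]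

/-- Quotient weights. -/
def W (w : V → V → ℕ) (cl : V → V) (c c' : V) : ℕ :=
  ∑ x ∈ univ.filter (fun x => cl x = c), ∑ y ∈ univ.filter (fun y => cl y = c'), w x y

lemma W_symm {w : V → V → ℕ} (hs : ∀ x y, w x y = w y x) (cl : V → V) (c c' : V) :
    W w cl c c' = W w cl c' c := by
  rw [W, W, sum_comm]
  simp only [hs]

lemma W_pos {w : V → V → ℕ} {cl : V → V} {c c' : V} (h : 0 < W w cl c c') :
    ∃ x y, cl x = c ∧ cl y = c' ∧ 0 < w x y := by
  obtain ⟨x, hx, h1⟩ := exists_ne_zero_of_sum_ne_zero h.ne'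
  obtain ⟨y, hy, h2⟩ := exists_ne_zero_of_sum_ne_zero h1
  exact ⟨x, y, (mem_filter.1 hx).2, (mem_filter.1 hy).2, Nat.pos_of_ne_zero h2⟩

lemma cut_eq (w : V → V → ℕ) (cl q : V → V) :
    ∑ x, ∑ y ∈ univ.filter (fun y => q (cl y) ≠ q (cl x)), w x y =
      ∑ c, ∑ c', if q c' ≠ q c then W w cl c c' else 0 := by
  rw [← sum_fiberwise (s := univ) (g := cl)]
  refine sum_congr rfl fun c _ => ?_
  have : ∀ c', (if q c' ≠ q c then W w cl c c' else 0) = ∑ x ∈ univ.filter (fun x => cl x = c),
      ∑ y ∈ univ.filter (fun y => cl y = c'), if q (cl y) ≠ q (cl x) then w x y else 0 := by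
    intro c'
    split_ifs with h
    · refine sum_congr rfl fun x hx => sum_congr rfl fun y hy => ?_
      rw [(mem_filter.1 hx).2, (mem_filter.1 hy).2, if_pos h]
    · refine (sum_eq_zero fun x hx => sum_eq_zero fun y hy => ?_).symm
      rw [(mem_filter.1 hx).2, (mem_filter.1 hy).2, if_neg h]
  simp only [this]
  rw [sum_comm]
  refine sum_congr rfl fun x _ => ?_
  rw [sum_fiberwise (s := univ) (g := cl), sum_filter]

lemma cake {n B : ℕ} (h : n ≤ B) : n = ∑ τ ∈ Icc 1 B, if τ ≤ n then 1 else 0 := by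
  rw [← card_filter]
  have : (Icc 1 B).filter (fun τ => τ ≤ n) = Icc 1 n := by
    ext τ; simp only [mem_filter, mem_Icc]; omega
  rw [this]; simp

lemma layer {w : V → V → ℕ} (hs : ∀ x y, w x y = w y x) (hsp : Sparse fun a b => 0 < w a b)
    {cl : V → V}
    (hc : ∀ k k', cl k = cl k' → Relation.EqvGen (fun a b => cl a = cl b ∧ 0 < w a b) k k')
    {m : V → ℕ} (hm : ∀ c c', c' ≠ c → W w cl c c' ≤ m c) :
    ∑ c, ∑ c', (if c' ≠ c then W w cl c c' else 0) ≤ 6 * ∑ c, m c := by
  obtain ⟨B, hB⟩ : ∃ B, ∀ c, m c ≤ B := ⟨univ.sup m, fun c => le_sup (mem_univ c)⟩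
  have e1 : ∀ c c', (if c' ≠ c then W w cl c c' else 0) =
      ∑ τ ∈ Icc 1 B, if c' ≠ c ∧ τ ≤ W w cl c c' then 1 else 0 := by
    intro c c'
    by_cases h : c' = c
    · simp [h]
    · rw [if_pos h]
      simp only [ne_eq, h, not_false_eq_true, true_and]
      exact cake ((hm c c' h).trans (hB c))
  simp only [e1]
  rw [sum_congr rfl fun c _ => cake (hB c), sum_comm (s := univ) (t := Icc 1 B), mul_sum,
    ← sum_product', sum_comm]
  refine sum_le_sum fun τ hτ => ?_
  rw [← card_filter, ← card_filter]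
  refine (hsp V cl hc _ ?_ ?_).trans (Nat.mul_le_mul_left _ (card_le_card ?_))
  · intro p hp
    simp only [mem_filter, mem_product, mem_univ, true_and, Prod.fst_swap, Prod.snd_swap] at hp ⊢
    exact ⟨hp.1.symm, W_symm hs cl _ _ ▸ hp.2⟩
  · intro p hp
    simp only [mem_filter, mem_product, mem_univ, true_and] at hp
    obtain ⟨x, y, h1, h2, h3⟩ := W_pos (lt_of_lt_of_le (mem_Icc.1 hτ).1 hp.2)
    exact ⟨hp.1.symm, x, y, h1, h2, Or.inl h3⟩
  · intro c hc'
    obtain ⟨p, hp, rfl⟩ := mem_image.1 hc'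
    simp only [mem_filter, mem_product, mem_univ, true_and] at hp ⊢
    exact hp.2.trans (hm _ _ hp.1)

lemma exists_arg (w : V → V → ℕ) (cl : V → V) : ∃ (p : V → V) (m : V → ℕ),
    (∀ c c', c' ≠ c → W w cl c c' ≤ m c) ∧ ∀ c, 0 < m c → p c ≠ c ∧ W w cl c (p c) = m c := by
  have : ∀ c, ∃ (p : V) (m : ℕ), (∀ c', c' ≠ c → W w cl c c' ≤ m) ∧
      (0 < m → p ≠ c ∧ W w cl c p = m) := by
    intro c
    rcases (univ.erase c).eq_empty_or_nonempty with h | h
    · refine ⟨c, 0, fun c' hc' => ?_, fun h => absurd h (lt_irrefl _)⟩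
      exact absurd (mem_erase.2 ⟨hc', mem_univ _⟩) (by rw [h]; simp)
    · obtain ⟨p, hp, h2⟩ := exists_max_image _ (W w cl c) h
      exact ⟨p, _, fun c' hc' => h2 c' (mem_erase.2 ⟨hc', mem_univ _⟩),
        fun _ => ⟨(mem_erase.1 hp).1, rfl⟩⟩
  choose p m h1 h2 using this
  exact ⟨p, m, h1, h2⟩

lemma step {w : V → V → ℕ} (hs : ∀ x y, w x y = w y x) {D : ℝ} (hD : ∀ x, ∑ y, (w x y : ℝ) ≤ D)
    (hsp : Sparse fun a b => 0 < w a b) {e1 : ℝ} (he : 0 < e1) {cl : V → V}
    (hc : ∀ k k', cl k = cl k' → Relation.EqvGen (fun a b => cl a = cl b ∧ 0 < w a b) k k') :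
    ∃ cl' : V → V,
      (∀ k k', cl' k = cl' k' → Relation.EqvGen (fun a b => cl' a = cl' b ∧ 0 < w a b) k k') ∧
      (∀ c, ((univ.filter fun x => cl' x = c).card : ℝ) ≤
        (1 + D / e1) * (univ.filter fun x => cl x = c).card) ∧
      ((∑ x, ∑ y ∈ univ.filter (fun y => cl' y ≠ cl' x), w x y : ℕ) : ℝ) ≤
        11 / 12 * (∑ x, ∑ y ∈ univ.filter (fun y => cl y ≠ cl x), w x y : ℕ) +
          2 * e1 * Fintype.card V := by
  classical
  obtain ⟨p, m, hm, hp⟩ := exists_arg w cl
  obtain ⟨col, hcol⟩ := exists_col p m fun c h => (hp c h).1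
  have hl := layer hs hsp hc hm
  obtain ⟨sz, hsz⟩ : ∃ sz : V → ℕ, sz = fun c => (univ.filter fun x => cl x = c).card := ⟨_, rfl⟩
  obtain ⟨Mg, hMg⟩ : ∃ Mg : V → Prop, ∀ c, Mg c ↔
      (col c = false ∧ col (p c) = true) ∧ e1 * sz c ≤ m c ∧ 0 < m c := ⟨_, fun _ => Iff.rfl⟩
  obtain ⟨q, hq⟩ : ∃ q : V → V, q = fun c => if Mg c then p c else c := ⟨_, rfl⟩
  have q1 : ∀ c, Mg c → q c = p c := fun c h => by simp [hq, h]
  have q2 : ∀ c, ¬ Mg c → q c = c := fun c h => by simp [hq, h]
  have q3 : ∀ c, Mg c → ¬ Mg (p c) := fun c h h' => by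
    have := ((hMg c).1 h).1.2.symm.trans ((hMg _).1 h').1.1
    simp at this
  refine ⟨fun x => q (cl x), ?_, ?_, ?_⟩
  · have mono : ∀ k k', cl k = cl k' →
        Relation.EqvGen (fun a b => q (cl a) = q (cl b) ∧ 0 < w a b) k k' := fun k k' h =>
      Relation.EqvGen.mono (r := fun a b => cl a = cl b ∧ 0 < w a b)
        (fun a b hab => ⟨by rw [hab.1], hab.2⟩) _ _ (hc k k' h)
    have top : ∀ k, ∃ k0, cl k0 = q (cl k) ∧
        Relation.EqvGen (fun a b => q (cl a) = q (cl b) ∧ 0 < w a b) k k0 := by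
      intro k
      by_cases h : Mg (cl k)
      · have h0 := ((hMg _).1 h).2.2
        obtain ⟨x, y, h1, h2, h3⟩ := W_pos ((hp _ h0).2 ▸ h0 : 0 < W w cl (cl k) (p (cl k)))
        refine ⟨y, h2.trans (q1 _ h).symm, .trans _ _ _ (mono k x h1.symm) (.rel _ _ ⟨?_, h3⟩)⟩
        rw [h1, h2, q1 _ h, q2 _ (q3 _ h)]
      · exact ⟨k, (q2 _ h).symm, .refl _⟩
    intro k k' h
    obtain ⟨a, a1, a2⟩ := top k
    obtain ⟨b, b1, b2⟩ := top k'
    exact .trans _ _ _ a2 (.trans _ _ _ (mono a b (a1.trans (h.trans b1.symm))) (.symm _ _ b2))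
  · intro c
    have e : (univ.filter fun x => q (cl x) = c).card = ∑ c0, if q c0 = c then sz c0 else 0 := by
      rw [card_eq_sum_card_fiberwise (f := cl) (t := univ) (fun _ _ => mem_univ _)]
      refine sum_congr rfl fun c0 _ => ?_
      rw [hsz, filter_filter]
      split_ifs with h
      · congr 1
        ext x
        simp only [mem_filter, mem_univ, true_and, and_iff_right_iff_imp]
        rintro rfl
        exact h
      · rw [card_eq_zero, filter_eq_empty_iff]
        rintro x - ⟨h1, rfl⟩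
        exact h h1
    have e2 : ∑ c0, (W w cl c c0 : ℝ) ≤ D * sz c := by
      simp only [W, Nat.cast_sum]
      rw [sum_comm]
      refine (sum_le_sum fun x _ => ((sum_fiberwise (s := univ) (g := cl)
        (f := fun y => (w x y : ℝ))).le.trans (hD x))).trans ?_
      rw [sum_const, nsmul_eq_mul, hsz, mul_comm]
    rw [e, Nat.cast_sum]
    calc _ ≤ ∑ c0, ((if c0 = c then (sz c : ℝ) else 0) + W w cl c c0 / e1) := by
          refine sum_le_sum fun c0 _ => ?_
          have n1 : (0 : ℝ) ≤ W w cl c c0 / e1 := by positivity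
          have n2 : (0 : ℝ) ≤ if c0 = c then (sz c : ℝ) else 0 := by split_ifs <;> positivity
          by_cases h : q c0 = c
          · rw [if_pos h]
            by_cases h1 : Mg c0
            · have h2 := ((hMg _).1 h1).2
              rw [← (hp _ h2.2).2, ← q1 _ h1, h, W_symm hs] at h2
              have : (sz c0 : ℝ) ≤ W w cl c c0 / e1 := by rw [le_div_iff₀ he]; linarith [h2.1]
              linarith
            · rw [q2 _ h1] at h
              subst h
              rw [if_pos rfl]
              linarith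
          · rw [if_neg h, Nat.cast_zero]
            linarith
      _ = sz c + (∑ c0, (W w cl c c0 : ℝ)) / e1 := by
          rw [sum_add_distrib, sum_ite_eq', if_pos (mem_univ _), sum_div]
      _ ≤ sz c + D * sz c / e1 := by gcongr
      _ = _ := by rw [hsz]; ring
  · have c1 := cut_eq w cl id
    simp only [id] at c1
    rw [cut_eq w cl q, c1]
    have d1 : ∑ c, ∑ c', (if Mg c ∧ c' = p c then W w cl c c' else 0) =
        ∑ c, if Mg c then m c else 0 := by
      refine sum_congr rfl fun c _ => ?_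
      by_cases h : Mg c
      · simp [h, (hp _ ((hMg _).1 h).2.2).2]
      · simp [h]
    have d2 : ∑ c, ∑ c', (if Mg c' ∧ c = p c' then W w cl c c' else 0) =
        ∑ c, if Mg c then m c else 0 := by
      rw [sum_comm, ← d1]
      simp only [W_symm hs cl]
    have d3 : ∑ c, ∑ c', (if q c' ≠ q c then W w cl c c' else 0) +
        2 * ∑ c, (if Mg c then m c else 0) ≤ ∑ c, ∑ c', if c' ≠ c then W w cl c c' else 0 := by
      rw [two_mul]
      nth_rewrite 1 [← d1]
      rw [← d2, ← sum_add_distrib, ← sum_add_distrib]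
      refine sum_le_sum fun c _ => ?_
      rw [← sum_add_distrib, ← sum_add_distrib]
      refine sum_le_sum fun c' _ => ?_
      by_cases h1 : Mg c ∧ c' = p c
      · obtain ⟨h1, rfl⟩ := h1
        simp [h1, q3 _ h1, q1 _ h1, q2 _ (q3 _ h1), (hp _ ((hMg _).1 h1).2.2).1]
      · by_cases h2 : Mg c' ∧ c = p c'
        · obtain ⟨h2, rfl⟩ := h2
          simp [h2, q3 _ h2, q1 _ h2, q2 _ (q3 _ h2), (hp _ ((hMg _).1 h2).2.2).1.symm]
        · rw [if_neg h1, if_neg h2, add_zero, add_zero]
          by_cases h3 : c' = c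
          · simp [h3]
          · rw [if_pos h3]
            split_ifs <;> simp
    have d4 : ((∑ c, if col c = false ∧ col (p c) = true then m c else 0 : ℕ) : ℝ) ≤
        (∑ c, if Mg c then m c else 0 : ℕ) + e1 * Fintype.card V := by
      have : (Fintype.card V : ℝ) = ∑ c, (sz c : ℝ) := by
        rw [← card_univ, card_eq_sum_card_fiberwise (f := cl) (t := univ) (fun _ _ => mem_univ _),
          hsz, Nat.cast_sum]
      rw [this, mul_sum, Nat.cast_sum, Nat.cast_sum, ← sum_add_distrib]
      refine sum_le_sum fun c _ => ?_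
      have n1 : (0 : ℝ) ≤ e1 * sz c := by positivity
      by_cases h : Mg c
      · rw [if_pos h, if_pos ((hMg _).1 h).1]
        linarith
      · rw [if_neg h, Nat.cast_zero, zero_add]
        split_ifs with h1
        · by_contra h2
          rw [not_le] at h2
          exact h ((hMg _).2 ⟨h1, h2.le, by exact_mod_cast n1.trans_lt h2⟩)
        · simpa using n1
    have r1 := (Nat.cast_le (α := ℝ)).2 hl
    have r2 := (Nat.cast_le (α := ℝ)).2 hcol
    have r3 := (Nat.cast_le (α := ℝ)).2 d3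
    rw [Nat.cast_mul, Nat.cast_ofNat] at r1 r2
    rw [Nat.cast_add, Nat.cast_mul, Nat.cast_ofNat] at r3
    linarith

end D4

theorem cluster {V : Type} [Fintype V] [DecidableEq V] (w : V → V → ℕ)
    (hs : ∀ x y, w x y = w y x) (D : ℝ) (hD : ∀ x, ∑ y, (w x y : ℝ) ≤ D)
    (hsp : Sparse fun a b => 0 < w a b) (e1 : ℝ) (he : 0 < e1) (t : ℕ) :
    ∃ cl : V → V, (∀ c, ((univ.filter fun x => cl x = c).card : ℝ) ≤ (1 + D / e1) ^ t) ∧
      ∑ x, ∑ y ∈ univ.filter (fun y => cl y ≠ cl x), (w x y : ℝ) ≤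
        (11 / 12) ^ t * D * Fintype.card V + 24 * e1 * Fintype.card V := by
  rcases isEmpty_or_nonempty V with hV | ⟨⟨v⟩⟩
  · exact ⟨id, fun c => hV.elim c, by simp⟩
  have D0 : 0 ≤ D := le_trans (by positivity) (hD v)
  have key : ∃ cl : V → V,
      (∀ k k', cl k = cl k' → Relation.EqvGen (fun a b => cl a = cl b ∧ 0 < w a b) k k') ∧
      (∀ c, ((univ.filter fun x => cl x = c).card : ℝ) ≤ (1 + D / e1) ^ t) ∧
      ((∑ x, ∑ y ∈ univ.filter (fun y => cl y ≠ cl x), w x y : ℕ) : ℝ) ≤
        (11 / 12) ^ t * D * Fintype.card V + 24 * e1 * Fintype.card V := by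
    induction t with
    | zero =>
      refine ⟨id, fun k k' h => ?_, fun c => ?_, ?_⟩
      · obtain rfl : k = k' := h
        exact .refl _
      · simp [filter_eq']
      · have : ((∑ x, ∑ y ∈ univ.filter (fun y => id y ≠ id x), w x y : ℕ) : ℝ) ≤ ∑ _x : V, D := by
          rw [Nat.cast_sum]
          refine sum_le_sum fun x _ => le_trans ?_ (hD x)
          rw [Nat.cast_sum]
          exact sum_le_sum_of_subset_of_nonneg (filter_subset _ _) fun _ _ _ => by positivity
        rw [sum_const, card_univ, nsmul_eq_mul] at this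
        have h2 : (0 : ℝ) ≤ 24 * e1 * Fintype.card V := by positivity
        rw [pow_zero]
        linarith
    | succ t ih =>
      obtain ⟨cl, h1, h2, h3⟩ := ih
      obtain ⟨cl', k1, k2, k3⟩ := D4.step hs hD hsp he h1
      refine ⟨cl', k1, fun c => (k2 c).trans ?_, k3.trans ?_⟩
      · rw [pow_succ']
        exact mul_le_mul_of_nonneg_left (h2 c) (by positivity)
      · rw [pow_succ]
        linarith
  obtain ⟨cl, -, h2, h3⟩ := key
  refine ⟨cl, h2, ?_⟩
  simpa only [Nat.cast_sum] using h3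

end Vale.Agent.P201
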